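import Crest.Agent.H3N.Basic

/-! Alternating words and the algebraic part of free independence with amalgamation. -/

set_option autoImplicit false

open scoped InnerProductSpace ComplexOrder
open Filter Topology

noncomputable section

namespace Crest.Agent.H3N

theorem bne3 {i j k : Bool} (h : j ≠ i) (h' : k ≠ i) : j = k := by
  cases i <;> cases j <;> cases k <;> simp_all

theorem not_ne (i : Bool) : (!i) ≠ i := by cases i <;> simp

/-- alternating words with first letter of type `i` and last letter of type `k`. -/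
inductive Alt {A : Type} [Mul A] (P : Bool → Set A) : Bool → Bool → A → Prop
  | single {i : Bool} {a : A} : a ∈ P i → Alt P i i a
  | cons {i j k : Bool} {a w : A} : a ∈ P i → j ≠ i → Alt P j k w → Alt P i k (a * w)

namespace Alt
variable {A : Type} [CStarAlgebra A] {P : Bool → Set A}

theorem rel {B : Type} [CStarAlgebra B] {P' : Bool → Set B} (R : A → B → Prop)
    (hR : ∀ a a' b b', R a b → R a' b' → R (a * a') (b * b'))
    (h : ∀ i, ∀ b ∈ P' i, ∃ a ∈ P i, R a b) {i k : Bool} {w' : B} (hw : Alt P' i k w') :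
    ∃ w, Alt P i k w ∧ R w w' := by
  induction hw with
  | single ha => obtain ⟨a, h1, h2⟩ := h _ _ ha; exact ⟨a, .single h1, h2⟩
  | cons ha hj _ ih =>
    obtain ⟨a, h1, h2⟩ := h _ _ ha
    obtain ⟨w, h3, h4⟩ := ih
    exact ⟨a * w, .cons h1 hj h3, hR _ _ _ _ h2 h4⟩

theorem mono {P' : Bool → Set A} (h : ∀ i, P i ⊆ P' i) {i k : Bool} {w : A} (hw : Alt P i k w) :
    Alt P' i k w := by
  induction hw with
  | single ha => exact .single (h _ ha)
  | cons ha hj _ ih => exact .cons (h _ ha) hj ih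

theorem concat {i k l m : Bool} {w w' : A} (hw : Alt P i k w) (hl : l ≠ k) (hw' : Alt P l m w') :
    Alt P i m (w * w') := by
  induction hw with
  | single ha => exact .cons ha hl hw'
  | cons ha hj _ ih => rw [mul_assoc]; exact .cons ha hj (ih hl)

theorem star (hP : ∀ i, ∀ a ∈ P i, star a ∈ P i) {i k : Bool} {w : A} (hw : Alt P i k w) :
    Alt P k i (star w) := by
  induction hw with
  | single ha => exact .single (hP _ _ ha)
  | cons ha hj _ ih => rw [star_mul]; exact ih.concat hj.symm (.single (hP _ _ ha))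

theorem mul_left {c : A} (hP : ∀ i, ∀ a ∈ P i, c * a ∈ P i) {i k : Bool} {w : A}
    (hw : Alt P i k w) : Alt P i k (c * w) := by
  cases hw with
  | single ha => exact .single (hP _ _ ha)
  | cons ha hj h => rw [← mul_assoc]; exact .cons (hP _ _ ha) hj h

theorem mul_right {c : A} (hP : ∀ i, ∀ a ∈ P i, a * c ∈ P i) {i k : Bool} {w : A}
    (hw : Alt P i k w) : Alt P i k (w * c) := by
  induction hw with
  | single ha => exact .single (hP _ _ ha)
  | cons ha hj _ ih => rw [mul_assoc]; exact .cons ha hj ih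

theorem cases_left {i k : Bool} {w : A} (hw : Alt P i k w) :
    (k = i ∧ w ∈ P i) ∨ ∃ a ∈ P i, ∃ w', Alt P (!i) k w' ∧ w = a * w' := by
  cases hw with
  | single ha => exact Or.inl ⟨rfl, ha⟩
  | cons ha hj h => exact Or.inr ⟨_, ha, _, bne3 hj (not_ne i) ▸ h, rfl⟩

theorem cases_right {i k : Bool} {w : A} (hw : Alt P i k w) :
    (i = k ∧ w ∈ P k) ∨ ∃ a ∈ P k, ∃ w', Alt P i (!k) w' ∧ w = w' * a := by
  induction hw with
  | single ha => exact Or.inl ⟨rfl, ha⟩
  | @cons i j k a w ha hj _ ih =>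
    rcases ih with ⟨rfl, h⟩ | ⟨b, hb, w', h1, rfl⟩
    · refine Or.inr ⟨w, h, a, ?_, rfl⟩
      rw [← bne3 hj.symm (not_ne j)]
      exact .single ha
    · exact Or.inr ⟨b, hb, a * w', .cons ha hj h1, (mul_assoc _ _ _).symm⟩

theorem mem_of {S : Set A} (hS : ∀ i, ∀ a ∈ P i, ∀ y ∈ S, a * y ∈ S) {i k : Bool} {w : A}
    (hw : Alt P i k w) : ∀ y ∈ S, w * y ∈ S := by
  induction hw with
  | single ha => exact hS _ _ ha
  | cons ha _ _ ih => intro y hy; rw [mul_assoc]; exact hS _ _ ha _ (ih y hy)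

end Alt

section
variable {A : Type} [CStarAlgebra A]

/-- `{y | x * y ∈ Q}` -/
def lq (x : A) (Q : Submodule ℂ A) : Submodule ℂ A := Q.comap (LinearMap.mulLeft ℂ x)
/-- `{x | x * y ∈ Q}` -/
def rq (y : A) (Q : Submodule ℂ A) : Submodule ℂ A := Q.comap (LinearMap.mulRight ℂ y)

@[simp] theorem mem_lq {x y : A} {Q : Submodule ℂ A} : y ∈ lq x Q ↔ x * y ∈ Q := Iff.rfl
@[simp] theorem mem_rq {x y : A} {Q : Submodule ℂ A} : x ∈ rq y Q ↔ x * y ∈ Q := Iff.rfl

theorem isClosed_lq {x : A} {Q : Submodule ℂ A} (h : IsClosed (Q : Set A)) :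
    IsClosed (lq x Q : Set A) := h.preimage (continuous_const.mul continuous_id)
theorem isClosed_rq {y : A} {Q : Submodule ℂ A} (h : IsClosed (Q : Set A)) :
    IsClosed (rq y Q : Set A) := h.preimage (continuous_id.mul continuous_const)

theorem span_mul_mem {s : Set A} {Q : Submodule ℂ A} {x y : A} (h : ∀ w ∈ s, x * w ∈ Q)
    (hy : y ∈ Submodule.span ℂ s) : x * y ∈ Q :=
  (Submodule.span_le (p := lq x Q)).mpr h hy

theorem clspan_le {E : Type} [NormedAddCommGroup E] [NormedSpace ℂ E] {s : Set E}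
    {Q : Submodule ℂ E} (h : s ⊆ Q) (hQ : IsClosed (Q : Set E)) :
    (Submodule.span ℂ s).topologicalClosure ≤ Q :=
  Submodule.topologicalClosure_minimal _ (Submodule.span_le.mpr h) hQ

/-- words with letters in the closed span of letters are in the closed span of words -/
theorem Alt.clspan {P P' : Bool → Set A}
    (h : ∀ i, P' i ⊆ (Submodule.span ℂ (P i)).topologicalClosure) {i k : Bool} {w : A}
    (hw : Alt P' i k w) : w ∈ (Submodule.span ℂ {w | Alt P i k w}).topologicalClosure := by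
  induction hw with
  | single ha =>
    refine clspan_le (fun a ha => ?_) (Submodule.isClosed_topologicalClosure _) (h _ ha)
    exact Submodule.le_topologicalClosure _ (Submodule.subset_span (Alt.single ha))
  | @cons i j k a w ha hj _ ih =>
    have hc := Submodule.isClosed_topologicalClosure (Submodule.span ℂ {w | Alt P i k w})
    refine (mem_rq).mp (clspan_le (fun b hb => ?_) (isClosed_rq hc) (h _ ha))
    refine (mem_lq).mp (clspan_le (fun w' hw' => ?_) (isClosed_lq hc) ih)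
    exact Submodule.le_topologicalClosure _ (Submodule.subset_span (Alt.cons hb hj hw'))

/-- algebraic data of two subalgebras with common subalgebra `C` and complements `P`. -/
structure PreFree (B : Bool → StarSubalgebra ℂ A) (C : StarSubalgebra ℂ A) (P : Bool → Set A) :
    Prop where
  le : ∀ i, C ≤ B i
  sub : ∀ i, ∀ a ∈ P i, a ∈ B i
  split : ∀ i, ∀ x ∈ B i, ∃ c ∈ C, x - c ∈ P i
  mul_l : ∀ i, ∀ c ∈ C, ∀ a ∈ P i, c * a ∈ P i
  star : ∀ i, ∀ a ∈ P i, star a ∈ P i

/-- span of the words with first letter of type `i` -/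
def Wd (P : Bool → Set A) (i : Bool) : Submodule ℂ A := Submodule.span ℂ {w | ∃ k, Alt P i k w}

theorem Alt.mem_Wd {P : Bool → Set A} {i k : Bool} {w : A} (h : Alt P i k w) : w ∈ Wd P i :=
  Submodule.subset_span ⟨k, h⟩

/-- `C + W i` -/
def CW (C : StarSubalgebra ℂ A) (P : Bool → Set A) (i : Bool) : Submodule ℂ A :=
  C.toSubalgebra.toSubmodule ⊔ Wd P i

/-- `C + W true + W false` -/
def SS (C : StarSubalgebra ℂ A) (P : Bool → Set A) : Submodule ℂ A :=
  CW C P true ⊔ Wd P false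

theorem mem_CW {C : StarSubalgebra ℂ A} {P : Bool → Set A} {i : Bool} {y : A} :
    y ∈ CW C P i ↔ ∃ c ∈ C, ∃ w ∈ Wd P i, c + w = y := Submodule.mem_sup

theorem SS_eq (C : StarSubalgebra ℂ A) (P : Bool → Set A) {i j : Bool} (h : i ≠ j) :
    SS C P = CW C P i ⊔ Wd P j := by
  cases i <;> cases j <;> simp_all [SS, CW, sup_assoc, sup_comm (Wd P true)]

theorem Wd_le_SS (C : StarSubalgebra ℂ A) (P : Bool → Set A) (j : Bool) : Wd P j ≤ SS C P := by
  rw [SS_eq C P (not_ne j)]; exact le_sup_right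

theorem CW_le_SS (C : StarSubalgebra ℂ A) (P : Bool → Set A) (j : Bool) : CW C P j ≤ SS C P := by
  rw [SS_eq C P (not_ne j).symm]; exact le_sup_left

theorem C_mem_CW {C : StarSubalgebra ℂ A} (P : Bool → Set A) (j : Bool) {c : A} (hc : c ∈ C) :
    c ∈ CW C P j := mem_CW.mpr ⟨c, hc, 0, zero_mem _, add_zero _⟩

theorem Wd_mem_CW (C : StarSubalgebra ℂ A) {P : Bool → Set A} {j : Bool} {w : A}
    (hw : w ∈ Wd P j) : w ∈ CW C P j := mem_CW.mpr ⟨0, zero_mem _, w, hw, zero_add _⟩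

/-- span of `x * w * y`, `x, y ∈ B j`, `w` a word starting and ending with the other type -/
def QQ (B : Bool → StarSubalgebra ℂ A) (P : Bool → Set A) (j : Bool) : Set A :=
  {z | ∃ x ∈ B j, ∃ w, Alt P (!j) (!j) w ∧ ∃ y ∈ B j, z = x * w * y}

namespace PreFree
variable {B : Bool → StarSubalgebra ℂ A} {C : StarSubalgebra ℂ A} {P : Bool → Set A}
  (F : PreFree B C P)
include F

theorem mul_r (i : Bool) (c : A) (hc : c ∈ C) (a : A) (ha : a ∈ P i) : a * c ∈ P i := by
  have := F.star i _ (F.mul_l i _ (star_mem hc) _ (F.star i _ ha))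
  simpa using this

theorem C_mul_Wd {c y : A} (hc : c ∈ C) {i : Bool} (hy : y ∈ Wd P i) : c * y ∈ Wd P i :=
  span_mul_mem (by rintro _ ⟨_, hw⟩; exact (hw.mul_left fun i => F.mul_l i c hc).mem_Wd) hy

theorem C_mul_CW {c y : A} (hc : c ∈ C) {i : Bool} (hy : y ∈ CW C P i) : c * y ∈ CW C P i := by
  obtain ⟨c', hc', w, hw, rfl⟩ := mem_CW.mp hy
  rw [mul_add]
  exact mem_CW.mpr ⟨_, mul_mem hc hc', _, F.C_mul_Wd hc hw, rfl⟩

omit F in
theorem alt_mul_Wd {i k l : Bool} {w y : A} (hw : Alt P i k w) (hl : l ≠ k) (hy : y ∈ Wd P l) :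
    w * y ∈ Wd P i :=
  span_mul_mem (by rintro _ ⟨_, hw'⟩; exact (hw.concat hl hw').mem_Wd) hy

theorem alt_mul_CW {i k l : Bool} {w y : A} (hw : Alt P i k w) (hl : l ≠ k) (hy : y ∈ CW C P l) :
    w * y ∈ Wd P i := by
  obtain ⟨c', hc', w', hw', rfl⟩ := mem_CW.mp hy
  rw [mul_add]
  exact add_mem (hw.mul_right fun i a ha => F.mul_r i c' hc' a ha).mem_Wd (alt_mul_Wd hw hl hw')

theorem B_mul_CW {i l : Bool} {x y : A} (hx : x ∈ B i) (hl : l ≠ i) (hy : y ∈ CW C P l) :
    x * y ∈ SS C P := by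
  obtain ⟨c, hc, ha⟩ := F.split i x hx
  have : x * y = c * y + (x - c) * y := by noncomm_ring
  rw [this]
  exact add_mem (CW_le_SS _ _ _ (F.C_mul_CW hc hy))
    (Wd_le_SS _ _ _ (F.alt_mul_CW (.single ha) hl hy))

theorem B_mul_SS {i : Bool} {x y : A} (hx : x ∈ B i) (hy : y ∈ SS C P) : x * y ∈ SS C P := by
  rw [SS_eq C P (not_ne i)] at hy
  obtain ⟨y₁, h1, y₂, h2, rfl⟩ := Submodule.mem_sup.mp hy
  rw [mul_add]
  refine add_mem (F.B_mul_CW hx (not_ne i) h1) (span_mul_mem ?_ h2)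
  rintro w ⟨k, hw⟩
  rcases hw.cases_left with ⟨-, ha⟩ | ⟨a, ha, w', hw', rfl⟩
  · simpa using F.B_mul_CW (mul_mem hx (F.sub _ _ ha)) (not_ne i) (C_mem_CW P _ (one_mem C))
  · rw [← mul_assoc]
    exact F.B_mul_CW (mul_mem hx (F.sub _ _ ha)) (not_ne i) (Wd_mem_CW C hw'.mem_Wd)

omit F in
theorem one_mem_SS : (1 : A) ∈ SS C P := CW_le_SS C P true (C_mem_CW P _ (one_mem C))

theorem alt_mul_SS {i k : Bool} {w y : A} (hw : Alt P i k w) (hy : y ∈ SS C P) :
    w * y ∈ SS C P :=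
  hw.mem_of (S := SS C P) (fun i a ha _ hy => F.B_mul_SS (F.sub i a ha) hy) y hy

theorem sup_mul_SS {x : A} (hx : x ∈ B true ⊔ B false) : ∀ y ∈ SS C P, x * y ∈ SS C P := by
  have h : B true ⊔ B false = StarAlgebra.adjoin ℂ ((B true : Set A) ∪ B false) := by
    apply le_antisymm
    · exact sup_le (fun x hx => StarAlgebra.subset_adjoin ℂ _ (Or.inl hx))
        (fun x hx => StarAlgebra.subset_adjoin ℂ _ (Or.inr hx))
    · refine StarAlgebra.adjoin_le ?_
      rintro x (hx | hx)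
      · exact (le_sup_left : B true ≤ _) hx
      · exact (le_sup_right : B false ≤ _) hx
  rw [h] at hx
  suffices H : (∀ y ∈ SS C P, x * y ∈ SS C P) ∧ ∀ y ∈ SS C P, Star.star x * y ∈ SS C P from H.1
  induction hx using StarAlgebra.adjoin_induction with
  | mem x hx =>
    rcases hx with hx | hx
    · exact ⟨fun y hy => F.B_mul_SS hx hy, fun y hy => F.B_mul_SS (star_mem hx) hy⟩
    · exact ⟨fun y hy => F.B_mul_SS hx hy, fun y hy => F.B_mul_SS (star_mem hx) hy⟩
  | algebraMap r =>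
    exact ⟨fun y hy => F.B_mul_SS (i := true) (algebraMap_mem _ r) hy,
      fun y hy => F.B_mul_SS (i := true) (star_mem (algebraMap_mem _ r)) hy⟩
  | add x y _ _ h1 h2 =>
    refine ⟨fun z hz => ?_, fun z hz => ?_⟩
    · rw [add_mul]; exact add_mem (h1.1 z hz) (h2.1 z hz)
    · rw [star_add, add_mul]; exact add_mem (h1.2 z hz) (h2.2 z hz)
  | mul x y _ _ h1 h2 =>
    refine ⟨fun z hz => ?_, fun z hz => ?_⟩
    · rw [mul_assoc]; exact h1.1 _ (h2.1 z hz)
    · rw [star_mul, mul_assoc]; exact h2.2 _ (h1.2 z hz)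
  | star x _ h1 => exact ⟨h1.2, by simpa using h1.1⟩

theorem sup_mem_SS {x : A} (hx : x ∈ B true ⊔ B false) : x ∈ SS C P := by
  simpa using F.sup_mul_SS hx 1 one_mem_SS

/-- T1: multiplying a word by an element of `B j` -/
theorem T1 (φ : A →ₗ[ℂ] ℂ) (hφ : ∀ i k w, Alt P i k w → φ w = 0) {i j k : Bool} {w x : A}
    (hw : Alt P i k w) (hi : i ≠ j) (hx : x ∈ B j) : φ (x * w) = 0 := by
  obtain ⟨c, hc, ha⟩ := F.split j x hx
  have : x * w = c * w + (x - c) * w := by noncomm_ring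
  rw [this, map_add, hφ _ _ _ (hw.mul_left fun i => F.mul_l i c hc), hφ _ _ _ (.cons ha hi hw),
    add_zero]

theorem T1' (φ : A →ₗ[ℂ] ℂ) (hφ : ∀ i k w, Alt P i k w → φ w = 0) {i k : Bool} {w : A}
    (hw : Alt P i k w) (j : Bool) : (k = j ∧ w ∈ P j) ∨ ∀ x ∈ B j, φ (x * w) = 0 := by
  by_cases hi : i = j
  · subst hi
    rcases hw.cases_left with h | ⟨a, ha, w', hw', rfl⟩
    · exact Or.inl h
    · refine Or.inr fun x hx => ?_
      rw [← mul_assoc]
      exact F.T1 φ hφ hw' (not_ne i) (mul_mem hx (F.sub _ _ ha))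
  · exact Or.inr fun x hx => F.T1 φ hφ hw hi hx

theorem alt_class (j : Bool) {i k : Bool} {w : A} (hw : Alt P i k w) :
    (i ≠ j → ∃ w', Alt P (!j) (!j) w' ∧ ∃ y ∈ B j, w = w' * y) ∧
    (i = j → w ∈ P j ∨ ∃ x ∈ P j, ∃ w', Alt P (!j) (!j) w' ∧ ∃ y ∈ B j, w = x * w' * y) := by
  induction hw with
  | @single i a ha =>
    refine ⟨fun h => ⟨a, ?_, 1, one_mem _, (mul_one _).symm⟩, fun h => Or.inl (h ▸ ha)⟩
    rw [← bne3 h (not_ne j)]; exact .single ha
  | @cons i l k a w ha hl _ ih =>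
    refine ⟨fun h => ?_, fun h => ?_⟩
    · have hi : i = !j := bne3 h (not_ne j)
      subst hi
      have hlj : l = j := bne3 hl (not_ne j).symm
      rcases ih.2 hlj with h1 | ⟨x, hx, w', hw', y, hy, rfl⟩
      · exact ⟨a, .single ha, w, F.sub _ _ h1, rfl⟩
      · exact ⟨a * (x * w'), .cons ha (not_ne j).symm (.cons hx (not_ne j) hw'), y, hy, by
          simp only [mul_assoc]⟩
    · subst h
      obtain ⟨w', hw', y, hy, rfl⟩ := ih.1 hl
      exact Or.inr ⟨a, ha, w', hw', y, hy, (mul_assoc _ _ _).symm⟩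

theorem SS_le (j : Bool) :
    SS C P ≤ (B j).toSubalgebra.toSubmodule ⊔ Submodule.span ℂ (QQ B P j) := by
  have hW : ∀ i, Wd P i ≤ (B j).toSubalgebra.toSubmodule ⊔ Submodule.span ℂ (QQ B P j) := by
    intro i
    refine Submodule.span_le.mpr ?_
    rintro w ⟨k, hw⟩
    by_cases hi : i = j
    · rcases (F.alt_class j hw).2 hi with h | ⟨x, hx, w', hw', y, hy, rfl⟩
      · exact Submodule.mem_sup_left (F.sub _ _ h)
      · exact Submodule.mem_sup_right
          (Submodule.subset_span ⟨x, F.sub _ _ hx, w', hw', y, hy, rfl⟩)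
    · obtain ⟨w', hw', y, hy, rfl⟩ := (F.alt_class j hw).1 hi
      exact Submodule.mem_sup_right
          (Submodule.subset_span ⟨1, one_mem _, w', hw', y, hy, by simp⟩)
  exact sup_le (sup_le (fun c hc => Submodule.mem_sup_left (F.le j hc)) (hW _)) (hW _)

end PreFree
end
end Crest.Agent.H3N
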