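import Crest.Agent.H3N.Peak

/-! Construction of excising sequences in separable algebras. -/

set_option autoImplicit false

open scoped InnerProductSpace ComplexOrder
open Filter Topology

noncomputable section

namespace Crest.Agent.H3N
variable {A : Type} [CStarAlgebra A]
  {H : Type} [NormedAddCommGroup H] [InnerProductSpace ℂ H] [CompleteSpace H]

theorem norm_sq_le_sum {ι : Type} [Fintype ι] (l : ι → A) {m : A} (hm : IsSelfAdjoint m) (i : ι) :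
    ‖l i * m‖ ^ 2 ≤ ‖m * (∑ j, star (l j) * l j) * m‖ := by
  let _ := CStarAlgebra.spectralOrder A
  have _ := CStarAlgebra.spectralOrderedRing A
  have h1 : m * (∑ j, star (l j) * l j) * m = ∑ j, star (l j * m) * (l j * m) := by
    rw [Finset.mul_sum, Finset.sum_mul]
    refine Finset.sum_congr rfl fun j _ => ?_
    rw [star_mul, hm.star_eq]; simp only [mul_assoc]
  rw [h1, sq, ← CStarRing.norm_star_mul_self]
  exact CStarAlgebra.norm_le_norm_of_nonneg_of_le (star_mul_self_nonneg _)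
    (Finset.single_le_sum (f := fun j => star (l j * m) * (l j * m))
      (fun j _ => star_mul_self_nonneg _) (Finset.mem_univ i))

theorem exists_e (ρ : A →⋆ₐ[ℂ] (H →L[ℂ] H)) {ι : Type} [Fintype ι] {C : StarSubalgebra ℂ A}
    (hC : IsClosed (C : Set A)) (l : ι → A) (hl : ∀ i, l i ∈ C) {s : ℝ} (hs : 0 < s) {ξ : H}
    (hξ : ∑ i, ‖ρ (l i) ξ‖ ≤ s ^ 2) :
    ∃ e ∈ C, IsSelfAdjoint e ∧ ‖e‖ ≤ 1 ∧ (∀ i, ‖l i * e‖ ≤ s) ∧ ‖ρ e ξ - ξ‖ ≤ s := by
  obtain ⟨e, he, k, -, e1, k1, e2, e3, e4, -, k2⟩ := exists_ek hC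
    (sum_mem fun j _ => mul_mem (star_mem (hl j)) (hl j) : ∑ j, star (l j) * l j ∈ C)
    (isSelfAdjoint_sum _ fun j _ => IsSelfAdjoint.star_mul_self _)
    (show 0 < s ^ 2 by positivity)
  refine ⟨e, he, e1, e2, fun i => ?_, ?_⟩
  · exact (pow_le_pow_iff_left₀ (norm_nonneg _) hs.le two_ne_zero).mp
      ((norm_sq_le_sum l e1 i).trans e4)
  · have h1 : ∀ i, ‖k * star (l i)‖ ≤ 1 / s := fun i => by
      rw [← norm_star, star_mul, star_star, k1.star_eq]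
      refine (pow_le_pow_iff_left₀ (norm_nonneg _) (by positivity) two_ne_zero).mp
        ((norm_sq_le_sum l k1 i).trans (k2.trans (by rw [div_pow, one_pow])))
    have h2 : ξ - ρ e ξ = ∑ i, ρ (k * star (l i)) (ρ (l i) ξ) := by
      have : ξ - ρ e ξ = ρ (1 - e) ξ := by simp
      rw [this, e3, Finset.mul_sum, map_sum, ContinuousLinearMap.sum_apply]
      simp only [← rep_mul, mul_assoc]
    rw [norm_sub_rev, h2]
    calc _ ≤ ∑ i, 1 / s * ‖ρ (l i) ξ‖ := norm_sum_le_of_le _ fun i _ =>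
          (rep_norm_le _ _ _).trans (by gcongr; exact h1 i)
      _ = 1 / s * ∑ i, ‖ρ (l i) ξ‖ := by rw [Finset.mul_sum]
      _ ≤ 1 / s * s ^ 2 := by gcongr
      _ = s := by field_simp

theorem KP.split {ρ : A →⋆ₐ[ℂ] (H →L[ℂ] H)} {C : StarSubalgebra ℂ A} {K : Submodule ℂ H}
    (h : KP ρ C K) (hi : Inv ρ C K) {ξ : H} (hξ : ξ ∈ K) {a : A} (ha : a ∈ C)
    (h0 : ⟪ξ, ρ a ξ⟫_ℂ = 0) {ε : ℝ} (hε : 0 < ε) :
    ∃ l₁ ∈ C, ∃ l₂ ∈ C, a = l₁ + star l₂ ∧ ‖ρ l₁ ξ‖ ≤ ε ∧ ‖ρ l₂ ξ‖ ≤ ε := by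
  have hp : 0 < ‖a‖ + 1 := by positivity
  obtain ⟨b, hb, h1, h2⟩ := h ξ hξ _ (hi a ha ξ hξ) h0 (ε / (‖a‖ + 1)) (by positivity)
  rw [lt_div_iff₀ hp] at h1 h2
  refine ⟨b * a, mul_mem hb ha, star a * (1 - star b),
    mul_mem (star_mem ha) (sub_mem (one_mem _) (star_mem hb)), by simp [sub_mul], ?_, ?_⟩
  · rw [rep_mul]; nlinarith [norm_nonneg (ρ b (ρ a ξ)), norm_nonneg a]
  · rw [rep_mul]
    refine (rep_norm_le _ _ _).trans ?_
    have : ρ (1 - star b) ξ = -(ρ (star b) ξ - ξ) := by simp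
    rw [this, norm_neg, norm_star]
    nlinarith [norm_nonneg (ρ (star b) ξ - ξ), norm_nonneg a]

theorem norm_sandwich_split {e l₁ l₂ : A} (he : IsSelfAdjoint e) (h1 : ‖e‖ ≤ 1) :
    ‖e * (l₁ + star l₂) * e‖ ≤ ‖l₁ * e‖ + ‖l₂ * e‖ := by
  have : e * (l₁ + star l₂) * e = e * (l₁ * e) + star (l₂ * e) * e := by
    rw [star_mul, he.star_eq]; noncomm_ring
  rw [this]
  refine (norm_add_le _ _).trans (add_le_add ?_ ?_)
  · exact (norm_mul_le _ _).trans (mul_le_of_le_one_left (norm_nonneg _) h1)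
  · refine (norm_mul_le _ _).trans ?_
    rw [norm_star]; exact mul_le_of_le_one_right (norm_nonneg _) h1

theorem exists_triple {C : StarSubalgebra ℂ A} (hC : IsClosed (C : Set A)) {h : A} (hh : h ∈ C)
    (hs : IsSelfAdjoint h) : ∃ F₁ ∈ C, ∃ F₂ ∈ C, ∃ F₃ ∈ C, ∃ G₁ G₃ : A,
      IsSelfAdjoint F₁ ∧ IsSelfAdjoint F₂ ∧ ‖F₁‖ ≤ 1 ∧ ‖F₂‖ ≤ 1 ∧ F₁ * F₂ = F₂ ∧ F₂ * F₃ = F₃ ∧
      F₁ = h * G₁ ∧ F₁ = G₁ * h ∧ ‖G₁‖ ≤ 4 ∧ 1 - F₃ = G₃ * (1 - h) ∧ ‖G₃‖ ≤ 4 := by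
  have p1 : ∀ s : ℝ, 0 < max (s ^ 2) (1 / 16) := fun s => lt_max_of_lt_right (by norm_num)
  have p2 : ∀ s : ℝ, 0 < max (1 - s) (1 / 4) := fun s => lt_max_of_lt_right (by norm_num)
  set g₁ : ℝ → ℝ := fun s => s / max (s ^ 2) (1 / 16) with hg₁
  set f₁ : ℝ → ℝ := fun s => s * g₁ s with hf₁
  set f₂ : ℝ → ℝ := fun s => min (max (4 * s - 1) 0) 1 with hf₂
  set f₃ : ℝ → ℝ := fun s => min (max (4 * s - 2) 0) 1 with hf₃
  set g₃ : ℝ → ℝ := fun s => (1 - f₃ s) / max (1 - s) (1 / 4) with hg₃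
  have c1 : Continuous g₁ := Continuous.div (by fun_prop) (by fun_prop) fun s => (p1 s).ne'
  have c2 : Continuous f₂ := by fun_prop
  have c3 : Continuous f₃ := by fun_prop
  have c4 : Continuous g₃ := Continuous.div (by fun_prop) (by fun_prop) fun s => (p2 s).ne'
  have c5 : Continuous f₁ := by fun_prop
  have b3 : ∀ s, 0 ≤ f₃ s ∧ f₃ s ≤ 1 := fun s =>
    ⟨le_min (le_max_right _ _) zero_le_one, min_le_right _ _⟩
  refine ⟨cfc f₁ h, cfc_mem _ hh, cfc f₂ h, cfc_mem _ hh, cfc f₃ h, cfc_mem _ hh, cfc g₁ h,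
    cfc g₃ h, cfc_predicate _ _, cfc_predicate _ _, norm_cfc_le zero_le_one fun s _ => ?_,
    norm_cfc_le zero_le_one fun s _ => ?_, ?_, ?_, ?_, ?_,
    norm_cfc_le (by norm_num) fun s _ => ?_, ?_, norm_cfc_le (by norm_num) fun s _ => ?_⟩
  · have : f₁ s = s ^ 2 / max (s ^ 2) (1 / 16) := by simp only [hf₁, hg₁]; ring
    rw [this, Real.norm_eq_abs, abs_of_nonneg (div_nonneg (sq_nonneg _) (p1 s).le),
      div_le_one (p1 s)]
    exact le_max_left _ _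
  · rw [Real.norm_eq_abs, abs_of_nonneg (le_min (le_max_right _ _) zero_le_one)]
    exact min_le_right _ _
  · rw [← cfc_mul _ _ h c5.continuousOn c2.continuousOn]
    refine cfc_congr fun s _ => ?_
    by_cases h1 : 4 * s - 1 ≤ 0
    · simp [hf₂, max_eq_right h1]
    · have h2 : 1 / 16 ≤ s ^ 2 := by nlinarith
      have : f₁ s = 1 := by
        simp only [hf₁, hg₁, max_eq_left h2]
        have : s ≠ 0 := by rintro rfl; norm_num at h2
        field_simp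
      simp [this]
  · rw [← cfc_mul _ _ h c2.continuousOn c3.continuousOn]
    refine cfc_congr fun s _ => ?_
    by_cases h1 : 4 * s - 2 ≤ 0
    · simp [hf₃, max_eq_right h1]
    · have : f₂ s = 1 := min_eq_right (le_max_of_le_left (by linarith))
      simp [this]
  · rw [hf₁, cfc_mul _ _ h (by fun_prop) c1.continuousOn, cfc_id' ℝ h]
  · rw [show f₁ = fun s => g₁ s * s from funext fun s => mul_comm _ _,
      cfc_mul _ _ h c1.continuousOn (by fun_prop), cfc_id' ℝ h]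
  · rw [Real.norm_eq_abs, abs_div, abs_of_pos (p1 s), div_le_iff₀ (p1 s)]
    nlinarith [le_max_left (s ^ 2) (1 / 16), le_max_right (s ^ 2) (1 / 16), sq_abs s,
      sq_nonneg (|s| - 1 / 4)]
  · have e1 : 1 - h = cfc (fun s : ℝ => 1 - s) h := by
      rw [cfc_sub _ _ h (by fun_prop) (by fun_prop), cfc_id' ℝ h, cfc_const_one ℝ h]
    rw [e1, ← cfc_mul _ _ h c4.continuousOn (by fun_prop), ← cfc_const_one ℝ h,
      ← cfc_sub _ _ h (by fun_prop) c3.continuousOn]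
    refine cfc_congr fun s _ => ?_
    by_cases h1 : 1 / 4 ≤ 1 - s
    · have : 1 - s ≠ 0 := by linarith
      simp only [hg₃, max_eq_left h1]
      field_simp
    · have : f₃ s = 1 := min_eq_right (le_max_of_le_left (by linarith))
      simp [hg₃, this]
  · rw [Real.norm_eq_abs, abs_div, abs_of_pos (p2 s), div_le_iff₀ (p2 s),
      abs_of_nonneg (by linarith [(b3 s).2])]
    linarith [le_max_right (1 - s) (1 / 4), (b3 s).1]

namespace Tr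
variable (T : Tr A) (ρ : A →⋆ₐ[ℂ] (H →L[ℂ] H))

/-- approximate excision by elements of small trace -/
def AE (C : StarSubalgebra ℂ A) (ζ : H) (a : A) : Prop :=
  ∀ ε > 0, ∃ e ∈ C, IsSelfAdjoint e ∧ ‖e‖ ≤ 1 ∧ ‖ρ e ζ - ζ‖ < ε ∧ ‖T.v e‖ < ε ∧
    ‖e * (⟪ζ, ζ⟫_ℂ • a - ⟪ζ, ρ a ζ⟫_ℂ • 1) * e‖ < ε

variable {T ρ}
theorem AE_of_KP {C : StarSubalgebra ℂ A} (hC : IsClosed (C : Set A)) {K : Submodule ℂ H}
    (h : KP ρ C K) (hi : Inv ρ C K) {ζ : H} (hζ : ζ ∈ K) (hs : ζ ∈ T.Sing ρ C) {a : A}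
    (ha : a ∈ C) : T.AE ρ C ζ a := by
  intro ε hε
  set s := ε / 4 with hs'
  have hs0 : 0 < s := by positivity
  obtain ⟨l₁, m1, l₂, m2, e1, n1, n2⟩ := h.split hi hζ
    (a := ⟪ζ, ζ⟫_ℂ • a - ⟪ζ, ρ a ζ⟫_ℂ • 1)
    (sub_mem (SMulMemClass.smul_mem _ ha) (SMulMemClass.smul_mem _ (one_mem _))) (by
      simp only [map_sub, map_smul, map_one, ContinuousLinearMap.sub_apply,
        ContinuousLinearMap.smul_apply, ContinuousLinearMap.one_apply, inner_sub_right,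
        inner_smul_right]; ring) (show 0 < s ^ 2 / 3 by positivity)
  obtain ⟨f, hf, -, hl⟩ := exists_null_of_Sing hs
  obtain ⟨n, h1, h2⟩ := (((tendsto_iff_norm_sub_tendsto_zero.mp hl).eventually
    (gt_mem_nhds (show 0 < s ^ 2 / 3 by positivity))).and
    (hf.null.eventually (gt_mem_nhds hs0))).exists
  obtain ⟨e, he, s1, s2, s3, s4⟩ := exists_e ρ hC ![l₁, l₂, 1 - f n]
    (by simpa [Fin.forall_fin_succ, m1, m2] using sub_mem (one_mem C) (hf.mem n)) hs0 (ξ := ζ) (by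
      rw [norm_sub_rev] at h1
      simp [Fin.sum_univ_three]; linarith)
  refine ⟨e, he, s1, s2, by linarith, ?_, ?_⟩
  · have : e = f n * e + (1 - f n) * e := by noncomm_ring
    rw [this, map_add]
    have a1 : ‖T.v (f n * e)‖ ≤ ‖T.v (f n)‖ :=
      (T.norm_v_mul_le' _ _).trans (mul_le_of_le_one_right (norm_nonneg _) s2)
    have a2 : ‖T.v ((1 - f n) * e)‖ ≤ s := (T.norm_v_le _).trans (s3 2)
    linarith [norm_add_le (T.v (f n * e)) (T.v ((1 - f n) * e))]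
  · rw [e1]
    have a1 : ‖l₁ * e‖ ≤ s := s3 0
    have a2 : ‖l₂ * e‖ ≤ s := s3 1
    linarith [norm_sandwich_split (l₁ := l₁) (l₂ := l₂) s1 s2]

/-- state of the recursive construction -/
structure St (ρ : A →⋆ₐ[ℂ] (H →L[ℂ] H)) (C : StarSubalgebra ℂ A) (ξ : H) where
  f : A
  d : A
  x : A
  mf : f ∈ C
  md : d ∈ C
  mx : x ∈ C
  sf : IsSelfAdjoint f
  sd : IsSelfAdjoint d
  nf : ‖f‖ ≤ 1
  nd : ‖d‖ ≤ 1
  fd : f * d = d
  dx : ρ d (ρ x ξ) = ρ x ξ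
  ne : ρ x ξ ≠ 0

theorem St.step {C : StarSubalgebra ℂ A} (hC : IsClosed (C : Set A)) {ξ : H}
    (h : ∀ x ∈ C, ∀ a ∈ C, T.AE ρ C (ρ x ξ) a) (s : St ρ C ξ) {a : A} (ha : a ∈ C) {ε : ℝ}
    (hε : 0 < ε) : ∃ s' : St ρ C ξ, s.f * s'.f = s'.f ∧ ‖T.v s'.f‖ ≤ ε ∧
      ‖ρ s.x ξ - ρ s'.x ξ‖ ≤ ε ∧ ∃ c : ℂ, ‖s'.f * (a - c • 1) * s'.f‖ ≤ ε := by
  obtain ⟨f, d, x, mf, md, mx, sf, sd, nf, nd, fd, dx, ne⟩ := s
  set ζ := ρ x ξ with hζ
  have z0 : 0 < ‖ζ‖ := norm_pos_iff.mpr ne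
  set δ := min (min ε ‖ζ‖) (ε * ‖ζ‖ ^ 2) / 16 with hδ
  have δ0 : 0 < δ := by positivity
  have δ1 : 16 * δ ≤ ε := by
    have := (min_le_left _ (ε * ‖ζ‖ ^ 2)).trans (min_le_left ε ‖ζ‖); linarith
  have δ2 : 16 * δ ≤ ‖ζ‖ := by
    have := (min_le_left _ (ε * ‖ζ‖ ^ 2)).trans (min_le_right ε ‖ζ‖); linarith
  have δ3 : 16 * δ ≤ ε * ‖ζ‖ ^ 2 := by
    have := min_le_right (min ε ‖ζ‖) (ε * ‖ζ‖ ^ 2); linarith
  set c := ⟪ζ, ρ a ζ⟫_ℂ / ⟪ζ, ζ⟫_ℂ with hc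
  obtain ⟨e, me, se, ne', h1, h2, h3⟩ := h x mx (d * (a - c • 1) * d)
    (mul_mem (mul_mem md (sub_mem ha (SMulMemClass.smul_mem _ (one_mem _)))) md) δ δ0
  rw [← hζ] at h1 h3
  have i0 : ⟪ζ, ρ (d * (a - c • 1) * d) ζ⟫_ℂ = 0 := by
    rw [rep_mul, rep_mul, dx, rep_inner_right, sd.star_eq, dx]
    have := inner_self_ne_zero (𝕜 := ℂ).mpr ne
    simp only [map_sub, map_smul, map_one, ContinuousLinearMap.sub_apply,
        ContinuousLinearMap.smul_apply, ContinuousLinearMap.one_apply, inner_sub_right,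
        inner_smul_right, hc]
    field_simp
    ring
  rw [i0, zero_smul, sub_zero, mul_smul_comm, smul_mul_assoc, norm_smul,
    inner_self_eq_norm_sq_to_K, norm_pow, RCLike.norm_ofReal, abs_norm] at h3
  have h4 : 16 * ‖e * (d * (a - c • 1) * d) * e‖ ≤ ε := by
    have : ‖ζ‖ ^ 2 * (16 * ‖e * (d * (a - c • 1) * d) * e‖) ≤ ‖ζ‖ ^ 2 * ε := by linarith
    exact le_of_mul_le_mul_left this (by positivity)
  have nde : ‖d * e‖ ≤ 1 := (norm_mul_le _ _).trans (mul_le_one₀ nd (norm_nonneg _) ne')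
  have ned : ‖e * d‖ ≤ 1 := (norm_mul_le _ _).trans (mul_le_one₀ ne' (norm_nonneg _) nd)
  obtain ⟨F₁, m1, F₂, m2, F₃, m3, G₁, G₃, s1, s2, n1, n2, e1, e2, e3, e4, n3, e5, n4⟩ :=
    exists_triple hC (h := d * e * (e * d)) (mul_mem (mul_mem md me) (mul_mem me md)) (by
      have := IsSelfAdjoint.star_mul_self (e * d)
      rwa [star_mul, sd.star_eq, se.star_eq] at this)
  have h5 : ‖ζ - ρ (F₃ * x) ξ‖ ≤ 8 * δ := by
    have a1 : ζ - ρ (F₃ * x) ξ = ρ (1 - F₃) ζ := by simp [hζ]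
    have a2 : ρ (1 - d * e * (e * d)) ζ = -(ρ d (ρ e ζ - ζ) + ρ (d * e) (ρ e ζ - ζ)) := by
      simp [dx]
    rw [a1, e5, rep_mul, a2]
    refine (rep_norm_le _ _ _).trans ?_
    have a3 : ‖ρ d (ρ e ζ - ζ)‖ ≤ δ :=
      (rep_norm_le _ _ _).trans ((mul_le_of_le_one_left (norm_nonneg _) nd).trans h1.le)
    have a4 : ‖ρ (d * e) (ρ e ζ - ζ)‖ ≤ δ :=
      (rep_norm_le _ _ _).trans ((mul_le_of_le_one_left (norm_nonneg _) nde).trans h1.le)
    calc _ ≤ 4 * (δ + δ) := by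
          gcongr; rw [norm_neg]; exact (norm_add_le _ _).trans (add_le_add a3 a4)
      _ = _ := by ring
  refine ⟨⟨F₁, F₂, F₃ * x, m1, m2, mul_mem m3 mx, s1, s2, n1, n2, e1,
    by rw [← rep_mul, ← mul_assoc, e2], fun h0 => ?_⟩, ?_, ?_, by simp only; linarith, c, ?_⟩
  · rw [h0, sub_zero] at h5; linarith
  · simp only
    rw [e3]; simp only [← mul_assoc, fd]
  · simp only
    rw [e4]
    calc _ ≤ ‖G₁‖ * ‖T.v (d * e * (e * d))‖ := T.norm_v_mul_le _ _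
      _ ≤ 4 * (1 * (δ * 1)) := by
          gcongr
          refine (T.norm_v_mul_le _ _).trans ?_
          gcongr
          exact (T.norm_v_mul_le' _ _).trans (by gcongr)
      _ ≤ ε := by linarith
  · simp only
    have : F₁ * (a - c • 1) * F₁
        = (G₁ * (d * e)) * (e * (d * (a - c • 1) * d) * e) * ((e * d) * G₁) := by
      nth_rewrite 1 [e4]
      nth_rewrite 1 [e3]
      simp only [mul_assoc]
    rw [this]
    calc _ ≤ ‖G₁ * (d * e)‖ * ‖e * (d * (a - c • 1) * d) * e‖ * ‖(e * d) * G₁‖ :=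
          (norm_mul_le _ _).trans (by gcongr; exact norm_mul_le _ _)
      _ ≤ (4 * 1) * ‖e * (d * (a - c • 1) * d) * e‖ * (1 * 4) := by
          gcongr
          · exact (norm_mul_le _ _).trans (by gcongr)
          · exact (norm_mul_le _ _).trans (by gcongr)
      _ ≤ ε := by linarith

theorem exists_atom' {C : StarSubalgebra ℂ A} (hC : IsClosed (C : Set A))
    (hsep : TopologicalSpace.IsSeparable (C : Set A)) {ξ : H} (h0 : ξ ≠ 0)
    (h : ∀ x ∈ C, ∀ a ∈ C, T.AE ρ C (ρ x ξ) a) {q : A} (hq : IsStarProjection q) (mq : q ∈ C)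
    (hqξ : ρ q ξ = ξ) : ∃ f, T.Peak C f ∧ f 0 = q ∧ ∃ η ∈ cyc ρ C ξ, η ≠ 0 ∧ η ∈ Fix ρ f := by
  obtain ⟨D, D1, D2, D3⟩ := hsep.exists_countable_dense_subset
  have hne : D.Nonempty := by
    by_contra hD
    rw [Set.not_nonempty_iff_eq_empty] at hD
    simpa [hD] using D3 (zero_mem C)
  obtain ⟨a, rfl⟩ := D2.exists_eq_range hne
  have ma : ∀ n, a n ∈ C := fun n => D1 ⟨n, rfl⟩
  have x0 : 0 < ‖ξ‖ := norm_pos_iff.mpr h0
  set ε : ℕ → ℝ := fun n => ‖ξ‖ / 2 / 2 / 2 ^ n with hε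
  have ε0 : ∀ n, 0 < ε n := fun n => by positivity
  have εl : Tendsto ε atTop (𝓝 0) :=
    tendsto_const_nhds.div_atTop (tendsto_pow_atTop_atTop_of_one_lt one_lt_two)
  choose nx n1 n2 n3 n4 using fun (n : ℕ) (s : St ρ C ξ) =>
    s.step hC h (ma n.unpair.1) (ε0 n)
  let s : ℕ → St ρ C ξ := fun n => Nat.rec ⟨q, q, 1, mq, mq, one_mem _, hq.isSelfAdjoint,
    hq.isSelfAdjoint, hq.norm_le, hq.norm_le, hq.isIdempotentElem, by simpa using hqξ,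
    by simpa using h0⟩ nx n
  have hs : ∀ n, s (n + 1) = nx n (s n) := fun n => rfl
  have hch : Chain fun n => (s n).f := ⟨fun n => (s n).sf, fun n => (s n).nf, fun n => n1 n _⟩
  have hd : ∀ n, dist (ρ (s n).x ξ) (ρ (s (n + 1)).x ξ) ≤ ‖ξ‖ / 2 / 2 / 2 ^ n := fun n => by
    rw [dist_eq_norm]; exact n3 n _
  obtain ⟨η, hη⟩ := cauchySeq_tendsto_of_complete (cauchySeq_of_le_geometric_two hd)
  have h1 := dist_le_of_le_geometric_two_of_tendsto₀ hd hη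
  refine ⟨fun n => (s n).f, ⟨fun n => (s n).mf, hch, ?_, fun b hb => ?_⟩, rfl, η,
    (isClosed_cyc C ξ).mem_of_tendsto hη (.of_forall fun n => mem_cyc (s n).mx ξ), ?_, fun k => ?_⟩
  · rw [← tendsto_add_atTop_iff_nat 1]
    exact squeeze_zero (fun _ => norm_nonneg _) (fun n => n2 n _) εl
  · refine closure_minimal ?_ hch.isClosed_exc (D3 hb)
    rintro _ ⟨k, rfl⟩
    refine hch.exc_of_approx fun δ hδ => ?_
    obtain ⟨N, hN⟩ := eventually_atTop.mp (εl.eventually (gt_mem_nhds hδ))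
    obtain ⟨c, hc⟩ := n4 (Nat.pair k N) (s (Nat.pair k N))
    rw [Nat.unpair_pair] at hc
    exact ⟨Nat.pair k N + 1, c, hc.trans_lt (hN _ (Nat.right_le_pair k N))⟩
  · rintro rfl
    have : ρ (s 0).x ξ = ξ := by simp [s]
    rw [this, dist_zero_right] at h1
    linarith
  · refine tendsto_nhds_unique (((ρ (s k).f).continuous.tendsto η).comp hη) (hη.congr' ?_)
    filter_upwards [eventually_gt_atTop k] with n hn
    have h2 : ρ (s n).f (ρ (s n).x ξ) = ρ (s n).x ξ := by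
      conv_lhs => rw [← (s n).dx, ← rep_mul, (s n).fd, (s n).dx]
    simp only [Function.comp]
    conv_rhs => rw [← h2, ← rep_mul, hch.mul_lt hn, h2]

theorem exists_atom {C : StarSubalgebra ℂ A} (hC : IsClosed (C : Set A))
    (hsep : TopologicalSpace.IsSeparable (C : Set A)) {ξ : H} (h0 : ξ ≠ 0)
    (h : ∀ x ∈ C, ∀ a ∈ C, T.AE ρ C (ρ x ξ) a) {r : A} (hr : IsStarProjection r) (mr : r ∈ C) :
    ∃ f, T.Peak C f ∧ (f 0 = r ∨ f 0 = 1 - r) ∧ ∃ η ∈ cyc ρ C ξ, η ≠ 0 ∧ η ∈ Fix ρ f := by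
  have key : ∀ q, IsStarProjection q → q ∈ C → ρ q ξ ≠ 0 →
      ∃ f, T.Peak C f ∧ f 0 = q ∧ ∃ η ∈ cyc ρ C ξ, η ≠ 0 ∧ η ∈ Fix ρ f := by
    intro q hq mq h1
    obtain ⟨f, f1, f2, η, e1, e2⟩ := exists_atom' hC hsep h1 (fun x hx a ha => by
      rw [← rep_mul]; exact h _ (mul_mem hx mq) a ha) hq mq (by
        rw [← rep_mul, hq.isIdempotentElem.eq])
    exact ⟨f, f1, f2, η, cyc_le (isClosed_cyc C ξ) (inv_cyc C ξ) (mem_cyc mq ξ) e1, e2⟩
  by_cases h1 : ρ r ξ = 0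
  · obtain ⟨f, f1, f2, e⟩ := key (1 - r) hr.one_sub (sub_mem (one_mem _) mr) (by simpa [h1] using h0)
    exact ⟨f, f1, Or.inr f2, e⟩
  · obtain ⟨f, f1, f2, e⟩ := key r hr mr h1
    exact ⟨f, f1, Or.inl f2, e⟩

end Tr
end Crest.Agent.H3N
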