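import Mathlib

/-! Tracial C⋆-algebras: GNS data and basic estimates. -/

set_option autoImplicit false

open scoped InnerProductSpace ComplexOrder
open Filter Topology

namespace Crest.Agent.H3N

/-- GNS construction for a positive functional on a unital C⋆-algebra. -/
theorem exists_gns {A : Type} [CStarAlgebra A] (ω : A →ₗ[ℂ] ℂ)
    (hω : ∀ a, 0 ≤ ω (star a * a)) :
    ∃ (H : Type) (_ : NormedAddCommGroup H) (_ : InnerProductSpace ℂ H) (_ : CompleteSpace H)
      (ρ : A →⋆ₐ[ℂ] (H →L[ℂ] H)) (Ω : H),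
      (∀ a, ⟪Ω, ρ a Ω⟫_ℂ = ω a) ∧ DenseRange (fun a => ρ a Ω) := by
  letI := CStarAlgebra.spectralOrder A
  haveI := CStarAlgebra.spectralOrderedRing A
  let f : A →ₚ[ℂ] ℂ := PositiveLinearMap.mk₀ ω (fun x hx => by
    have h1 : x = star (CFC.sqrt x) * CFC.sqrt x := by
      rw [(CFC.sqrt_nonneg x).star_eq, CFC.sqrt_mul_sqrt_self x hx]
    rw [h1]; exact hω _)
  have key : ∀ a : A, f.gnsStarAlgHom a ((f.toPreGNS 1 : f.PreGNS) : f.GNS)
      = ((f.toPreGNS a : f.PreGNS) : f.GNS) := by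
    intro a
    have := PositiveLinearMap.gnsNonUnitalStarAlgHom_apply_coe f (a := a) (b := f.toPreGNS 1)
    simp only [PositiveLinearMap.gnsStarAlgHom_apply]
    refine this.trans ?_
    congr 1
    simp
  refine ⟨f.GNS, inferInstance, inferInstance, inferInstance, f.gnsStarAlgHom,
    ((f.toPreGNS 1 : f.PreGNS) : f.GNS), ?_, ?_⟩
  · intro a
    rw [key, UniformSpace.Completion.inner_coe, PositiveLinearMap.preGNS_inner_def]
    simp
    rfl
  · have : (fun a => f.gnsStarAlgHom a ((f.toPreGNS 1 : f.PreGNS) : f.GNS))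
        = (fun x : f.PreGNS => (x : f.GNS)) ∘ f.toPreGNS := by
      funext a; exact key a
    rw [this]
    exact UniformSpace.Completion.denseRange_coe.comp f.toPreGNS.surjective.denseRange
      (UniformSpace.Completion.continuous_coe _)

section rep
variable {A : Type} [CStarAlgebra A] {H : Type} [NormedAddCommGroup H] [InnerProductSpace ℂ H]
  [CompleteSpace H] (ρ : A →⋆ₐ[ℂ] (H →L[ℂ] H))

theorem rep_norm_le (a : A) (x : H) : ‖ρ a x‖ ≤ ‖a‖ * ‖x‖ :=
  ((ρ a).le_opNorm x).trans (by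
    gcongr; exact NonUnitalStarAlgHom.norm_apply_le ρ a)

theorem rep_inner_right (a : A) (x y : H) : ⟪x, ρ a y⟫_ℂ = ⟪ρ (star a) x, y⟫_ℂ := by
  rw [map_star, ContinuousLinearMap.star_eq_adjoint, ContinuousLinearMap.adjoint_inner_left]

theorem rep_inner_left (a : A) (x y : H) : ⟪ρ a x, y⟫_ℂ = ⟪x, ρ (star a) y⟫_ℂ := by
  rw [rep_inner_right, star_star]

theorem rep_mul (a b : A) (x : H) : ρ (a * b) x = ρ a (ρ b x) := by
  rw [map_mul]; rfl

/-- `a ↦ ρ a x` as a continuous linear map. -/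
noncomputable def repAt (x : H) : A →L[ℂ] H :=
  LinearMap.mkContinuous
    { toFun := fun a => ρ a x
      map_add' := fun a b => by simp
      map_smul' := fun c a => by simp } ‖x‖
    (fun a => by simpa [mul_comm] using rep_norm_le ρ a x)

@[simp] theorem repAt_apply (x : H) (a : A) : repAt ρ x a = ρ a x := rfl

theorem rep_cont (x : H) : Continuous fun a => ρ a x := (repAt ρ x).continuous

end rep

/-- A faithful tracial state together with its GNS representation. -/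
structure Tr (A : Type) [CStarAlgebra A] where
  H : Type
  [nacg : NormedAddCommGroup H]
  [ips : InnerProductSpace ℂ H]
  [cs : CompleteSpace H]
  lam : A →⋆ₐ[ℂ] (H →L[ℂ] H)
  Ω : H
  normΩ : ‖Ω‖ = 1
  tracial : ∀ a b, ⟪Ω, lam (a * b) Ω⟫_ℂ = ⟪Ω, lam (b * a) Ω⟫_ℂ
  faithful : ∀ a, lam a Ω = 0 → a = 0
  dense : DenseRange fun a => lam a Ω

attribute [instance] Tr.nacg Tr.ips Tr.cs

namespace Tr
variable {A : Type} [CStarAlgebra A] (T : Tr A)

noncomputable def v : A →L[ℂ] T.H := repAt T.lam T.Ω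
noncomputable def τ : A →L[ℂ] ℂ := (innerSL ℂ T.Ω).comp T.v

theorem v_apply (a : A) : T.v a = T.lam a T.Ω := rfl
theorem τ_apply (a : A) : T.τ a = ⟪T.Ω, T.lam a T.Ω⟫_ℂ := rfl
theorem τ_comm (a b : A) : T.τ (a * b) = T.τ (b * a) := T.tracial a b
theorem v_one : T.v 1 = T.Ω := by simp [v_apply]
theorem τ_one : T.τ 1 = 1 := by
  simp [τ_apply, T.normΩ]
theorem v_mul (a b : A) : T.v (a * b) = T.lam a (T.v b) := rep_mul _ _ _ _
theorem inner_v (a b : A) : ⟪T.v a, T.v b⟫_ℂ = T.τ (star a * b) := by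
  rw [τ_apply, rep_mul, rep_inner_right T.lam (star a), star_star]; rfl
theorem τ_star (a : A) : T.τ (star a) = starRingEnd ℂ (T.τ a) := by
  rw [τ_apply, τ_apply, ← rep_inner_left, inner_conj_symm]
theorem eq_zero_of_v {a : A} (h : T.v a = 0) : a = 0 := T.faithful a h
theorem norm_v_sq (a : A) : ((‖T.v a‖ ^ 2 : ℝ) : ℂ) = T.τ (star a * a) := by
  rw [← inner_v, inner_self_eq_norm_sq_to_K]; simp
theorem norm_v_sq' (a : A) : ‖T.v a‖ ^ 2 = (T.τ (star a * a)).re := by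
  rw [← norm_v_sq]; simp only [Complex.ofReal_re]
theorem norm_v_star (a : A) : ‖T.v (star a)‖ = ‖T.v a‖ := by
  have h : ‖T.v (star a)‖ ^ 2 = ‖T.v a‖ ^ 2 := by
    rw [norm_v_sq', norm_v_sq', star_star, τ_comm]
  exact (pow_left_inj₀ (norm_nonneg _) (norm_nonneg _) two_ne_zero).mp h
theorem norm_v_mul_le (a b : A) : ‖T.v (a * b)‖ ≤ ‖a‖ * ‖T.v b‖ := by
  rw [v_mul]; exact rep_norm_le _ _ _
theorem norm_v_mul_le' (a b : A) : ‖T.v (a * b)‖ ≤ ‖T.v a‖ * ‖b‖ := by
  rw [← norm_v_star, star_mul, ← T.norm_v_star a, ← norm_star b, mul_comm]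
  exact T.norm_v_mul_le _ _
theorem norm_v_le (a : A) : ‖T.v a‖ ≤ ‖a‖ := by
  have := rep_norm_le T.lam a T.Ω
  rwa [T.normΩ, mul_one] at this
theorem norm_τ_le_v (a : A) : ‖T.τ a‖ ≤ ‖T.v a‖ := by
  have := norm_inner_le_norm (𝕜 := ℂ) T.Ω (T.v a)
  rwa [T.normΩ, one_mul] at this
theorem norm_τ_le (a : A) : ‖T.τ a‖ ≤ ‖a‖ := (T.norm_τ_le_v a).trans (T.norm_v_le a)
theorem eq_zero_of_τ {a : A} (h : T.τ (star a * a) = 0) : a = 0 := by
  apply T.eq_zero_of_v
  have := T.norm_v_sq' a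
  rw [h] at this
  simpa using this
theorem τ_nonneg (a : A) : 0 ≤ T.τ (star a * a) := by
  rw [← norm_v_sq]; exact Complex.zero_le_real.mpr (by positivity)

theorem proj_τ {p : A} (hp : IsStarProjection p) : T.τ p = ((‖T.v p‖ ^ 2 : ℝ) : ℂ) := by
  rw [norm_v_sq, hp.isSelfAdjoint.star_eq, hp.isIdempotentElem.eq]

theorem norm_le_of_pow {h : A} (hh : IsSelfAdjoint h) {M : ℝ} (hM : 0 ≤ M)
    (H : ∀ n : ℕ, ‖T.v (h ^ n)‖ ≤ M ^ n) : ‖h‖ ≤ M := by
  refine le_of_forall_gt_imp_ge_of_dense fun t ht => ?_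
  have ht0 : 0 < t := hM.trans_lt ht
  set y := cfc (fun s : ℝ => max (|s| - t) 0) h with hy
  have hcont : ∀ n : ℕ, Continuous fun s : ℝ => s ^ n / (max |s| t) ^ (2 * n) := by
    intro n
    refine Continuous.div (by fun_prop) (by fun_prop) fun s => ?_
    have : 0 < max |s| t := ht0.trans_le (le_max_right _ _)
    positivity
  have h1 : ∀ n : ℕ, ‖T.v y‖ ≤ ‖y‖ * (M / t) ^ n := by
    intro n
    set g := cfc (fun s : ℝ => s ^ n / (max |s| t) ^ (2 * n)) h with hg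
    have hgn : ‖g‖ ≤ (1 / t) ^ n := by
      refine norm_cfc_le (by positivity) fun s _ => ?_
      have h2 : 0 < max |s| t := ht0.trans_le (le_max_right _ _)
      rw [norm_div, norm_pow, norm_pow, Real.norm_eq_abs, Real.norm_eq_abs, abs_of_pos h2,
        div_le_iff₀ (by positivity), two_mul, pow_add, ← mul_assoc, ← mul_pow]
      have h3 : |s| ^ n ≤ (max |s| t) ^ n := pow_le_pow_left₀ (abs_nonneg _) (le_max_left _ _) n
      have h4 : (1:ℝ) ≤ (1 / t * max |s| t) ^ n := by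
        apply one_le_pow₀
        rw [one_div, ← div_eq_inv_mul, le_div_iff₀ ht0, one_mul]; exact le_max_right _ _
      nlinarith [pow_nonneg h2.le n]
    have e : y = g * y * h ^ n := by
      rw [hg, hy, ← cfc_pow_id (R := ℝ) h n, ← cfc_mul _ _ h (hcont n).continuousOn (by fun_prop),
        ← cfc_mul (fun s : ℝ => s ^ n / (max |s| t) ^ (2 * n) * max (|s| - t) 0)
          (fun s : ℝ => s ^ n) h ((hcont n).continuousOn.mul (by fun_prop)) (by fun_prop)]
      refine cfc_congr fun s _ => ?_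
      by_cases hs : |s| ≤ t
      · simp [max_eq_right (sub_nonpos.mpr hs)]
      · push_neg at hs
        have hs0 : s ≠ 0 := by rintro rfl; simp at hs; linarith
        simp only [max_eq_left hs.le]
        rw [pow_mul, sq_abs]
        field_simp
        rw [← pow_mul, ← pow_mul, mul_comm 2 n]
    calc ‖T.v y‖ = ‖T.v (g * y * h ^ n)‖ := by rw [← e]
      _ ≤ ‖g * y‖ * ‖T.v (h ^ n)‖ := T.norm_v_mul_le _ _
      _ ≤ ((1 / t) ^ n * ‖y‖) * M ^ n := by
          gcongr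
          · exact (norm_mul_le _ _).trans (by gcongr)
          · exact H n
      _ = ‖y‖ * (M / t) ^ n := by rw [div_pow, div_pow]; ring
  have h2 : Tendsto (fun n : ℕ => ‖y‖ * (M / t) ^ n) atTop (𝓝 (‖y‖ * 0)) :=
    (tendsto_pow_atTop_nhds_zero_of_lt_one (by positivity) ((div_lt_one ht0).mpr ht)).const_mul _
  have h3 : ‖T.v y‖ ≤ 0 := by simpa using ge_of_tendsto' h2 h1
  have h4 : y = 0 := T.eq_zero_of_v (norm_le_zero_iff.mp h3)
  have h5 : ∀ s ∈ spectrum ℝ h, max (|s| - t) 0 = 0 := by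
    have : cfc (fun s : ℝ => max (|s| - t) 0) h = cfc (fun _ : ℝ => (0:ℝ)) h := by
      rw [← hy, h4]; simp
    exact fun s hs => eqOn_of_cfc_eq_cfc this (by fun_prop) (by fun_prop) hh hs
  rw [← cfc_id ℝ h]
  refine norm_cfc_le ht0.le fun s hs => ?_
  have := h5 s hs
  have h6 : |s| - t ≤ 0 := this ▸ le_max_left _ _
  simpa using h6

/-- norm from an L² bound on an invariant set containing `1`. -/
theorem norm_le_of_L2 (S : Set A) (h1 : (1:A) ∈ S) {x : A} (hx : ∀ y ∈ S, x * y ∈ S)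
    (hx' : ∀ y ∈ S, star x * y ∈ S) {M : ℝ} (hM : 0 ≤ M)
    (H : ∀ y ∈ S, ‖T.v (x * y)‖ ≤ M * ‖T.v y‖) : ‖x‖ ≤ M := by
  have H' : ∀ y ∈ S, ‖T.v (star x * y)‖ ≤ M * ‖T.v y‖ := by
    intro y hy
    have e : ((‖T.v (star x * y)‖ ^ 2 : ℝ) : ℂ) = ⟪T.v (x * (star x * y)), T.v y⟫_ℂ := by
      rw [norm_v_sq, inner_v]; simp [mul_assoc]
    have e2 : ‖T.v (star x * y)‖ ^ 2 ≤ M * ‖T.v (star x * y)‖ * ‖T.v y‖ := by
      have := norm_inner_le_norm (𝕜 := ℂ) (T.v (x * (star x * y))) (T.v y)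
      rw [← e, Complex.norm_real, Real.norm_eq_abs, abs_of_nonneg (by positivity)] at this
      exact this.trans (by gcongr; exact H _ (hx' y hy))
    rcases (norm_nonneg (T.v (star x * y))).eq_or_lt with h | h
    · rw [← h]; positivity
    · nlinarith
  have h2 : ∀ n : ℕ, (star x * x) ^ n ∈ S ∧ ‖T.v ((star x * x) ^ n)‖ ≤ (M * M) ^ n := by
    intro n
    induction n with
    | zero => simp [h1, v_one, T.normΩ]
    | succ n ih =>
      rw [pow_succ', mul_assoc]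
      refine ⟨hx' _ (hx _ ih.1), (H' _ (hx _ ih.1)).trans ?_⟩
      calc M * ‖T.v (x * (star x * x) ^ n)‖ ≤ M * (M * (M * M) ^ n) := by
            gcongr; exact (H _ ih.1).trans (by gcongr; exact ih.2)
        _ = (M * M) ^ (n + 1) := by ring
  have h3 := T.norm_le_of_pow (IsSelfAdjoint.star_mul_self x) (by positivity) fun n => (h2 n).2
  rw [CStarRing.norm_star_mul_self] at h3
  nlinarith [norm_nonneg x]

end Tr

/-- Build `Tr` from a faithful tracial state. -/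
theorem exists_tr {A : Type} [CStarAlgebra A] (ω : A →ₗ[ℂ] ℂ) (h1 : ω 1 = 1)
    (hω : ∀ a, 0 ≤ ω (star a * a)) (hf : ∀ a, ω (star a * a) = 0 → a = 0)
    (ht : ∀ a b, ω (a * b) = ω (b * a)) : ∃ T : Tr A, ∀ a, T.τ a = ω a := by
  obtain ⟨H, _, _, _, ρ, Ω, h2, h3⟩ := exists_gns ω hω
  refine ⟨⟨H, ρ, Ω, ?_, fun a b => by rw [h2, h2, ht], fun a ha => hf a ?_, h3⟩, h2⟩
  · have := h2 1
    rw [h1, map_one, ContinuousLinearMap.one_apply, inner_self_eq_norm_sq_to_K] at this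
    have h4 : ‖Ω‖ ^ 2 = 1 := by
      have h5 : ((‖Ω‖ ^ 2 : ℝ) : ℂ) = 1 := by rw [← this]; simp
      exact_mod_cast h5
    exact (pow_eq_one_iff_of_nonneg (norm_nonneg _) two_ne_zero).mp h4
  · rw [← h2, rep_mul, ha]; simp

end Crest.Agent.H3N
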