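import Crest.Agent.H3N.Fock

/-! Trace-preserving correspondences between tracial C⋆-algebras. -/

set_option autoImplicit false

open scoped InnerProductSpace ComplexOrder
open Filter Topology Set

noncomputable section

namespace Crest.Agent.H3N
variable {A B : Type} [CStarAlgebra A] [CStarAlgebra B]

/-- closed star subalgebra generated by a set -/
abbrev cl (s : Set A) : StarSubalgebra ℂ A := (StarAlgebra.adjoin ℂ s).topologicalClosure

theorem isClosed_cl (s : Set A) : IsClosed (cl s : Set A) :=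
  StarSubalgebra.isClosed_topologicalClosure _

theorem subset_cl {s : Set A} {x : A} (h : x ∈ s) : x ∈ cl s :=
  StarSubalgebra.le_topologicalClosure _ (StarAlgebra.subset_adjoin ℂ _ h)

theorem cl_le {s : Set A} {X : StarSubalgebra ℂ A} (hX : IsClosed (X : Set A)) (h : s ⊆ X) :
    cl s ≤ X := StarSubalgebra.topologicalClosure_minimal (StarAlgebra.adjoin_le h) hX

structure Corr (T : Tr A) (T' : Tr B) where
  Γ : StarSubalgebra ℂ (A × B)
  closed : IsClosed (Γ : Set (A × B))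
  τ_eq : ∀ z ∈ Γ, T.τ z.1 = T'.τ z.2

namespace Corr
variable {T : Tr A} {T' : Tr B} (C : Corr T T')

def swap : Corr T' T where
  Γ := C.Γ.comap ((StarAlgHom.snd ℂ B A).prod (StarAlgHom.fst ℂ B A))
  closed := C.closed.preimage continuous_swap
  τ_eq := fun z hz => (C.τ_eq _ hz).symm

theorem mem_swap {a : A} {b : B} : (b, a) ∈ C.swap.Γ ↔ (a, b) ∈ C.Γ := Iff.rfl

variable {C}
theorem norm_v_eq {z : A × B} (hz : z ∈ C.Γ) : ‖T.v z.1‖ = ‖T'.v z.2‖ := by
  have h : ‖T.v z.1‖ ^ 2 = ‖T'.v z.2‖ ^ 2 := by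
    rw [T.norm_v_sq', T'.norm_v_sq']
    exact congrArg Complex.re (C.τ_eq _ (mul_mem (star_mem hz) hz))
  exact (pow_left_inj₀ (norm_nonneg _) (norm_nonneg _) two_ne_zero).mp h

theorem norm_le {z : A × B} (hz : z ∈ C.Γ) : ‖z.2‖ ≤ ‖z.1‖ := by
  have h := T'.norm_le_of_pow (IsSelfAdjoint.star_mul_self z.2) (M := ‖star z.1 * z.1‖)
    (norm_nonneg _) fun n => by
      have h1 := norm_v_eq (pow_mem (mul_mem (star_mem hz) hz) n)
      refine le_of_eq_of_le h1.symm ((T.norm_v_le _).trans ?_)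
      rcases n with _ | n
      · simpa using norm_one_le' (A := A)
      · exact norm_pow_le' _ n.succ_pos
  rw [CStarRing.norm_star_mul_self, CStarRing.norm_star_mul_self] at h
  nlinarith [norm_nonneg z.1, norm_nonneg z.2]

theorem eq_of {a a' : A} {b b' : B} (h : (a, b) ∈ C.Γ) (h' : (a', b') ∈ C.Γ) (e : a = a') :
    b = b' := by
  have := norm_le (sub_mem h h')
  simpa [e, sub_eq_zero] using this

theorem exists_lim {a : ℕ → A} {b : ℕ → B} (h : ∀ n, (a n, b n) ∈ C.Γ) {x : A}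
    (hx : Tendsto a atTop (𝓝 x)) : ∃ y, Tendsto b atTop (𝓝 y) ∧ (x, y) ∈ C.Γ := by
  have hcau : CauchySeq b := by
    refine Metric.cauchySeq_iff.mpr fun ε hε => ?_
    obtain ⟨N, hN⟩ := Metric.cauchySeq_iff.mp hx.cauchySeq ε hε
    refine ⟨N, fun m hm n hn => lt_of_le_of_lt ?_ (hN m hm n hn)⟩
    rw [dist_eq_norm, dist_eq_norm]
    exact norm_le (sub_mem (h m) (h n))
  obtain ⟨y, hy⟩ := cauchySeq_tendsto_of_complete hcau
  exact ⟨y, hy, C.closed.mem_of_tendsto (hx.prodMk_nhds hy) (.of_forall h)⟩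

theorem tendsto_zero {a : ℕ → A} {b : ℕ → B} (h : ∀ n, (a n, b n) ∈ C.Γ)
    (hx : Tendsto a atTop (𝓝 0)) : Tendsto b atTop (𝓝 0) :=
  tendsto_zero_of_le (fun n => norm_le (h n)) (by simpa using hx.norm)

theorem exists_rel {ι : Type} {a : ι → A} {b : ι → B} {S : Set ι} (h : ∀ i ∈ S, (a i, b i) ∈ C.Γ)
    {x : A} (hx : x ∈ cl (a '' S)) : ∃ y ∈ cl (b '' S), (x, y) ∈ C.Γ := by
  let Y := (C.Γ ⊓ (cl (b '' S)).comap (StarAlgHom.snd ℂ A B)).map (StarAlgHom.fst ℂ A B)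
  have hY : IsClosed (Y : Set A) := isClosed_of_closure_subset fun x hx => by
    obtain ⟨s, hs, hl⟩ := mem_closure_iff_seq_limit.mp hx
    choose z z1 z2 using hs
    obtain rfl : s = fun n => (z n).1 := funext fun n => (z2 n).symm
    obtain ⟨y, y1, y2⟩ := exists_lim (b := fun n => (z n).2) (fun n => (z1 n).1) hl
    exact ⟨(x, y), ⟨y2, (isClosed_cl _).mem_of_tendsto y1 (.of_forall fun n => (z1 n).2)⟩, rfl⟩
  obtain ⟨z, ⟨z1, z2⟩, rfl⟩ := cl_le hY (by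
    rintro _ ⟨i, hi, rfl⟩
    exact ⟨(a i, b i), ⟨h i hi, subset_cl ⟨i, hi, rfl⟩⟩, rfl⟩) hx
  exact ⟨z.2, z2, z1⟩

theorem exists_rel' {ι : Type} {a : ι → A} {b : ι → B} {S : Set ι} (h : ∀ i ∈ S, (a i, b i) ∈ C.Γ)
    {y : B} (hy : y ∈ cl (b '' S)) : ∃ x ∈ cl (a '' S), (x, y) ∈ C.Γ :=
  exists_rel (C := C.swap) h hy

theorem rel_DD {E : Bool → ℕ → A} {E' : Bool → ℕ → B} (h : ∀ b n, (E b n, E' b n) ∈ C.Γ)
    {x : A} (hx : x ∈ DD E) : ∃ y ∈ DD E', (x, y) ∈ C.Γ := by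
  have := exists_rel (C := C) (a := Function.uncurry E) (b := Function.uncurry E') (S := univ)
    (fun i _ => h i.1 i.2) (x := x) (by rw [image_univ]; exact hx)
  rwa [image_univ] at this

theorem chain {f : ℕ → A} {f' : ℕ → B} (h : ∀ n, (f n, f' n) ∈ C.Γ) (hf : Chain f) : Chain f' :=
  ⟨fun n => eq_of (star_mem (h n)) (h n) (hf.sa n), fun n => (norm_le (h n)).trans (hf.norm_le n),
    fun n => eq_of (mul_mem (h n) (h (n + 1))) (h (n + 1)) (hf.mul n)⟩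

theorem task {X : StarSubalgebra ℂ A} {X' : StarSubalgebra ℂ B} {E : Bool → ℕ → A}
    {E' : Bool → ℕ → B} (h : ∀ b n, (E b n, E' b n) ∈ C.Γ) (h1 : ∀ x ∈ X, ∃ y ∈ X', (x, y) ∈ C.Γ)
    (h2 : ∀ y ∈ X', ∃ x ∈ X, (x, y) ∈ C.Γ) (hE : T.Task X E) : T'.Task X' E' where
  chain := fun b => chain (h b) (hE.chain b)
  idem := fun b n => eq_of (mul_mem (h b n) (h b n)) (h b n) (hE.idem b n)
  orth := eq_of (mul_mem (h true 0) (h false 0)) (zero_mem _) hE.orth
  null := fun b => (hE.null b).congr fun n => norm_v_eq (h b n)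
  tr := fun n => (C.τ_eq _ (h true n)).symm.trans ((hE.tr n).trans (C.τ_eq _ (h false n)))
  mem := fun b n => by
    obtain ⟨y, y1, y2⟩ := h1 _ (hE.mem b n)
    rwa [eq_of (h b n) y2 rfl]
  exc := fun b y hy => by
    obtain ⟨x, x1, x2⟩ := h2 y hy
    obtain ⟨c, hc⟩ := hE.exc b x x1
    exact ⟨c, tendsto_zero (fun n => mul_mem (mul_mem (h b n)
      (sub_mem x2 (SMulMemClass.smul_mem c (one_mem _)))) (h b n)) hc⟩
  disj := fun y hy => by
    obtain ⟨x, x1, x2⟩ := h2 y hy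
    exact tendsto_zero (fun n => mul_mem (mul_mem (h true n) x2) (h false n)) (hE.disj x x1)

theorem cen {X : StarSubalgebra ℂ A} {X' : StarSubalgebra ℂ B} {E : Bool → ℕ → A}
    {E' : Bool → ℕ → B} (h : ∀ b n, (E b n, E' b n) ∈ C.Γ)
    (h2 : ∀ y ∈ X', ∃ x ∈ X, (x, y) ∈ C.Γ) {y : B} (hy : y ∈ T'.Cen X' (DD E')) :
    ∃ x ∈ T.Cen X (DD E), (x, y) ∈ C.Γ := by
  obtain ⟨x, x1, x2⟩ := h2 y hy.1
  refine ⟨x, ⟨x1, fun d hd => ?_⟩, x2⟩
  obtain ⟨d', d1, d2⟩ := rel_DD h hd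
  exact (C.τ_eq _ (mul_mem d2 x2)).trans (hy.2 d' d1)

theorem step {X : StarSubalgebra ℂ A} {X' : StarSubalgebra ℂ B} {E : Bool → ℕ → A}
    {E' : Bool → ℕ → B} (h : ∀ b n, (E b n, E' b n) ∈ C.Γ)
    (h2 : ∀ y ∈ X', ∃ x ∈ X, (x, y) ∈ C.Γ) {u : A} {u' : B} (hu : (u, u') ∈ C.Γ)
    (hE : T.Step X E u) : T'.Step X' E' u' where
  sa := eq_of (star_mem hu) hu hE.sa
  comm := fun b n => eq_of (mul_mem hu (h b n)) (mul_mem (h (!b) n) hu) (hE.comm b n)
  sq := eq_of (mul_mem hu hu) (add_mem (h true 0) (h false 0)) hE.sq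
  free := fun i k w hw => by
    obtain ⟨w', h3, h4⟩ := hw.rel (P := two (T.Cen X (DD E)) (DU E u))
      (fun x y => (x, y) ∈ C.Γ) (fun _ _ _ _ h1 h2 => mul_mem h1 h2) (by
        rintro (_ | _)
        · rintro _ ⟨d, hd, rfl⟩
          obtain ⟨d', d1, d2⟩ := rel_DD (C := C.swap) h hd
          exact ⟨d' * u, ⟨d', d1, rfl⟩, mul_mem (C.mem_swap.mp d2) hu⟩
        · exact fun y hy => cen h h2 hy)
    exact (C.τ_eq _ h4).symm.trans (hE.free _ _ _ h3)

/-- graph of a trace-preserving homomorphism -/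
def graph (ψ : A →⋆ₐ[ℂ] B) (h : ∀ a, T'.τ (ψ a) = T.τ a) : Corr T T' where
  Γ := ((StarAlgHom.id ℂ A).prod ψ).range
  closed := by
    have : (((StarAlgHom.id ℂ A).prod ψ).range : Set (A × B)) = {z | z.2 = ψ z.1} := by
      ext z
      exact ⟨by rintro ⟨a, rfl⟩; rfl, fun hz => ⟨z.1, Prod.ext rfl hz.symm⟩⟩
    rw [this]
    exact isClosed_eq continuous_snd ((hom_cont ψ).comp continuous_fst)
  τ_eq := by rintro _ ⟨a, rfl⟩; exact (h a).symm

theorem mem_graph {ψ : A →⋆ₐ[ℂ] B} {h : ∀ a, T'.τ (ψ a) = T.τ a} {a : A} {b : B} :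
    (a, b) ∈ (graph ψ h).Γ ↔ ψ a = b :=
  ⟨by rintro ⟨x, hx⟩; obtain ⟨rfl, rfl⟩ := Prod.ext_iff.mp hx; rfl, fun hz => ⟨a, Prod.ext rfl hz⟩⟩

end Corr

theorem Tr.task_zero (T : Tr A) (X : StarSubalgebra ℂ A) : T.Task X fun _ _ => 0 where
  chain := fun _ => ⟨fun _ => .zero A, fun _ => by simp, fun _ => by simp⟩
  idem := by simp
  orth := by simp
  null := by simp
  tr := by simp
  mem := fun _ _ => zero_mem _
  exc := fun _ _ _ => ⟨0, by simp [ExcAt]⟩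
  disj := by simp

theorem Tr.step_zero (T : Tr A) (X : StarSubalgebra ℂ A) : T.Step X (fun _ _ => 0) 0 where
  sa := .zero A
  comm := by simp
  sq := by simp
  free := fun i k w hw => by
    have key : w = 0 ∨ (i = true ∧ T.τ w = 0) := by
      induction hw with
      | @single i a ha =>
        cases i
        · obtain ⟨d, -, rfl⟩ := ha; simp
        · exact Or.inr ⟨rfl, Tr.perp_τ ha.2⟩
      | @cons i j k a w ha hj _ ih =>
        rcases ih with rfl | ⟨rfl, -⟩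
        · simp
        · obtain rfl : i = false := by simpa using hj
          obtain ⟨d, -, rfl⟩ := ha; simp
    rcases key with rfl | ⟨-, h⟩
    · simp
    · exact h

theorem Tr.Task.mono {T : Tr A} {X Y : StarSubalgebra ℂ A} {E : Bool → ℕ → A} (h : T.Task X E)
    (hY : Y ≤ X) (hm : ∀ b n, E b n ∈ Y) : T.Task Y E :=
  ⟨h.toPre, hm, fun b a ha => h.exc b a (hY ha), fun a ha => h.disj a (hY ha)⟩

end Crest.Agent.H3N
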