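import Crest.Agent.H3N.Fock1

/-! Existence of the free extension. -/

set_option autoImplicit false

open scoped InnerProductSpace ComplexOrder
open Filter Topology

noncomputable section

namespace Crest.Agent.H3N
variable {A : Type} [CStarAlgebra A]

theorem Tr.Pre.exists_fock {T : Tr A} {E : Bool → ℕ → A} (h : T.Pre E) :
    ∃ (H : Type) (_ : NormedAddCommGroup H) (_ : InnerProductSpace ℂ H) (_ : CompleteSpace H)
      (π : A →⋆ₐ[ℂ] (H →L[ℂ] H)) (Ω : H) (u : H →L[ℂ] H), (∀ a, ⟪Ω, π a Ω⟫_ℂ = T.τ a) ∧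
      UU (fun b n => π (E b n)) u ∧ ∀ i k w, Alt (two (π '' T.Cen ⊤ (DD E))
        {x | ∃ d ∈ DD E, x = π d * u}) i k w → ⟪Ω, w Ω⟫_ℂ = 0 := by
  classical
  obtain ⟨β, bv, ty, hat, isHat, on, tot, h1, h2, h3, h4⟩ := h.exists_adapted
  let H := lp (fun _ : List β => T.H) 2
  let π := amp (List β) T.lam
  let bb : List β × β → H := fun z => lp.single 2 z.1 (bv z.2)
  have inn : ∀ z (ζ : H), ⟪bb z, ζ⟫_ℂ = ⟪bv z.2, ζ z.1⟫_ℂ := fun z ζ => lp.inner_single_left _ _ _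
  have inn' : ∀ z l (x : T.H), ⟪bb z, lp.single 2 l x⟫_ℂ = if z.1 = l then ⟪bv z.2, x⟫_ℂ else 0 := by
    intro z l x
    rw [inn]
    split_ifs with hl
    · subst hl; simp
    · simp [lp.single_apply, Pi.single_eq_of_ne hl]
  have onb : Orthonormal ℂ bb := by
    rw [orthonormal_iff_ite]
    intro z z'
    rw [inn', orthonormal_iff_ite.mp on]
    by_cases h5 : z.1 = z'.1 <;> simp [h5, Prod.ext_iff]
  let b : HilbertBasis (List β × β) ℂ H := HilbertBasis.mkOfOrthogonalEqBot onb (by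
    rw [eq_bot_iff]
    intro ζ hζ
    rw [Submodule.mem_bot]
    ext l
    refine tot _ fun x => ?_
    rw [← inn (l, x)]
    exact hζ _ (Submodule.subset_span ⟨_, rfl⟩))
  have hb : ∀ z, b z = bb z := fun z => by simp [b]
  have pb : ∀ a z, π a (b z) = lp.single 2 z.1 (T.lam a (bv z.2)) := fun a z => by
    rw [hb]; exact amp_single _ _ _ _
  obtain ⟨U, U1, U2, U3⟩ := exists_perm b (sw hat) sw_sw
  have tys : ∀ z, ty (sw hat z).2 = sg (ty z.2) := fun z => by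
    rcases sw_cases (hat := hat) z with h5 | h5
    · rw [h5, (h2 _).1]
    · conv_rhs => rw [h5, (h2 _).1, sg_sg]
  have pE : ∀ c n z, π (E c n) (b z) = if below c n (ty z.2) then b z else 0 := fun c n z => by
    rw [pb, ← h1, ← rep_mul, h.toPre0.E_mul_atm]
    split_ifs
    · rw [h1, hb]
    · simp
  have UE : ∀ c n, U * π (E c n) = π (E (!c) n) * U := fun c n =>
    ContinuousLinearMap.ext_on (Submodule.dense_iff_topologicalClosure_eq_top.mpr b.dense_span) (by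
      rintro _ ⟨z, rfl⟩
      simp only [ContinuousLinearMap.mul_apply, U3, pE, tys, below_sg]
      split_ifs
      · exact U3 z
      · exact map_zero _)
  have h' := h.toPre0.map π
  set p := π (E true 0) + π (E false 0) with hp
  have Up : U * p = p * U := by rw [hp, mul_add, add_mul, UE, UE, add_comm]; rfl
  have pp : p * p = p := by rw [hp, mul_add, h'.p_mul, h'.p_mul]
  let Ω : H := lp.single 2 [] T.Ω
  let ZA : Set (List β × β) := {z | ¬ isHat z.2}
  let ZH : Set (List β × β) := {z | isHat z.2}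
  let ZN : Set (List β × β) := {z | isN hat z.1 z.2}
  let ZD : Set (List β × β) := {z | z.1 = [] ∧ isHat z.2}
  have NH : ZN ⊆ ZH := fun z hz => by
    obtain ⟨-, y, hy⟩ := isN_hat hz
    show isHat z.2
    rw [hy]; exact (h2 y).2
  have ΩD : Ω ∈ Cl b ZD := fun z hz => by
    rw [hb, inn']
    split_ifs with h5
    · exact h4 _ fun h6 => hz ⟨h5, h6⟩
    · rfl
  have mA : ∀ a ∈ π '' T.Cen ⊤ (DD E), ∀ ζ ∈ Cl b ZH, a ζ ∈ Cl b ZA := by
    rintro _ ⟨a, ha, rfl⟩ ζ hζ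
    refine Cl.map (fun z hz z' hz' => ?_) hζ
    rw [pb, hb, inn']
    split_ifs
    · obtain ⟨c, hc⟩ := h3 _ hz
      obtain ⟨c', hc'⟩ := h3 _ (not_not.mp hz')
      rw [hc, hc', map_smul, inner_smul_left, inner_smul_right, ← T.v_mul, T.inner_v,
        Tr.perp_mul_r (atm_mem E _) ha.2 _ (star_mem (atm_mem E _))]
      simp
    · rfl
  have mN : ∀ a ∈ {x | ∃ d ∈ DD E, x = π d * (U * p)}, ∀ ζ ∈ Cl b ZNᶜ, a ζ ∈ Cl b ZN := by
    rintro _ ⟨d, hd, rfl⟩ ζ hζ
    have a1 : p ζ ∈ Cl b ZNᶜ := Cl.map (fun z hz => by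
      have : ∃ c : ℂ, p (b z) = c • b z := by
        rw [hp, ContinuousLinearMap.add_apply, pE, pE]
        split_ifs
        exacts [⟨2, (two_smul _ _).symm⟩, ⟨1, by simp⟩, ⟨1, by simp⟩, ⟨0, by simp⟩]
      obtain ⟨c, hc⟩ := this
      rw [hc]; exact Cl.smul_basis hz c) hζ
    have a2 : U (p ζ) ∈ Cl b ZN := Cl.map (fun z hz => by
      rw [U3, ← one_smul ℂ (b _)]; exact Cl.smul_basis (Z := ZN) (isN_sw hz) 1) a1
    refine Cl.map (X := π d) (fun z hz => ?_) a2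
    obtain ⟨c, hc⟩ := h.toPre0.D_mul_atm hd (ty z.2)
    obtain ⟨c', hc'⟩ := h3 _ (NH hz)
    have : T.lam d (bv z.2) = c • bv z.2 := by
      rw [hc', map_smul, ← T.v_mul, hc, map_smul, smul_comm]
    rw [pb, this, lp.single_smul]
    have := Cl.smul_basis (b := b) hz c
    rwa [hb] at this
  have AN : ZA ⊆ ZNᶜ := fun z hz h5 => hz (NH h5)
  refine ⟨H, inferInstance, inferInstance, inferInstance, π, Ω, U * p, fun a => ?_,
    ⟨?_, fun c n => ?_, ?_⟩, fun i k w hw => ?_⟩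
  · rw [amp_single, lp.inner_single_left]; simp [T.τ_apply]
  · show _ = _
    rw [star_mul, U1.star_eq, Up, hp, star_add, h'.sa, h'.sa]
  · rw [mul_assoc, h'.p_mul, UE, Up, ← mul_assoc, h'.mul_p]
  · rw [mul_assoc, ← mul_assoc p, ← Up, mul_assoc, pp, ← mul_assoc, U2, one_mul]
  · have key : w Ω ∈ Cl b (two ZA ZN i) := by
      induction hw with
      | @single i a ha =>
        cases i
        · exact mN a ha _ (Cl.mono (Z' := ZNᶜ) (fun z hz h5 => (isN_hat h5).1 hz.1) ΩD)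
        · exact mA a ha _ (Cl.mono (fun z hz => hz.2) ΩD)
      | @cons i j k a w ha hj _ ih =>
        cases i
        · obtain rfl : j = true := by simpa using hj
          exact mN a ha _ (Cl.mono AN ih)
        · obtain rfl : j = false := by simpa using hj
          exact mA a ha _ (Cl.mono NH ih)
    refine Cl.inner (Set.disjoint_left.mpr fun z hz h5 => ?_) ΩD key
    cases i
    · exact (isN_hat h5).1 hz.1
    · exact h5 hz.2

theorem Tr.Pre.exists_step {T : Tr A} {E : Bool → ℕ → A} (h : T.Pre E)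
    (hE : T.HasExp ⊤ (DD E)) :
    ∃ (B : Type) (_ : CStarAlgebra B) (T' : Tr B) (ψ : A →⋆ₐ[ℂ] B) (u : B),
      (∀ a, T'.τ (ψ a) = T.τ a) ∧ UU (fun b n => ψ (E b n)) u ∧
      ∀ i k w, Alt (two (ψ '' T.Cen ⊤ (DD E)) {x | ∃ d ∈ DD E, x = ψ d * u}) i k w →
        T'.τ w = 0 := by
  obtain ⟨H, _, _, _, π, Ω, u, h1, h2, h3⟩ := h.exists_fock
  let φ : (H →L[ℂ] H) →L[ℂ] ℂ := (innerSL ℂ Ω).comp (ContinuousLinearMap.apply ℂ H Ω)
  have e : ∀ x, φ x = ⟪Ω, x Ω⟫_ℂ := fun x => rfl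
  have inj : Function.Injective π := (injective_iff_map_eq_zero π).mpr fun a ha =>
    T.eq_zero_of_τ (by rw [← h1, map_mul, ha]; simp)
  have h' := h.toPre0.map π
  set E' : Bool → ℕ → (H →L[ℂ] H) := fun b n => π (E b n) with hE'
  have du : {x | ∃ d ∈ DD E, x = π d * u} = DU E' u := by
    ext x
    constructor
    · rintro ⟨d, hd, rfl⟩; exact ⟨_, map_mem_DD π hd, rfl⟩
    · rintro ⟨d, hd, rfl⟩
      obtain ⟨d', hd', rfl⟩ := mem_DD_map π inj hd
      exact ⟨d', hd', rfl⟩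
  rw [du] at h3
  have F : PreFree (two π.range (NN E' u)) (DD E') (two (π '' T.Cen ⊤ (DD E)) (DU E' u)) := by
    refine ⟨?_, ?_, ?_, ?_, ?_⟩
    · rintro (_ | _)
      · exact DD_le_NN _ _
      · intro d hd
        obtain ⟨d', -, rfl⟩ := mem_DD_map π inj hd
        exact ⟨d', rfl⟩
    · rintro (_ | _)
      · rintro _ ⟨d, hd, rfl⟩; exact mul_mem (DD_le_NN _ _ hd) (u_mem_NN _ _)
      · rintro _ ⟨a, -, rfl⟩; exact ⟨a, rfl⟩
    · rintro (_ | _)
      · exact fun x hx => h2.mem_NN h' hx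
      · rintro _ ⟨a, rfl⟩
        obtain ⟨c, hc, h4⟩ := hE a trivial
        exact ⟨π c, map_mem_DD π hc, a - c, ⟨trivial, h4⟩, map_sub _ _ _⟩
    · rintro (_ | _) c hc
      · rintro _ ⟨d, hd, rfl⟩; exact ⟨_, mul_mem hc hd, (mul_assoc _ _ _).symm⟩
      · rintro _ ⟨a, ha, rfl⟩
        obtain ⟨c', hc', rfl⟩ := mem_DD_map π inj hc
        exact ⟨c' * a, ⟨trivial, Tr.perp_mul_l hc' ha.2⟩, map_mul _ _ _⟩
    · rintro (_ | _)
      · exact fun x hx => h2.star_DU h' hx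
      · rintro _ ⟨a, ha, rfl⟩
        exact ⟨star a, ⟨trivial, Tr.perp_star ha.2⟩, map_star _ _⟩
  have tA : ∀ x ∈ π.range, ∀ y ∈ π.range, φ (x * y) = φ (y * x) := by
    rintro _ ⟨a, rfl⟩ _ ⟨b, rfl⟩
    show φ (π a * π b) = φ (π b * π a)
    rw [← map_mul, ← map_mul, e, e, h1, h1, T.τ_comm]
  have tr := fun x hx => F.tracial φ.toLinearMap h3 (fun x => by
    show ⟪Ω, _⟫_ℂ = starRingEnd ℂ ⟪Ω, _⟫_ℂ
    rw [inner_conj_symm]
    exact ContinuousLinearMap.adjoint_inner_right _ _ _) (by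
      rintro (_ | _)
      · exact h2.tracial h' φ (fun x hx => h3 false false x (.single hx))
          (fun x hx y hy => tA x (F.le true hx) y (F.le true hy))
          fun n => by rw [e, e, h1, h1, h.tr]
      · exact tA) (x := x) hx
  let P := (π.range ⊔ NN E' u).topologicalClosure
  have : IsClosed (P : Set (H →L[ℂ] H)) := StarSubalgebra.isClosed_topologicalClosure _
  have tr' : ∀ x ∈ P, ∀ y ∈ P, φ (x * y) = φ (y * x) := fun x hx y hy =>
    closure_minimal (t := {x | φ (x * y) = φ (y * x)}) (fun x hx =>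
      closure_minimal (t := {y | φ (x * y) = φ (y * x)}) (tr x hx)
      (isClosed_eq (by fun_prop) (by fun_prop)) hy) (isClosed_eq (by fun_prop) (by fun_prop)) hx
  obtain ⟨B, _, T', ρ, hρ⟩ := exists_quot (A := P) (φ.toLinearMap ∘ₗ P.subtype.toLinearMap)
    (by
      show ⟪Ω, (1 : H →L[ℂ] H) Ω⟫_ℂ = 1
      rw [← map_one π, h1, T.τ_one])
    (fun x => by
      show 0 ≤ ⟪Ω, ContinuousLinearMap.adjoint x.1 (x.1 Ω)⟫_ℂ
      rw [ContinuousLinearMap.adjoint_inner_right]; exact inner_self_nonneg' _)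
    fun x y => tr' _ x.2 _ y.2
  have m1 : ∀ a, π a ∈ P := fun a =>
    StarSubalgebra.le_topologicalClosure _ ((le_sup_left : π.range ≤ _) ⟨a, rfl⟩)
  have m2 : u ∈ P :=
    StarSubalgebra.le_topologicalClosure _ ((le_sup_right : NN E' u ≤ _) (u_mem_NN _ _))
  refine ⟨B, inferInstance, T', ρ.comp (π.codRestrict P m1), ρ ⟨u, m2⟩, fun a => (hρ _).trans (h1 a),
    ⟨?_, fun b n => ?_, ?_⟩, fun i k w hw => ?_⟩
  · exact IsSelfAdjoint.map (x := (⟨u, m2⟩ : P)) (Subtype.ext h2.sa.star_eq) ρ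
  · simp only [StarAlgHom.comp_apply, ← map_mul]
    exact congrArg ρ (Subtype.ext (h2.comm b n))
  · simp only [StarAlgHom.comp_apply, ← map_mul, ← map_add ρ]
    exact congrArg ρ (Subtype.ext h2.sq)
  · obtain ⟨w', h4, hw', rfl⟩ := hw.rel (P := two (π '' T.Cen ⊤ (DD E)) (DU E' u))
      (fun x y => ∃ hx : x ∈ P, ρ ⟨x, hx⟩ = y) (by
        rintro a a' _ _ ⟨ha, rfl⟩ ⟨ha', rfl⟩
        exact ⟨mul_mem ha ha', by rw [← map_mul]; rfl⟩) (by
        rintro (_ | _)
        · rintro _ ⟨d, hd, rfl⟩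
          exact ⟨π d * u, ⟨_, map_mem_DD π hd, rfl⟩, mul_mem (m1 d) m2, by
            rw [StarAlgHom.comp_apply, ← map_mul]; rfl⟩
        · rintro _ ⟨a, ha, rfl⟩
          exact ⟨π a, ⟨a, ha, rfl⟩, m1 a, rfl⟩)
    exact (hρ _).trans (h3 _ _ _ h4)

end Crest.Agent.H3N
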