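import Crest.Agent.H3N.Step

/-! Auxiliary constructions for the Fock space. -/

set_option autoImplicit false

open scoped InnerProductSpace ComplexOrder
open Filter Topology

noncomputable section

namespace Crest.Agent.H3N
variable {A : Type} [CStarAlgebra A]

/-- passing to the faithful quotient of a tracial state -/
theorem exists_quot (ω : A →ₗ[ℂ] ℂ) (h1 : ω 1 = 1) (hω : ∀ a, 0 ≤ ω (star a * a))
    (ht : ∀ a b, ω (a * b) = ω (b * a)) :
    ∃ (B : Type) (_ : CStarAlgebra B) (T : Tr B) (ρ : A →⋆ₐ[ℂ] B), ∀ a, T.τ (ρ a) = ω a := by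
  obtain ⟨H, _, _, _, ρ, Ω, h2, h3⟩ := exists_gns ω hω
  let B := ρ.range.topologicalClosure
  have : IsClosed (B : Set (H →L[ℂ] H)) := StarSubalgebra.isClosed_topologicalClosure _
  let ω' : B →ₗ[ℂ] ℂ := ((innerSL ℂ Ω).comp (repAt B.subtype Ω)).toLinearMap
  have e : ∀ b : B, ω' b = ⟪Ω, (b : H →L[ℂ] H) Ω⟫_ℂ := fun b => rfl
  have mem : ∀ a, ρ a ∈ B := fun a => StarSubalgebra.le_topologicalClosure _ ⟨a, rfl⟩
  have tr : ∀ x ∈ B, ∀ y ∈ B, ⟪Ω, (x * y) Ω⟫_ℂ = ⟪Ω, (y * x) Ω⟫_ℂ := fun x hx y hy => by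
    refine closure_minimal (t := {x | ⟪Ω, (x * y) Ω⟫_ℂ = ⟪Ω, (y * x) Ω⟫_ℂ}) ?_
      (isClosed_eq (by fun_prop) (by fun_prop)) hx
    rintro _ ⟨a, rfl⟩
    refine closure_minimal (t := {y | ⟪Ω, (ρ a * y) Ω⟫_ℂ = ⟪Ω, (y * ρ a) Ω⟫_ℂ}) ?_
      (isClosed_eq (by fun_prop) (by fun_prop)) hy
    rintro _ ⟨b, rfl⟩
    show ⟪Ω, (ρ a * ρ b) Ω⟫_ℂ = ⟪Ω, (ρ b * ρ a) Ω⟫_ℂ
    rw [← map_mul, ← map_mul, h2, h2, ht]
  have sq : ∀ (x : H →L[ℂ] H) (ξ : H), ⟪ξ, (star x * x) ξ⟫_ℂ = ⟪x ξ, x ξ⟫_ℂ := fun x ξ => by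
    rw [ContinuousLinearMap.mul_apply, ContinuousLinearMap.star_eq_adjoint,
      ContinuousLinearMap.adjoint_inner_right]
  obtain ⟨T, hT⟩ := exists_tr ω' (by rw [e, ← h1, ← h2, map_one]; rfl)
    (fun b => by rw [e]; exact (sq _ _).symm ▸ inner_self_nonneg' _) (fun b hb => by
      have h4 : (b : H →L[ℂ] H) Ω = 0 := inner_self_eq_zero.mp ((sq _ _).symm.trans hb)
      refine Subtype.ext (ContinuousLinearMap.ext fun ξ => ?_)
      refine h3.induction_on ξ (isClosed_eq (by fun_prop) (by fun_prop)) fun a => ?_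
      have h5 := tr _ (star_mem (mul_mem b.2 (mem a))) b.1 b.2
      have h6 := tr _ (mul_mem (star_mem (mul_mem b.2 (mem a))) b.2) _ (mem a)
      rw [mul_assoc, sq] at h6
      simp only [ContinuousLinearMap.mul_apply, h4, map_zero, inner_zero_right,
        inner_self_eq_zero] at h6
      exact h6) fun a b => tr _ a.2 _ b.2
  exact ⟨B, inferInstance, T, ρ.codRestrict B mem, fun a => (hT _).trans (h2 a)⟩

theorem PreFree.tracial {B : Bool → StarSubalgebra ℂ A} {C : StarSubalgebra ℂ A}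
    {P : Bool → Set A} (F : PreFree B C P) (φ : A →ₗ[ℂ] ℂ) (hφ : ∀ i k w, Alt P i k w → φ w = 0)
    (hs : ∀ x, φ (Star.star x) = starRingEnd ℂ (φ x))
    (ht : ∀ j, ∀ x ∈ B j, ∀ y ∈ B j, φ (x * y) = φ (y * x)) {x : A} (hx : x ∈ B true ⊔ B false) :
    ∀ y ∈ B true ⊔ B false, φ (x * y) = φ (y * x) := by
  have h1 : ∀ j, ∀ x ∈ B j, ∀ y ∈ B true ⊔ B false, φ (x * y) = φ (y * x) := by
    intro j x hx y hy
    let Q := LinearMap.ker (φ ∘ₗ (LinearMap.mulLeft ℂ x - LinearMap.mulRight ℂ x))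
    have hQ : ∀ y, y ∈ Q ↔ φ (x * y) = φ (y * x) := fun y => by simp [Q, sub_eq_zero]
    have hW : ∀ i, Wd P i ≤ Q := fun i => Submodule.span_le.mpr (by
      rintro w ⟨k, hw⟩
      refine (hQ w).mpr ?_
      rcases F.T1' φ hφ hw j with h | h
      · exact ht j x hx w (F.sub _ _ h.2)
      rcases F.T1' φ hφ (hw.star F.star) j with h' | h'
      · exact ht j x hx w (by simpa using star_mem (F.sub _ _ h'.2))
      have := hs (w * x)
      rw [star_mul, h' _ (star_mem hx), eq_comm, map_eq_zero] at this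
      rw [h x hx, this])
    have hS : SS C P ≤ Q :=
      sup_le (sup_le (fun c hc => (hQ c).mpr (ht j x hx c (F.le j hc))) (hW _)) (hW _)
    exact (hQ y).mp (hS (F.sup_mem_SS hy))
  have h : B true ⊔ B false ≤ StarAlgebra.adjoin ℂ ((B true : Set A) ∪ B false) :=
    sup_le (fun x hx => StarAlgebra.subset_adjoin ℂ _ (Or.inl hx))
        (fun x hx => StarAlgebra.subset_adjoin ℂ _ (Or.inr hx))
  have h' : StarAlgebra.adjoin ℂ ((B true : Set A) ∪ B false) ≤ B true ⊔ B false := by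
    refine StarAlgebra.adjoin_le ?_
    rintro x (hx | hx)
    · exact (le_sup_left : B true ≤ _) hx
    · exact (le_sup_right : B false ≤ _) hx
  replace hx := h hx
  induction hx using StarAlgebra.adjoin_induction with
  | mem x hx => rcases hx with hx | hx <;> exact h1 _ x hx
  | algebraMap r => exact h1 true _ (algebraMap_mem _ r)
  | add x y _ _ h1 h2 => intro z hz; rw [add_mul, mul_add, map_add, map_add, h1 z hz, h2 z hz]
  | mul x y hx hy h1 h2 =>
    intro z hz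
    rw [mul_assoc, h1 _ (mul_mem (h' hy) hz), mul_assoc, h2 _ (mul_mem hz (h' hx)), mul_assoc]
  | star x _ h1 =>
    intro z hz
    have a1 := hs (Star.star z * x)
    have a2 := hs (x * Star.star z)
    rw [star_mul, star_star] at a1 a2
    rw [a1, a2, h1 _ (star_mem hz)]

theorem hom_cont {B : Type} [CStarAlgebra B] (φ : A →⋆ₐ[ℂ] B) : Continuous φ :=
  AddMonoidHomClass.continuous_of_bound φ 1 fun a => by
    simpa using NonUnitalStarAlgHom.norm_apply_le φ a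

theorem Pre0.map {B : Type} [CStarAlgebra B] {E : Bool → ℕ → A} (h : Pre0 E) (φ : A →⋆ₐ[ℂ] B) :
    Pre0 fun b n => φ (E b n) where
  chain := fun b => ⟨fun n => ((h.chain b).sa n).map φ, fun n =>
    (NonUnitalStarAlgHom.norm_apply_le φ _).trans ((h.chain b).norm_le n),
    fun n => by rw [← map_mul, (h.chain b).mul]⟩
  idem := fun b n => by rw [← map_mul, h.idem]
  orth := by rw [← map_mul, h.orth, map_zero]

theorem map_mem_DD {B : Type} [CStarAlgebra B] {E : Bool → ℕ → A} (φ : A →⋆ₐ[ℂ] B) {d : A}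
    (hd : d ∈ DD E) : φ d ∈ DD fun b n => φ (E b n) :=
  DD_le (X := (DD fun b n => φ (E b n)).comap φ)
    ((isClosed_DD _).preimage (hom_cont φ)) (fun b n => mem_DD _ b n) hd

theorem mem_DD_map {B : Type} [CStarAlgebra B] {E : Bool → ℕ → A} (φ : A →⋆ₐ[ℂ] B)
    (hφ : Function.Injective φ) {d : B} (hd : d ∈ DD fun b n => φ (E b n)) :
    ∃ d' ∈ DD E, φ d' = d :=
  DD_le (X := (DD E).map φ)
    ((NonUnitalStarAlgHom.isometry φ hφ).isClosedEmbedding.isClosedMap _ (isClosed_DD _))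
    (fun b n => ⟨_, mem_DD _ b n, rfl⟩) hd

theorem UU.tracial {E : Bool → ℕ → A} {u : A} (h : Pre0 E) (hu : UU E u) (φ : A →L[ℂ] ℂ)
    (h0 : ∀ x ∈ DU E u, φ x = 0) (ht : ∀ x ∈ DD E, ∀ y ∈ DD E, φ (x * y) = φ (y * x))
    (he : ∀ n, φ (E true n) = φ (E false n)) :
    ∀ x ∈ NN E u, ∀ y ∈ NN E u, φ (x * y) = φ (y * x) := by
  set p := E true 0 + E false 0 with hp
  have mp : p ∈ DD E := add_mem (mem_DD _ _ _) (mem_DD _ _ _)
  have up : u * p = u := hu.mul_p h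
  have h1 : ∀ d ∈ DD E, φ (u * d * u) = φ (p * d) := fun d hd => by
    have := h.induction (Q := LinearMap.ker (φ.toLinearMap ∘ₗ (LinearMap.mulLeft ℂ u ∘ₗ
      LinearMap.mulRight ℂ u - LinearMap.mulLeft ℂ p)))
      (isClosed_eq (f := fun d => φ (u * (d * u) - p * d)) (by fun_prop) continuous_const)
      (by simp [hu.sq, hp]) (fun b n => by
        show φ (u * (E b n * u) - p * E b n) = 0
        rw [← mul_assoc, hu.comm, mul_assoc, hu.sq, h.mul_p, h.p_mul, map_sub]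
        cases b <;> simp [he]) hd
    have h2 : φ (u * (d * u) - p * d) = 0 := this
    rwa [map_sub, sub_eq_zero, ← mul_assoc] at h2
  have h2 : ∀ a ∈ DD E, ∀ b ∈ DD E, φ (a * u * (b * u)) = φ (b * u * (a * u)) := by
    intro a ha b hb
    have a1 := h1 _ (mul_mem ha (hu.conj_mem h hb))
    have a2 : u * (a * (u * b * u)) * u = u * a * u * (b * p) := by
      rw [hp, ← hu.sq]; simp only [mul_assoc]
    rw [a2, ht _ (hu.conj_mem h ha) _ (mul_mem hb mp), ht _ mp _ (mul_mem ha (hu.conj_mem h hb))] at a1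
    have pu : p * u = u := by
      have := congrArg star up
      rwa [star_mul, hu.sa.star_eq, hp, star_add, h.sa, h.sa] at this
    simp only [mul_assoc, up] at a1 ⊢
    rw [← mul_assoc p, pu] at a1
    exact a1.symm
  have h3 : ∀ a ∈ DD E, ∀ b ∈ DD E, φ (a * u * b) = 0 := fun a ha b hb => by
    rw [mul_assoc, hu.comm_D h hb, ← mul_assoc]
    exact h0 _ ⟨_, mul_mem ha (hu.conj_mem h hb), rfl⟩
  have h4 : ∀ a ∈ DD E, ∀ b ∈ DD E, φ (a * (b * u)) = 0 := fun a ha b hb =>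
    h0 _ ⟨_, mul_mem ha hb, (mul_assoc _ _ _).symm⟩
  intro x hx y hy
  obtain ⟨a, ha, b, hb, e1⟩ := hu.mem_NN h hx
  obtain ⟨c, hc, d, hd, e2⟩ := hu.mem_NN h hy
  rw [sub_eq_iff_eq_add'.mp e1, sub_eq_iff_eq_add'.mp e2]
  simp only [mul_add, add_mul, map_add, h3 _ hb _ hc, h3 _ hd _ ha, h4 _ ha _ hd, h4 _ hc _ hb,
    ht _ ha _ hc, h2 _ hb _ hd]

/-- the involution on atoms -/
def sg : Option (Bool × ℕ) → Option (Bool × ℕ)
  | none => none
  | some (b, n) => some (!b, n)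

theorem sg_sg (j : Option (Bool × ℕ)) : sg (sg j) = j := by
  rcases j with _ | ⟨b, n⟩ <;> simp [sg]

theorem below_sg (b : Bool) (n : ℕ) (j : Option (Bool × ℕ)) : below (!b) n (sg j) ↔ below b n j := by
  rcases j with _ | ⟨c, m⟩ <;> simp [sg, below]

theorem isClosed_Fix {H : Type} [NormedAddCommGroup H] [InnerProductSpace ℂ H] [CompleteSpace H]
    (ρ : A →⋆ₐ[ℂ] (H →L[ℂ] H)) (f : ℕ → A) : IsClosed (Fix ρ f : Set H) := by
  have : (Fix ρ f : Set H) = ⋂ n, {ζ | ρ (f n) ζ = ζ} := by ext; simp [mem_Fix]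
  rw [this]
  exact isClosed_iInter fun n => isClosed_eq (by fun_prop) continuous_id

theorem Tr.Pre.exists_adapted {T : Tr A} {E : Bool → ℕ → A} (h : T.Pre E) :
    ∃ (β : Type) (bv : β → T.H) (ty : β → Option (Bool × ℕ)) (hat : β → β) (isHat : β → Prop),
      Orthonormal ℂ bv ∧ (∀ ζ, (∀ x, ⟪bv x, ζ⟫_ℂ = 0) → ζ = 0) ∧
      (∀ x, T.lam (atm E (ty x)) (bv x) = bv x) ∧ (∀ x, ty (hat x) = sg (ty x) ∧ isHat (hat x)) ∧
      (∀ x, isHat x → ∃ c : ℂ, bv x = c • T.v (atm E (ty x))) ∧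
      ∀ x, ¬ isHat x → ⟪bv x, T.Ω⟫_ℂ = 0 := by
  let K : Option (Bool × ℕ) → Submodule ℂ T.H := fun j => Fix T.lam fun _ => atm E j
  have cK : ∀ j, CompleteSpace (K j) := fun j => (isClosed_Fix _ _).completeSpace_coe
  have idem : ∀ j, atm E j * atm E j = atm E j := fun j => (h.toPre0.atm_proj j).isIdempotentElem
  let hv : ∀ j, K j := fun j => ⟨(‖T.v (atm E j)‖ : ℂ)⁻¹ • T.v (atm E j), fun _ => by
    rw [map_smul, ← T.v_mul, idem]⟩
  have vne : ∀ j, atm E j ≠ 0 → ‖T.v (atm E j)‖ ≠ 0 := fun j h0 =>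
    norm_ne_zero_iff.mpr fun h1 => h0 (T.eq_zero_of_v h1)
  have ex : ∀ j, ∃ (w : Set (K j)) (b : HilbertBasis w ℂ (K j)),
      {y | y = hv j ∧ atm E j ≠ 0} ⊆ w ∧ ⇑b = ((↑) : w → K j) := fun j => by
    refine Orthonormal.exists_hilbertBasis_extension ⟨?_, ?_⟩
    · rintro ⟨_, rfl, h0⟩
      show ‖(‖T.v (atm E j)‖ : ℂ)⁻¹ • T.v (atm E j)‖ = 1
      rw [norm_smul, norm_inv, Complex.norm_real, norm_norm, inv_mul_cancel₀ (vne j h0)]
    · rintro ⟨_, rfl, h0⟩ ⟨_, rfl, h1⟩ h2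
      exact absurd rfl h2
  choose w b hw hb using ex
  have on : ∀ j, Orthonormal ℂ ((↑) : w j → K j) := fun j => hb j ▸ (b j).orthonormal
  have ne : ∀ x : Σ j, w j, atm E x.1 ≠ 0 := fun x h0 => by
    have h1 : T.lam (atm E x.1) (x.2.1 : T.H) = x.2.1 := x.2.1.2 0
    have h2 : ‖(x.2.1 : T.H)‖ = 1 := (on x.1).1 x.2
    rw [← h1, h0] at h2
    simp at h2
  have ne' : ∀ x : Σ j, w j, atm E (sg x.1) ≠ 0 := fun x h0 => ne x (by
    have : T.τ (atm E (sg x.1)) = T.τ (atm E x.1) := by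
      rcases x with ⟨_ | ⟨_ | _, n⟩, _⟩ <;> simp [sg, atm, h.tr]
    refine T.eq_zero_of_τ ?_
    rw [h.toPre0.atm_sa, idem, ← this, h0, map_zero])
  have mv : ∀ (x : Σ j, w j) (ζ : T.H),
      ⟪(x.2.1 : T.H), ζ⟫_ℂ = ⟪(x.2.1 : T.H), T.lam (atm E x.1) ζ⟫_ℂ := fun x ζ => by
    rw [rep_inner_right, h.toPre0.atm_sa, x.2.1.2 0]
  refine ⟨Σ j, w j, fun x => (x.2.1 : T.H), fun x => x.1,
    fun x => ⟨sg x.1, hv _, hw _ ⟨rfl, ne' x⟩⟩, fun x => x.2.1 = hv x.1, ⟨fun x => (on x.1).1 x.2, ?_⟩,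
    fun ζ hζ => ?_, fun x => x.2.1.2 0, fun x => ⟨rfl, rfl⟩, fun x hx => ⟨_, congrArg Subtype.val hx⟩,
    fun x hx => ?_⟩
  · rintro ⟨i, x⟩ ⟨j, y⟩ hxy
    by_cases hij : i = j
    · subst hij
      exact (on i).2 (fun h1 : x = y => hxy (by rw [h1]))
    · show ⟪(x.1 : T.H), (y.1 : T.H)⟫_ℂ = 0
      rw [mv ⟨i, x⟩, ← y.1.2 0, ← rep_mul, h.toPre0.atm_mul_atm, if_neg hij]; simp
  · have h1 : ∀ j, T.lam (atm E j) ζ = 0 := fun j => by
      let y : K j := ⟨T.lam (atm E j) ζ, fun _ => by rw [← rep_mul, idem]⟩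
      have : (b j).repr y = 0 := by
        ext x
        rw [HilbertBasis.repr_apply_apply, hb]
        exact (mv ⟨j, x⟩ ζ).symm.trans (hζ ⟨j, x⟩)
      exact congrArg Subtype.val ((b j).repr.map_eq_zero_iff.mp this)
    have h2 : ∀ c, T.lam (E c 0) ζ = 0 := fun c => by
      have a1 : ∀ n, T.lam (E c n) ζ = T.lam (E c 0) ζ := fun n => by
        induction n with
        | zero => rfl
        | succ n ih =>
          have := h1 (some (c, n))
          simp only [atm, map_sub, ContinuousLinearMap.sub_apply] at this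
          rw [← ih, ← sub_eq_zero.mp this]
      have a2 : Tendsto (fun n => T.lam (E c n) ζ) atTop (𝓝 0) := by
        refine T.dense.induction_on (p := fun ζ => Tendsto (fun n => T.lam (E c n) ζ) atTop (𝓝 0))
          ζ (isClosed_tendsto (S := fun n => T.lam (E c n)) (M := 1) (P := fun _ => 0) (fun n =>
            (NonUnitalStarAlgHom.norm_apply_le _ _).trans ((h.chain c).norm_le n)) continuous_const)
          fun a => tendsto_zero_of_le (g := fun n => ‖T.v (E c n)‖ * ‖a‖) (fun n => ?_)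
            (by simpa using (h.null c).mul_const ‖a‖)
        rw [← rep_mul]; exact T.norm_v_mul_le' _ _
      simp only [a1] at a2
      exact tendsto_nhds_unique tendsto_const_nhds a2
    simpa [atm, h2] using h1 none
  · have h1 : ⟪x.2.1, hv x.1⟫_ℂ = 0 := (on x.1).2 (i := x.2) (j := ⟨hv x.1, hw _ ⟨rfl, ne x⟩⟩)
      (fun h2 => hx (congrArg Subtype.val h2))
    have h2 : ⟪(x.2.1 : T.H), (‖T.v (atm E x.1)‖ : ℂ)⁻¹ • T.v (atm E x.1)⟫_ℂ = 0 := h1
    rw [inner_smul_right, mul_eq_zero] at h2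
    rw [mv]
    exact h2.resolve_left (inv_ne_zero (by exact_mod_cast vne _ (ne x)))

section comb
variable {β : Type} (hat : β → β)

def isN : List β → β → Prop
  | [], _ => False
  | y :: l, x => x = hat y ∧ ¬ isN l y

open Classical in
def sw (z : List β × β) : List β × β :=
  if isN hat z.1 z.2 then (z.1.tail, z.1.headD z.2) else (z.2 :: z.1, hat z.2)

variable {hat}
theorem sw_of_not {z : List β × β} (h : ¬ isN hat z.1 z.2) : sw hat z = (z.2 :: z.1, hat z.2) :=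
  if_neg h

theorem isN_sw {z : List β × β} (h : ¬ isN hat z.1 z.2) : isN hat (sw hat z).1 (sw hat z).2 := by
  rw [sw_of_not h]; exact ⟨rfl, h⟩

theorem sw_sw (z : List β × β) : sw hat (sw hat z) = z := by
  by_cases h : isN hat z.1 z.2
  · obtain ⟨_ | ⟨y, l⟩, x⟩ := z
    · exact h.elim
    · have : sw hat (y :: l, x) = (l, y) := if_pos h
      rw [this, sw_of_not h.2]
      exact Prod.ext rfl h.1.symm
  · have h1 := isN_sw h
    rw [sw_of_not h] at h1 ⊢
    exact if_pos h1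

theorem sw_cases (z : List β × β) : (sw hat z).2 = hat z.2 ∨ z.2 = hat (sw hat z).2 := by
  by_cases h : isN hat z.1 z.2
  · obtain ⟨_ | ⟨y, l⟩, x⟩ := z
    · exact h.elim
    · have : sw hat (y :: l, x) = (l, y) := if_pos h
      rw [this]; exact Or.inr h.1
  · rw [sw_of_not h]; exact Or.inl rfl

theorem isN_hat {z : List β × β} (h : isN hat z.1 z.2) : z.1 ≠ [] ∧ ∃ y, z.2 = hat y := by
  obtain ⟨_ | ⟨y, l⟩, x⟩ := z
  · exact h.elim
  · exact ⟨by simp, y, h.1⟩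

end comb

section amp
variable {H : Type} [NormedAddCommGroup H] [InnerProductSpace ℂ H] [CompleteSpace H] (ι : Type)

/-- infinite amplification of a representation -/
def amp (ρ : A →⋆ₐ[ℂ] (H →L[ℂ] H)) : A →⋆ₐ[ℂ] (lp (fun _ : ι => H) 2 →L[ℂ] lp (fun _ : ι => H) 2) where
  toFun a := lp.mapCLM 2 (fun _ => ρ a) (norm_nonneg (ρ a)) fun _ => le_rfl
  map_one' := by ext ζ l; simp
  map_mul' a b := by ext ζ l; simp
  map_zero' := by ext ζ l; simp
  map_add' a b := by ext ζ l; simp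
  commutes' c := by ext ζ l; simp [Algebra.algebraMap_eq_smul_one]
  map_star' a := by
    rw [ContinuousLinearMap.star_eq_adjoint, ContinuousLinearMap.eq_adjoint_iff]
    intro x y
    simp [lp.inner_eq_tsum, rep_inner_right ρ a]

variable {ι}
theorem amp_apply (ρ : A →⋆ₐ[ℂ] (H →L[ℂ] H)) (a : A) (ζ : lp (fun _ : ι => H) 2) (l : ι) :
    amp ι ρ a ζ l = ρ a (ζ l) := rfl

theorem amp_single [DecidableEq ι] (ρ : A →⋆ₐ[ℂ] (H →L[ℂ] H)) (a : A) (l : ι) (x : H) :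
    amp ι ρ a (lp.single 2 l x) = lp.single 2 l (ρ a x) := by
  ext l'
  rw [amp_apply]
  by_cases h : l' = l
  · subst h; simp
  · simp [lp.single_apply, Pi.single_eq_of_ne h]

end amp

section cl
variable {ι H : Type} [NormedAddCommGroup H] [InnerProductSpace ℂ H] [CompleteSpace H]
  (b : HilbertBasis ι ℂ H)

/-- vectors supported on `Z` -/
def Cl (Z : Set ι) : Set H := {ζ | ∀ z ∉ Z, ⟪b z, ζ⟫_ℂ = 0}

variable {b}
theorem Cl.map {Z Z' : Set ι} {X : H →L[ℂ] H} (h : ∀ z ∈ Z, X (b z) ∈ Cl b Z') {ζ : H}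
    (hζ : ζ ∈ Cl b Z) : X ζ ∈ Cl b Z' := by
  intro z' hz'
  rw [← ContinuousLinearMap.adjoint_inner_left, ← b.tsum_inner_mul_inner]
  refine (tsum_congr fun z => ?_).trans tsum_zero
  by_cases hz : z ∈ Z
  · rw [ContinuousLinearMap.adjoint_inner_left, h z hz z' hz', zero_mul]
  · rw [hζ z hz, mul_zero]

omit [CompleteSpace H] in
theorem Cl.mono {Z Z' : Set ι} (h : Z ⊆ Z') {ζ : H} (hζ : ζ ∈ Cl b Z) : ζ ∈ Cl b Z' :=
  fun z hz => hζ z fun h1 => hz (h h1)

omit [CompleteSpace H] in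
theorem Cl.smul_basis {Z : Set ι} {z : ι} (h : z ∈ Z) (c : ℂ) : c • b z ∈ Cl b Z := fun z' hz' => by
  rw [inner_smul_right, b.orthonormal.2 (by rintro rfl; exact hz' h), mul_zero]

omit [CompleteSpace H] in
theorem Cl.inner {Z Z' : Set ι} (h : Disjoint Z Z') {ζ ζ' : H} (hζ : ζ ∈ Cl b Z)
    (hζ' : ζ' ∈ Cl b Z') : ⟪ζ, ζ'⟫_ℂ = 0 := by
  rw [← b.tsum_inner_mul_inner]
  refine (tsum_congr fun z => ?_).trans tsum_zero
  by_cases hz : z ∈ Z
  · rw [hζ' z (Set.disjoint_left.mp h hz), mul_zero]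
  · rw [inner_eq_zero_symm.mp (hζ z hz), zero_mul]

theorem exists_perm (b : HilbertBasis ι ℂ H) (s : ι → ι) (hs : ∀ z, s (s z) = z) :
    ∃ U : H →L[ℂ] H, IsSelfAdjoint U ∧ U * U = 1 ∧ ∀ z, U (b z) = b (s z) := by
  classical
  have hi : Function.Involutive s := hs
  let b' : HilbertBasis ι ℂ H := HilbertBasis.mk (b.orthonormal.comp s hi.injective) (by
    rw [hi.surjective.range_comp, b.dense_span])
  let U := b.repr.trans b'.repr.symm
  have h1 : ∀ z, U (b z) = b (s z) := fun z => by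
    simp only [U, LinearIsometryEquiv.trans_apply, b.repr_self, b'.repr_symm_single]
    simp [b']
  have h2 : ∀ x, U (U x) = x := fun x => by
    have : (U.toContinuousLinearEquiv : H →L[ℂ] H) * (U.toContinuousLinearEquiv : H →L[ℂ] H) = 1 :=
      ContinuousLinearMap.ext_on (Submodule.dense_iff_topologicalClosure_eq_top.mpr b.dense_span)
        (by rintro _ ⟨z, rfl⟩; simp [h1, hs])
    exact congrArg (fun X => X x) this
  refine ⟨U.toContinuousLinearEquiv, ?_, ContinuousLinearMap.ext h2, h1⟩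
  rw [ContinuousLinearMap.isSelfAdjoint_iff', eq_comm, ContinuousLinearMap.eq_adjoint_iff]
  intro x y
  show ⟪U x, y⟫_ℂ = ⟪x, U y⟫_ℂ
  rw [← U.inner_map_map, h2]

end cl

end Crest.Agent.H3N
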