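import Crest.Agent.H3N.Alt

/-! Freeness with amalgamation in a tracial C⋆-algebra. -/

set_option autoImplicit false

open scoped InnerProductSpace ComplexOrder
open Filter Topology

noncomputable section

namespace Crest.Agent.H3N
namespace Tr
variable {A : Type} [CStarAlgebra A] (T : Tr A)

/-- elements orthogonal to `C` for the trace -/
def perp (C : StarSubalgebra ℂ A) : Submodule ℂ A where
  carrier := {a | ∀ c ∈ C, T.τ (c * a) = 0}
  add_mem' := fun {a b} ha hb c hc => by rw [mul_add, map_add, ha c hc, hb c hc, add_zero]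
  zero_mem' := fun c _ => by simp
  smul_mem' := fun r a ha c hc => by rw [mul_smul_comm, map_smul, ha c hc, smul_zero]

variable {T}
theorem mem_perp {C : StarSubalgebra ℂ A} {a : A} : a ∈ T.perp C ↔ ∀ c ∈ C, T.τ (c * a) = 0 :=
  Iff.rfl

theorem isClosed_perp (C : StarSubalgebra ℂ A) : IsClosed (T.perp C : Set A) := by
  have : (T.perp C : Set A) = ⋂ c ∈ C, {a | T.τ (c * a) = 0} := by
    ext a; simp [mem_perp]
  rw [this]
  exact isClosed_biInter fun c _ => isClosed_eq (by fun_prop) continuous_const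

theorem perp_star {C : StarSubalgebra ℂ A} {a : A} (ha : a ∈ T.perp C) : star a ∈ T.perp C := by
  intro c hc
  have : c * star a = star (a * star c) := by simp
  rw [this, τ_star, τ_comm, ha _ (star_mem hc), map_zero]

theorem perp_mul_l {C : StarSubalgebra ℂ A} {a c : A} (hc : c ∈ C) (ha : a ∈ T.perp C) :
    c * a ∈ T.perp C := fun d hd => by rw [← mul_assoc]; exact ha _ (mul_mem hd hc)

theorem perp_mul_r {C : StarSubalgebra ℂ A} {a c : A} (hc : c ∈ C) (ha : a ∈ T.perp C) :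
    a * c ∈ T.perp C := fun d hd => by
  rw [← mul_assoc, τ_comm, ← mul_assoc]; exact ha _ (mul_mem hc hd)

theorem perp_mono {C D : StarSubalgebra ℂ A} (h : C ≤ D) {a : A} (ha : a ∈ T.perp D) :
    a ∈ T.perp C := fun c hc => ha c (h hc)

theorem perp_eq_zero {C : StarSubalgebra ℂ A} {a : A} (hc : a ∈ C) (ha : a ∈ T.perp C) : a = 0 :=
  T.eq_zero_of_τ (ha _ (star_mem hc))

theorem perp_τ {C : StarSubalgebra ℂ A} {a : A} (ha : a ∈ T.perp C) : T.τ a = 0 := by
  simpa using ha 1 (one_mem C)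

theorem norm_v_le_of_inner {x c : A} (h : T.τ (star c * (x - c)) = 0) : ‖T.v c‖ ≤ ‖T.v x‖ := by
  have h1 : ⟪T.v c, T.v (x - c)⟫_ℂ = 0 := by rw [inner_v, h]
  have h2 := norm_add_sq_eq_norm_sq_add_norm_sq_of_inner_eq_zero _ _ h1
  rw [← map_add, add_sub_cancel] at h2
  nlinarith [norm_nonneg (T.v c), norm_nonneg (T.v x), norm_nonneg (T.v (x - c))]

theorem norm_v_exp_le {C : StarSubalgebra ℂ A} {x c : A} (hc : c ∈ C) (h : x - c ∈ T.perp C) :
    ‖T.v c‖ ≤ ‖T.v x‖ := norm_v_le_of_inner (h _ (star_mem hc))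

theorem norm_exp_le {C : StarSubalgebra ℂ A} {x c : A} (hc : c ∈ C) (h : x - c ∈ T.perp C) :
    ‖c‖ ≤ ‖x‖ := by
  refine T.norm_le_of_L2 C (one_mem C) (fun y hy => mul_mem hc hy)
    (fun y hy => mul_mem (star_mem hc) hy) (norm_nonneg x) fun y hy => ?_
  refine le_trans (norm_v_exp_le (x := x * y) (mul_mem hc hy) ?_) (T.norm_v_mul_le _ _)
  rw [← sub_mul]; exact perp_mul_r hy h

theorem exp_selfAdjoint {C : StarSubalgebra ℂ A} {x c : A} (hc : c ∈ C) (h : x - c ∈ T.perp C)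
    (hx : IsSelfAdjoint x) : IsSelfAdjoint c := by
  have h1 := perp_star h
  rw [star_sub, hx.star_eq] at h1
  have h2 := sub_mem h h1
  have h3 : x - c - (x - star c) = star c - c := by abel
  rw [h3] at h2
  exact sub_eq_zero.mp (perp_eq_zero (sub_mem (star_mem hc) hc) h2)

variable (T)
/-- elements with a conditional expectation onto `C` whose centred part lies in `Q` -/
def GG (C : StarSubalgebra ℂ A) (Q : Submodule ℂ A) : Submodule ℂ A :=
  C.toSubalgebra.toSubmodule ⊔ (T.perp C ⊓ Q)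

variable {T}
theorem mem_GG {C : StarSubalgebra ℂ A} {Q : Submodule ℂ A} {b : A} :
    b ∈ T.GG C Q ↔ ∃ c ∈ C, b - c ∈ T.perp C ∧ b - c ∈ Q := by
  rw [GG, Submodule.mem_sup]
  constructor
  · rintro ⟨c, hc, z, hz, rfl⟩
    exact ⟨c, hc, by simpa using hz⟩
  · rintro ⟨c, hc, h⟩
    exact ⟨c, hc, b - c, h, by abel⟩

theorem isClosed_GG {C : StarSubalgebra ℂ A} (hC : IsClosed (C : Set A)) {Q : Submodule ℂ A}
    (hQ : IsClosed (Q : Set A)) : IsClosed (T.GG C Q : Set A) := by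
  refine isClosed_of_closure_subset fun b hb => ?_
  obtain ⟨s, hs, hsb⟩ := mem_closure_iff_seq_limit.mp hb
  choose c hc h1 h2 using fun n => mem_GG.mp (hs n)
  have hcau : CauchySeq c := by
    refine Metric.cauchySeq_iff.mpr fun ε hε => ?_
    obtain ⟨N, hN⟩ := Metric.cauchySeq_iff.mp hsb.cauchySeq ε hε
    refine ⟨N, fun m hm n hn => lt_of_le_of_lt ?_ (hN m hm n hn)⟩
    rw [dist_eq_norm, dist_eq_norm]
    refine norm_exp_le (T := T) (sub_mem (hc m) (hc n)) ?_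
    have : s m - s n - (c m - c n) = (s m - c m) - (s n - c n) := by abel
    rw [this]; exact sub_mem (h1 m) (h1 n)
  obtain ⟨d, hd⟩ := cauchySeq_tendsto_of_complete hcau
  exact mem_GG.mpr ⟨d, hC.mem_of_tendsto hd (.of_forall hc),
    (isClosed_perp C).mem_of_tendsto (hsb.sub hd) (.of_forall h1),
    hQ.mem_of_tendsto (hsb.sub hd) (.of_forall h2)⟩

theorem GG_perp {C : StarSubalgebra ℂ A} {Q : Submodule ℂ A} {b : A} (hb : b ∈ T.GG C Q)
    (hp : b ∈ T.perp C) : b ∈ Q := by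
  obtain ⟨c, hc, h1, h2⟩ := mem_GG.mp hb
  have : c = 0 := perp_eq_zero hc (by simpa using sub_mem hp h1)
  simpa [this] using h2

variable (T)
def Cen (X C : StarSubalgebra ℂ A) : Set A := {a | a ∈ X ∧ a ∈ T.perp C}
def HasExp (X C : StarSubalgebra ℂ A) : Prop := ∀ x ∈ X, ∃ c ∈ C, x - c ∈ T.perp C
def cen (B : Bool → StarSubalgebra ℂ A) (C : StarSubalgebra ℂ A) : Bool → Set A :=
  fun i => T.Cen (B i) C

variable {T}
theorem hasExp_iff {X C : StarSubalgebra ℂ A} : T.HasExp X C ↔ ∀ x ∈ X, x ∈ T.GG C ⊤ := by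
  simp [HasExp, mem_GG]

theorem HasExp.trans {X C D : StarSubalgebra ℂ A} (h1 : T.HasExp X C) (h2 : T.HasExp C D)
    (h : D ≤ C) : T.HasExp X D := by
  intro x hx
  obtain ⟨c, hc, h3⟩ := h1 x hx
  obtain ⟨d, hd, h4⟩ := h2 c hc
  exact ⟨d, hd, by simpa using add_mem (perp_mono h h3) h4⟩

theorem HasExp.mono {X Y C : StarSubalgebra ℂ A} (h1 : T.HasExp X C) (h : Y ≤ X) :
    T.HasExp Y C := fun x hx => h1 x (h hx)

theorem hasExp_self (C : StarSubalgebra ℂ A) : T.HasExp C C := fun x hx => ⟨x, hx, by simp⟩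

variable (T)
structure FreeSys (B : Bool → StarSubalgebra ℂ A) (C : StarSubalgebra ℂ A) : Prop where
  closed : IsClosed (C : Set A)
  le : ∀ i, C ≤ B i
  exp : ∀ i, T.HasExp (B i) C
  free : ∀ i k w, Alt (T.cen B C) i k w → T.τ w = 0

/-- the conditional expectation of `f f⋆` has norm at most `δ²` -/
def Small (C : StarSubalgebra ℂ A) (f : A) (δ : ℝ) : Prop :=
  ∃ c ∈ C, f * star f - c ∈ T.perp C ∧ ‖c‖ ≤ δ ^ 2

variable {T}
namespace FreeSys
variable {B : Bool → StarSubalgebra ℂ A} {C : StarSubalgebra ℂ A} (F : T.FreeSys B C)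
include F

theorem pre : PreFree B C (T.cen B C) where
  le := F.le
  sub := fun _ _ h => h.1
  split := fun i x hx => by
    obtain ⟨c, hc, h⟩ := F.exp i x hx
    exact ⟨c, hc, sub_mem hx (F.le i hc), h⟩
  mul_l := fun i _ hc _ ha => ⟨mul_mem (F.le i hc) ha.1, perp_mul_l hc ha.2⟩
  star := fun _ _ ha => ⟨star_mem ha.1, perp_star ha.2⟩

theorem alt_perp {i j k : Bool} {w : A} (hw : Alt (T.cen B C) i k w) (h : i ≠ j) :
    w ∈ T.perp (B j) := fun _ hx => F.pre.T1 T.τ.toLinearMap F.free hw h hx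

theorem alt_perp' {i j k : Bool} {w : A} (hw : Alt (T.cen B C) i k w) (h : k ≠ j) :
    w ∈ T.perp (B j) := by
  simpa using perp_star (F.alt_perp (hw.star F.pre.star) h)

theorem QQ_perp {j : Bool} {z : A} (hz : z ∈ QQ B (T.cen B C) j) : z ∈ T.perp (B j) := by
  obtain ⟨x, hx, w, hw, y, hy, rfl⟩ := hz
  exact perp_mul_r hy (perp_mul_l hx (F.alt_perp hw (not_ne j)))

theorem orth {i j : Bool} (h : j ≠ i) {z₁ z₂ : A} (h1 : z₁ ∈ CW C (T.cen B C) i)
    (h2 : z₂ ∈ Wd (T.cen B C) j) : T.τ (star z₁ * z₂) = 0 := by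
  have h3 : ∀ w ∈ {w | ∃ k, Alt (T.cen B C) j k w}, star z₁ * w ∈ LinearMap.ker T.τ.toLinearMap := by
    rintro w ⟨k, hw⟩
    have h4 := F.pre.alt_mul_CW (hw.star F.pre.star) h.symm h1
    have h5 : T.τ (star w * z₁) = 0 := by
      have : Wd (T.cen B C) k ≤ LinearMap.ker T.τ.toLinearMap :=
        Submodule.span_le.mpr (by rintro _ ⟨l, hl⟩; exact F.free _ _ _ hl)
      exact this h4
    have : star z₁ * w = star (star w * z₁) := by simp
    show T.τ _ = 0
    rw [this, τ_star, h5, map_zero]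
  exact span_mul_mem h3 h2

theorem norm_CW {i j : Bool} (h : i ≠ j) {f z : A} (hf : f ∈ B j) {δ : ℝ} (hδ : 0 ≤ δ)
    (hs : T.Small C f δ) (hz : z ∈ CW C (T.cen B C) i) : ‖T.v (star f * z)‖ ≤ δ * ‖T.v z‖ := by
  obtain ⟨c, hc, h1, h2⟩ := hs
  have h3 : f * star f - c ∈ T.cen B C j := ⟨sub_mem (mul_mem hf (star_mem hf)) (F.le j hc), h1⟩
  have h4 := F.orth h.symm hz (F.pre.alt_mul_CW (.single h3) h hz)
  have h5 : ((‖T.v (star f * z)‖ ^ 2 : ℝ) : ℂ) = ⟪T.v z, T.v (c * z)⟫_ℂ := by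
    rw [norm_v_sq, inner_v, ← sub_eq_zero, ← map_sub, ← h4]
    congr 1
    simp only [star_mul, star_star]; noncomm_ring
  have h6 := norm_inner_le_norm (𝕜 := ℂ) (T.v z) (T.v (c * z))
  rw [← h5, Complex.norm_real, Real.norm_eq_abs, abs_of_nonneg (by positivity)] at h6
  have h7 : ‖T.v (star f * z)‖ ^ 2 ≤ (δ * ‖T.v z‖) ^ 2 := by
    calc _ ≤ ‖T.v z‖ * (δ ^ 2 * ‖T.v z‖) :=
          h6.trans (by gcongr; exact (T.norm_v_mul_le _ _).trans (by gcongr))
      _ = _ := by ring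
  exact (pow_le_pow_iff_left₀ (norm_nonneg _) (by positivity) two_ne_zero).mp h7

/-- Powers-type estimate. -/
theorem powers {j j' : Bool} {f f' w : A} (hf : f ∈ B j) (hf' : f' ∈ B j') {δ δ' : ℝ}
    (hδ : 0 ≤ δ) (hδ' : 0 ≤ δ') (hs : T.Small C f δ) (hs' : T.Small C f' δ')
    (hw : ∀ y ∈ SS C (T.cen B C), w * y ∈ SS C (T.cen B C))
    (hw' : ∀ y ∈ SS C (T.cen B C), star w * y ∈ SS C (T.cen B C))
    (hw2 : ∀ y ∈ Wd (T.cen B C) j', w * y ∈ CW C (T.cen B C) (!j)) :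
    ‖star f * w * f'‖ ≤ ‖w‖ * (‖f‖ * δ' + δ * ‖f'‖) := by
  refine T.norm_le_of_L2 (SS C (T.cen B C)) PreFree.one_mem_SS (fun y hy => ?_) (fun y hy => ?_)
    (by positivity) fun y hy => ?_
  · simp only [mul_assoc]
    exact F.pre.B_mul_SS (star_mem hf) (hw _ (F.pre.B_mul_SS hf' hy))
  · simp only [star_mul, star_star, mul_assoc]
    exact F.pre.B_mul_SS (star_mem hf') (hw' _ (F.pre.B_mul_SS hf hy))
  have h1 := F.pre.B_mul_SS hf' hy
  rw [SS_eq C _ (not_ne j')] at h1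
  obtain ⟨z₁, hz₁, z₂, hz₂, hz⟩ := Submodule.mem_sup.mp h1
  have ho := F.orth (not_ne j').symm hz₁ hz₂
  have e1 : ‖T.v z₂‖ ≤ ‖f'‖ * ‖T.v y‖ := by
    refine le_trans (norm_v_le_of_inner (x := f' * y) ?_) (T.norm_v_mul_le _ _)
    rw [← hz, add_sub_cancel_right]
    have : star z₂ * z₁ = star (star z₁ * z₂) := by simp
    rw [this, τ_star, ho, map_zero]
  have e2 : ‖T.v z₁‖ ≤ δ' * ‖T.v y‖ := by
    have h5 : ((‖T.v z₁‖ ^ 2 : ℝ) : ℂ) = ⟪T.v (star f' * z₁), T.v y⟫_ℂ := by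
      rw [norm_v_sq, inner_v, star_mul, star_star, mul_assoc, ← hz, mul_add, map_add, ho, add_zero]
    have h6 := norm_inner_le_norm (𝕜 := ℂ) (T.v (star f' * z₁)) (T.v y)
    rw [← h5, Complex.norm_real, Real.norm_eq_abs, abs_of_nonneg (by positivity)] at h6
    have h7 := F.norm_CW (not_ne j') hf' hδ' hs' hz₁
    rcases (norm_nonneg (T.v z₁)).eq_or_lt with h | h
    · rw [← h]; positivity
    · have : ‖T.v z₁‖ * ‖T.v z₁‖ ≤ ‖T.v z₁‖ * (δ' * ‖T.v y‖) := by
        calc _ = ‖T.v z₁‖ ^ 2 := by ring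
          _ ≤ (δ' * ‖T.v z₁‖) * ‖T.v y‖ := h6.trans (by gcongr)
          _ = _ := by ring
      exact le_of_mul_le_mul_left this h
  have e3 : star f * w * f' * y = star f * w * z₁ + star f * (w * z₂) := by
    rw [mul_assoc (star f * w), ← hz]; noncomm_ring
  rw [e3, map_add]
  calc _ ≤ ‖T.v (star f * w * z₁)‖ + ‖T.v (star f * (w * z₂))‖ := norm_add_le _ _
    _ ≤ (‖f‖ * ‖w‖) * (δ' * ‖T.v y‖) + δ * (‖w‖ * (‖f'‖ * ‖T.v y‖)) := by
        gcongr
        · refine (T.norm_v_mul_le _ _).trans ?_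
          gcongr
          exact (norm_mul_le _ _).trans (by rw [norm_star])
        · refine (F.norm_CW (not_ne j) hf hδ hs (hw2 _ hz₂)).trans ?_
          gcongr
          exact (T.norm_v_mul_le _ _).trans (by gcongr)
    _ = _ := by ring

theorem powers_alt {j j' k k' : Bool} {f f' w : A} (hf : f ∈ B j) (hf' : f' ∈ B j') {δ δ' : ℝ}
    (hδ : 0 ≤ δ) (hδ' : 0 ≤ δ') (hs : T.Small C f δ) (hs' : T.Small C f' δ')
    (hw : Alt (T.cen B C) k k' w) (hk : k ≠ j) (hk' : k' ≠ j') :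
    ‖star f * w * f'‖ ≤ ‖w‖ * (‖f‖ * δ' + δ * ‖f'‖) :=
  F.powers hf hf' hδ hδ' hs hs' (fun _ hy => F.pre.alt_mul_SS hw hy)
    (fun _ hy => F.pre.alt_mul_SS (hw.star F.pre.star) hy) fun _ hy => by
      rw [← bne3 hk (not_ne j)]
      exact Wd_mem_CW C (PreFree.alt_mul_Wd hw hk'.symm hy)

theorem powers_one {j j' : Bool} {f f' : A} (hf : f ∈ B j) (hf' : f' ∈ B j') {δ δ' : ℝ}
    (hδ : 0 ≤ δ) (hδ' : 0 ≤ δ') (hs : T.Small C f δ) (hs' : T.Small C f' δ') (hk : j' ≠ j) :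
    ‖star f * 1 * f'‖ ≤ ‖(1 : A)‖ * (‖f‖ * δ' + δ * ‖f'‖) :=
  F.powers hf hf' hδ hδ' hs hs' (fun _ hy => by simpa using hy)
    (fun _ hy => by simpa using hy) fun _ hy => by
      rw [← bne3 hk (not_ne j), one_mul]
      exact Wd_mem_CW C hy

/-- master decomposition lemma -/
theorem master (j : Bool) (hB : IsClosed (B j : Set A)) {Q : Submodule ℂ A}
    (hQ : IsClosed (Q : Set A)) (h : QQ B (T.cen B C) j ⊆ Q) {b : A}
    (hb : b ∈ (B true ⊔ B false).topologicalClosure) : b ∈ T.GG (B j) Q := by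
  refine closure_minimal (fun x hx => ?_) (isClosed_GG hB hQ) hb
  have h1 : Submodule.span ℂ (QQ B (T.cen B C) j) ≤ T.perp (B j) ⊓ Q :=
    Submodule.span_le.mpr fun z hz => ⟨F.QQ_perp hz, h hz⟩
  have h2 : (B j).toSubalgebra.toSubmodule ⊔ Submodule.span ℂ (QQ B (T.cen B C) j)
      ≤ T.GG (B j) Q := sup_le_sup_left h1 _
  exact h2 (F.pre.SS_le j (F.pre.sup_mem_SS hx))

theorem hasExp_closure (j : Bool) (hB : IsClosed (B j : Set A)) :
    T.HasExp (B true ⊔ B false).topologicalClosure (B j) :=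
  hasExp_iff.mpr fun _ hb => F.master j hB (by simp) (by simp) hb

end FreeSys

theorem τ_eq_zero_of_clspan {P P' : Bool → Set A}
    (h : ∀ i, P' i ⊆ (Submodule.span ℂ (P i)).topologicalClosure)
    (h0 : ∀ i k w, Alt P i k w → T.τ w = 0) {i k : Bool} {w : A} (hw : Alt P' i k w) :
    T.τ w = 0 :=
  clspan_le (Q := LinearMap.ker T.τ.toLinearMap) (fun _ hx => h0 _ _ _ hx)
    T.τ.isClosed_ker (hw.clspan h)

end Tr

/-- a pair indexed by `Bool` -/
def two {α : Type} (x y : α) : Bool → α := fun b => cond b x y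
@[simp] theorem two_true {α : Type} (x y : α) : two x y true = x := rfl
@[simp] theorem two_false {α : Type} (x y : α) : two x y false = y := rfl

theorem subset_clspan {E : Type} [NormedAddCommGroup E] [NormedSpace ℂ E] (s : Set E) :
    s ⊆ (Submodule.span ℂ s).topologicalClosure := fun _ hx =>
  Submodule.le_topologicalClosure _ (Submodule.subset_span hx)

namespace Tr
variable {A : Type} [CStarAlgebra A] {T : Tr A}

theorem FreeSys.restrict {X N D C : StarSubalgebra ℂ A} (F : T.FreeSys (two X N) D) (h1 : D ≤ C)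
    (h2 : C ≤ X) : T.FreeSys (two C N) D where
  closed := F.closed
  le := by rintro (_ | _); exacts [F.le false, h1]
  exp := by rintro (_ | _); exacts [F.exp false, (F.exp true).mono h2]
  free := fun i k w hw => F.free i k w (hw.mono (by
    rintro (_ | _)
    exacts [fun _ h => h, fun _ h => ⟨h2 h.1, h.2⟩]))

theorem FreeSys.absorb {X N D C C' : StarSubalgebra ℂ A} (F : T.FreeSys (two X N) D) (h1 : D ≤ C)
    (h2 : C ≤ X) (hC : IsClosed (C : Set A)) (hE : T.HasExp X C) (h3 : C ≤ C')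
    (h4 : C' ≤ (C ⊔ N).topologicalClosure) : T.FreeSys (two X C') C := by
  have F' := F.restrict h1 h2
  refine ⟨hC, by rintro (_ | _); exacts [h3, h2], ?_, fun i k w hw => ?_⟩
  · rintro (_ | _)
    exacts [(F'.hasExp_closure true hC).mono h4, hE]
  set P₀ := T.cen (two X N) D
  refine τ_eq_zero_of_clspan (P := two (T.Cen X C) (QQ (two C N) (T.cen (two C N) D) true))
    ?_ (fun i k w hw => ?_) hw
  · rintro (_ | _)
    · intro x hx
      exact GG_perp (F'.master true hC (Submodule.isClosed_topologicalClosure _)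
        (subset_clspan _) (h4 hx.1)) hx.2
    · exact subset_clspan _
  have hm : ∀ {i k w}, Alt (T.cen (two C N) D) i k w → Alt P₀ i k w := fun hw => hw.mono (by
    rintro (_ | _)
    exacts [fun _ h => h, fun _ h => ⟨h2 h.1, h.2⟩])
  have hc : ∀ y ∈ C, ∀ a ∈ T.Cen X C, y * a ∈ T.Cen X C := fun y hy a ha =>
    ⟨mul_mem (h2 hy) ha.1, perp_mul_l hy ha.2⟩
  have hc' : ∀ y ∈ C, ∀ a ∈ T.Cen X C, a * y ∈ T.Cen X C := fun y hy a ha =>
    ⟨mul_mem ha.1 (h2 hy), perp_mul_r hy ha.2⟩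
  have hd : ∀ a ∈ T.Cen X C, a ∈ P₀ true := fun a ha => ⟨ha.1, perp_mono h1 ha.2⟩
  have key : (i = true → w ∈ T.Cen X C ∨ ∃ a ∈ T.Cen X C, ∃ W l, Alt P₀ false l W ∧ ∃ y ∈ C,
      w = a * W * y) ∧ (i = false → ∃ x ∈ C, ∃ W l, Alt P₀ false l W ∧ ∃ y ∈ C, w = x * W * y) := by
    induction hw with
    | @single i a ha =>
      refine ⟨fun h => Or.inl (by subst h; exact ha), fun h => ?_⟩
      subst h
      obtain ⟨x, hx, W, hW, y, hy, rfl⟩ := ha
      exact ⟨x, hx, W, _, hm hW, y, hy, rfl⟩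
    | @cons i j k a w ha hj _ ih =>
      refine ⟨fun h => ?_, fun h => ?_⟩
      · subst h
        obtain ⟨x, hx, W, l, hW, y, hy, rfl⟩ := ih.2 (by simpa using hj)
        exact Or.inr ⟨a * x, hc' x hx a ha, W, l, hW, y, hy, by simp only [mul_assoc]⟩
      · subst h
        obtain ⟨x, hx, W₀, hW₀, y₀, hy₀, rfl⟩ := ha
        rcases ih.1 (by simpa using hj) with h | ⟨a', ha', W, l, hW, y, hy, rfl⟩
        · exact ⟨x, hx, W₀ * (y₀ * w), true, (hm hW₀).concat (by simp)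
            (.single (hd _ (hc _ hy₀ _ h))), 1, one_mem _, by simp only [mul_assoc, mul_one]⟩
        · exact ⟨x, hx, W₀ * ((y₀ * a') * W), l, (hm hW₀).concat (by simp)
            (.cons (hd _ (hc _ hy₀ _ ha')) (by simp) hW), y, hy, by simp only [mul_assoc]⟩
  have fin : ∀ a ∈ X, ∀ W l, Alt P₀ false l W → ∀ y ∈ C, T.τ (a * W * y) = 0 :=
    fun a ha W l hW y hy =>
      perp_τ (perp_mul_r (h2 hy) (perp_mul_l ha (F.alt_perp (j := true) hW (by simp))))
  cases i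
  · obtain ⟨x, hx, W, l, hW, y, hy, rfl⟩ := key.2 rfl
    exact fin x (h2 hx) W l hW y hy
  · rcases key.1 rfl with h | ⟨a', ha', W, l, hW, y, hy, rfl⟩
    · exact perp_τ h.2
    · exact fin a' ha'.1 W l hW y hy

theorem FreeSys.trans {X₀ X C₀ C C' : StarSubalgebra ℂ A} (F₁ : T.FreeSys (two X₀ C) C₀)
    (h : X₀ ≤ X) (F₂ : T.FreeSys (two X C') C) : T.FreeSys (two X₀ C') C₀ := by
  have l1 : C₀ ≤ C := F₁.le false
  have l2 : C ≤ C' := F₂.le false
  have l3 : C ≤ X := F₂.le true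
  refine ⟨F₁.closed, by rintro (_ | _); exacts [l1.trans l2, F₁.le true], ?_, fun i k w hw => ?_⟩
  · rintro (_ | _)
    exacts [(F₂.exp false).trans (F₁.exp false) l1, F₁.exp true]
  refine τ_eq_zero_of_clspan (P := two (T.Cen X₀ C₀) (T.Cen C C₀ ∪ T.Cen C' C))
    ?_ (fun i k w hw => ?_) hw
  · rintro (_ | _)
    · intro x hx
      obtain ⟨c, hc, h1⟩ := F₂.exp false x hx.1
      have h2 : c ∈ T.perp C₀ := by simpa using sub_mem hx.2 (perp_mono l1 h1)
      have : x = c + (x - c) := by abel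
      rw [this]
      exact add_mem (subset_clspan _ (Or.inl ⟨hc, h2⟩))
        (subset_clspan _ (Or.inr ⟨sub_mem hx.1 (l2 hc), h1⟩))
    · exact subset_clspan _
  set P₁ := T.cen (two X₀ C) C₀
  set P₂ := T.cen (two X C') C
  have hX : ∀ {i k x}, Alt P₁ i k x → x ∈ X := fun hx => by
    have := hx.mem_of (S := X) (by
      rintro (_ | _) a ha y hy
      exacts [mul_mem (l3 ha.1) hy, mul_mem (h ha.1) hy]) 1 (one_mem X)
    simpa using this
  have hl : ∀ {k x}, Alt P₁ true k x → x ∈ P₂ true := fun hx =>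
    ⟨hX hx, F₁.alt_perp (j := false) hx (by simp)⟩
  have hr : ∀ {k x}, Alt P₁ k true x → x ∈ P₂ true := fun hx =>
    ⟨hX hx, F₁.alt_perp' (j := false) hx (by simp)⟩
  have key : (∃ l, Alt P₁ i l w) ∨ (∃ x y l, Alt P₁ i true x ∧ Alt P₂ false l y ∧ w = x * y) ∨
      (i = false ∧ ∃ l, Alt P₂ false l w) := by
    induction hw with
    | @single i a ha =>
      cases i
      · rcases ha with ha | ha
        · exact Or.inl ⟨_, .single ha⟩
        · exact Or.inr (Or.inr ⟨rfl, _, .single ha⟩)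
      · exact Or.inl ⟨_, .single ha⟩
    | @cons i j k a w ha hj _ ih =>
      by_cases ha1 : a ∈ P₁ i
      · rcases ih with ⟨l, h1⟩ | ⟨x, y, l, h1, h2, rfl⟩ | ⟨rfl, l, h1⟩
        · exact Or.inl ⟨l, .cons ha1 hj h1⟩
        · exact Or.inr (Or.inl ⟨a * x, y, l, .cons ha1 hj h1, h2, (mul_assoc _ _ _).symm⟩)
        · obtain rfl : i = true := by simpa using hj
          exact Or.inr (Or.inl ⟨a, w, l, .single ha1, h1, rfl⟩)
      · cases i
        · obtain rfl : j = true := by simpa using hj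
          have ha2 : a ∈ P₂ false := ha.resolve_left ha1
          rcases ih with ⟨l, h1⟩ | ⟨x, y, l, h1, h2, rfl⟩ | ⟨h0, -⟩
          · exact Or.inr (Or.inr ⟨rfl, _, .cons ha2 hj (.single (hl h1))⟩)
          · exact Or.inr (Or.inr ⟨rfl, _, .cons ha2 hj (.cons (hl h1) (by simp) h2)⟩)
          · simp at h0
        · exact absurd ha ha1
  rcases key with ⟨l, h1⟩ | ⟨x, y, l, h1, h2, rfl⟩ | ⟨rfl, l, h1⟩
  · exact F₁.free _ _ _ h1
  · exact F₂.free _ _ _ (.cons (hr h1) (by simp) h2)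
  · exact F₂.free _ _ _ h1

theorem FreeSys.lim {ι : Type} [Nonempty ι] {X C₀ C' : StarSubalgebra ℂ A}
    {C : ι → StarSubalgebra ℂ A} (F : ∀ i, T.FreeSys (two X (C i)) C₀)
    (hd : ∀ i j, ∃ k, C i ≤ C k ∧ C j ≤ C k) (h1 : C₀ ≤ C')
    (h2 : (C' : Set A) ⊆ closure (⋃ i, (C i : Set A))) : T.FreeSys (two X C') C₀ := by
  obtain ⟨i₀⟩ := ‹Nonempty ι›
  have hcl := (F i₀).closed
  set Q := (Submodule.span ℂ (⋃ i, T.Cen (C i) C₀)).topologicalClosure
  have hG : ∀ x ∈ C', x ∈ T.GG C₀ Q := by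
    intro x hx
    refine closure_minimal ?_ (isClosed_GG hcl (Submodule.isClosed_topologicalClosure _)) (h2 hx)
    rintro y ⟨_, ⟨i, rfl⟩, hy⟩
    obtain ⟨c, hc, h3⟩ := (F i).exp false y hy
    exact mem_GG.mpr ⟨c, hc, h3, subset_clspan _
      (Set.mem_iUnion.mpr ⟨i, sub_mem hy ((F i).le false hc), h3⟩)⟩
  refine ⟨hcl, by rintro (_ | _); exacts [h1, (F i₀).le true], ?_, fun i k w hw => ?_⟩
  · rintro (_ | _)
    · intro x hx
      obtain ⟨c, hc, h3, -⟩ := mem_GG.mp (hG x hx)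
      exact ⟨c, hc, h3⟩
    · exact (F i₀).exp true
  refine τ_eq_zero_of_clspan (P := two (T.Cen X C₀) (⋃ i, T.Cen (C i) C₀))
    ?_ (fun i k w hw => ?_) hw
  · rintro (_ | _)
    · exact fun x hx => GG_perp (hG x hx.1) hx.2
    · exact subset_clspan _
  have hm : ∀ {a b : ι}, C a ≤ C b → ∀ i, T.cen (two X (C a)) C₀ i ⊆ T.cen (two X (C b)) C₀ i := by
    rintro a b h (_ | _)
    exacts [fun _ hx => ⟨h hx.1, hx.2⟩, fun _ hx => hx]
  have hs : ∀ i, ∀ a ∈ two (T.Cen X C₀) (⋃ i, T.Cen (C i) C₀) i,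
      ∃ m, a ∈ T.cen (two X (C m)) C₀ i := by
    rintro (_ | _) a ha
    · exact Set.mem_iUnion.mp ha
    · exact ⟨i₀, ha⟩
  have key : ∃ m, Alt (T.cen (two X (C m)) C₀) i k w := by
    induction hw with
    | single ha => obtain ⟨m, h⟩ := hs _ _ ha; exact ⟨m, .single h⟩
    | cons ha hj _ ih =>
      obtain ⟨m, h⟩ := hs _ _ ha
      obtain ⟨m', h'⟩ := ih
      obtain ⟨l, h3, h4⟩ := hd m m'
      exact ⟨l, .cons (hm h3 _ h) hj (h'.mono (hm h4))⟩
  obtain ⟨m, h⟩ := key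
  exact (F m).free _ _ _ h

theorem FreeSys.triv {X C : StarSubalgebra ℂ A} (hC : IsClosed (C : Set A)) (h : C ≤ X)
    (hE : T.HasExp X C) : T.FreeSys (two X C) C := by
  refine ⟨hC, by rintro (_ | _); exacts [le_rfl, h], by rintro (_ | _); exacts [hasExp_self C, hE],
    fun i k w hw => ?_⟩
  have key : w = 0 ∨ (i = true ∧ w ∈ T.perp C) := by
    induction hw with
    | @single i a ha =>
      cases i
      · exact Or.inl (perp_eq_zero ha.1 ha.2)
      · exact Or.inr ⟨rfl, ha.2⟩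
    | @cons i j k a w ha hj _ ih =>
      rcases ih with rfl | ⟨rfl, -⟩
      · simp
      · obtain rfl : i = false := by simpa using hj
        rw [perp_eq_zero ha.1 ha.2]; simp
  rcases key with rfl | ⟨-, h⟩
  · simp
  · exact perp_τ h

end Tr
end Crest.Agent.H3N
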