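import Crest.Agent.H3N.Atom

/-! Irreducible representations. -/

set_option autoImplicit false

open scoped InnerProductSpace ComplexOrder ComplexStarModule
open Filter Topology

noncomputable section

namespace Crest.Agent.H3N
variable {A : Type} [CStarAlgebra A]
  {H : Type} [NormedAddCommGroup H] [InnerProductSpace ℂ H] [CompleteSpace H]

def Irr (ρ : A →⋆ₐ[ℂ] (H →L[ℂ] H)) : Prop :=
  ∀ V : Submodule ℂ H, IsClosed (V : Set H) → Inv ρ ⊤ V → V = ⊥ ∨ V = ⊤

variable {ρ : A →⋆ₐ[ℂ] (H →L[ℂ] H)}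

theorem Irr.cyc_eq (h : Irr ρ) {ξ : H} (h0 : ξ ≠ 0) : cyc ρ ⊤ ξ = ⊤ :=
  (h _ (isClosed_cyc _ _) (inv_cyc _ _)).resolve_left fun h1 =>
    h0 ((Submodule.mem_bot ℂ).mp (h1 ▸ self_mem_cyc ⊤ ξ))

theorem Irr.schur_sa (h : Irr ρ) {S : H →L[ℂ] H} (hS : IsSelfAdjoint S)
    (hc : ∀ a, Commute S (ρ a)) : ∃ c : ℂ, S = c • 1 := by
  have key : ∀ x ∈ spectrum ℝ S, ∀ y ∈ spectrum ℝ S, x = y := by
    intro x hx y hy
    by_contra hxy
    have hδ : 0 < |x - y| / 2 := by have := abs_pos.mpr (sub_ne_zero.mpr hxy); linarith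
    set δ := |x - y| / 2 with hδ'
    set g : ℝ → ℝ → ℝ := fun z s => max (δ - |s - z|) 0 with hg
    have cg : ∀ z, Continuous (g z) := fun z => by fun_prop
    have nz : ∀ z ∈ spectrum ℝ S, cfc (g z) S ≠ 0 := fun z hz h0 => by
      have : cfc (g z) S = cfc (fun _ : ℝ => (0 : ℝ)) S := by rw [h0]; simp
      have := eqOn_of_cfc_eq_cfc this (cg z).continuousOn (by fun_prop) hS hz
      simp [hg] at this
      linarith
    have h0 : cfc (g x) S * cfc (g y) S = 0 := by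
      rw [← cfc_mul _ _ S (cg x).continuousOn (cg y).continuousOn]
      refine (cfc_congr (g := fun _ => 0) fun s _ => ?_).trans (by simp)
      by_cases h1 : δ - |s - x| ≤ 0
      · simp [hg, max_eq_right h1]
      · have : δ - |s - y| ≤ 0 := by
          have := abs_sub_le x s y
          rw [abs_sub_comm x s] at this
          linarith
        simp [hg, max_eq_right this]
    rcases h (LinearMap.ker (cfc (g x) S).toLinearMap) (cfc (g x) S).isClosed_ker
      (fun a _ ζ hζ => by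
        have h1 : cfc (g x) S * ρ a = ρ a * cfc (g x) S := ((hc a).cfc_real (g x)).eq
        have h2 : cfc (g x) S ζ = 0 := hζ
        show (cfc (g x) S * ρ a) ζ = 0
        rw [h1, ContinuousLinearMap.mul_apply, h2, map_zero]) with h1 | h1
    · refine nz y hy (ContinuousLinearMap.ext fun v => ?_)
      have : cfc (g y) S v ∈ LinearMap.ker (cfc (g x) S).toLinearMap := by
        show (cfc (g x) S * cfc (g y) S) v = 0
        rw [h0]; rfl
      rwa [h1, Submodule.mem_bot] at this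
    · refine nz x hx (ContinuousLinearMap.ext fun v => ?_)
      have : v ∈ LinearMap.ker (cfc (g x) S).toLinearMap := h1 ▸ Submodule.mem_top
      exact this
  obtain ⟨r, hr⟩ : ∃ r : ℝ, spectrum ℝ S ⊆ {r} := by
    rcases (spectrum ℝ S).eq_empty_or_nonempty with h1 | ⟨r, hr⟩
    · exact ⟨0, by simp [h1]⟩
    · exact ⟨r, fun x hx => key x hx r hr⟩
  refine ⟨r, ?_⟩
  rw [CFC.eq_algebraMap_of_spectrum_subset_singleton S r hr hS, Algebra.algebraMap_eq_smul_one]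
  rfl

theorem Irr.schur (h : Irr ρ) {S : H →L[ℂ] H} (hc : ∀ a, Commute S (ρ a)) :
    ∃ c : ℂ, S = c • 1 := by
  have hc' : ∀ a, Commute (star S) (ρ a) := fun a => by
    have := (hc (star a)).star_star
    rwa [map_star, star_star] at this
  obtain ⟨c, h1⟩ := h.schur_sa (ℜ S).2 fun a => by
    rw [realPart_apply_coe]; exact ((hc a).add_left (hc' a)).smul_left _
  obtain ⟨d, h2⟩ := h.schur_sa (ℑ S).2 fun a => by
    rw [imaginaryPart_apply_coe]; exact (((hc a).sub_left (hc' a)).smul_left _).smul_left _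
  refine ⟨c + Complex.I * d, ?_⟩
  rw [← realPart_add_I_smul_imaginaryPart S, h1, h2, add_smul, smul_smul]

theorem Inv.starProjection_comm {C : StarSubalgebra ℂ A} {M : Submodule ℂ H}
    [M.HasOrthogonalProjection] (h : Inv ρ C M) {a : A} (ha : a ∈ C) (z : H) :
    M.starProjection (ρ a z) = ρ a (M.starProjection z) :=
  Submodule.eq_starProjection_of_mem_orthogonal (h a ha _ (M.starProjection_apply_mem z)) (by
    rw [← map_sub]; exact h.orth a ha _ (M.sub_starProjection_mem_orthogonal z))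

theorem Irr.dense2 (h : Irr ρ) (α η : H) (X : H →L[ℂ] H) :
    WithLp.toLp 2 (X α, X η) ∈ cyc (sumRep ρ ρ) ⊤ (WithLp.toLp 2 (α, η)) := by
  set M := cyc (sumRep ρ ρ) ⊤ (WithLp.toLp 2 (α, η))
  have := (isClosed_cyc (ρ := sumRep ρ ρ) ⊤ (WithLp.toLp 2 (α, η))).completeSpace_coe
  have hP := fun a z => (inv_cyc (ρ := sumRep ρ ρ) ⊤ (WithLp.toLp 2 (α, η))).starProjection_comm
    (a := a) trivial z
  set P := M.starProjection
  let e : (H × H) →L[ℂ] WithLp 2 (H × H) := (WithLp.prodContinuousLinearEquiv 2 ℂ H H).symm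
  let ι : Bool → H →L[ℂ] WithLp 2 (H × H) :=
    two (e ∘L ContinuousLinearMap.inl ℂ H H) (e ∘L ContinuousLinearMap.inr ℂ H H)
  let π : Bool → WithLp 2 (H × H) →L[ℂ] H := two (WithLp.fstL 2 ℂ H H) (WithLp.sndL 2 ℂ H H)
  have hι : ∀ j a x, ι j (ρ a x) = sumRep ρ ρ a (ι j x) := by
    rintro (_ | _) a x
    · show WithLp.toLp 2 (0, ρ a x) = sumRep ρ ρ a (WithLp.toLp 2 (0, x))
      rw [sumRep_apply, map_zero]
    · show WithLp.toLp 2 (ρ a x, 0) = sumRep ρ ρ a (WithLp.toLp 2 (x, 0))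
      rw [sumRep_apply, map_zero]
  have hπ : ∀ i a z, π i (sumRep ρ ρ a z) = ρ a (π i z) := by
    rintro (_ | _) a z <;> rfl
  have hs : ∀ i j, ∃ c : ℂ, ∀ x, π i (P (ι j x)) = c • x := fun i j => by
    obtain ⟨c, hc⟩ := h.schur (S := π i ∘L P ∘L ι j) fun a => by
      ext x
      simp only [ContinuousLinearMap.mul_apply, ContinuousLinearMap.comp_apply]
      rw [hι, hP, hπ]
    exact ⟨c, fun x => by simpa using congrArg (fun S => S x) hc⟩
  choose c hc using hs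
  have hf : ∀ x y i, π i (P (WithLp.toLp 2 (x, y))) = c i true • x + c i false • y := by
    intro x y i
    have : WithLp.toLp 2 (x, y) = ι true x + ι false y := by
      show _ = WithLp.toLp 2 (x, 0) + WithLp.toLp 2 (0, y)
      rw [← WithLp.toLp_add]; simp
    rw [this, map_add, map_add, hc, hc]
  have h1 : P (WithLp.toLp 2 (α, η)) = WithLp.toLp 2 (α, η) :=
    Submodule.starProjection_eq_self_iff.mpr (self_mem_cyc _ _)
  have a1 : α = c true true • α + c true false • η := by rw [← hf, h1]; rfl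
  have a2 : η = c false true • α + c false false • η := by rw [← hf, h1]; rfl
  rw [← Submodule.starProjection_eq_self_iff]
  have b1 := hf (X α) (X η) true
  have b2 := hf (X α) (X η) false
  rw [← map_smul, ← map_smul, ← map_add] at b1 b2
  rw [← a1] at b1
  rw [← a2] at b2
  exact WithLp.ofLp_injective 2 (Prod.ext b1 b2)

theorem Irr.KP (h : Irr ρ) : KP ρ ⊤ ⊤ := by
  intro ξ _ η _ ho ε hε
  let R : Set (WithLp 2 (H × H)) := Set.range fun b => WithLp.toLp 2 (ρ (star b) ξ, ρ b η)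
  have hm : WithLp.toLp 2 (ξ, 0) ∈ closure R := by
    by_contra hn
    have hconv : Convex ℝ R := by
      rintro _ ⟨b, rfl⟩ _ ⟨b', rfl⟩ s t _ _ _
      refine ⟨(s : ℂ) • b + (t : ℂ) • b', ?_⟩
      simp only [← WithLp.toLp_smul, ← WithLp.toLp_add, star_add, star_smul, map_add, map_smul,
        RCLike.star_def, Complex.conj_ofReal, ContinuousLinearMap.add_apply,
        ContinuousLinearMap.smul_apply]
      simp
    obtain ⟨f, u, h1, h2⟩ := RCLike.geometric_hahn_banach_point_closed (𝕜 := ℂ) hconv.closure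
      isClosed_closure hn
    obtain ⟨z, rfl⟩ := (InnerProductSpace.toDual ℂ (WithLp 2 (H × H))).surjective f
    simp only [InnerProductSpace.toDual_apply_apply, WithLp.prod_inner_apply] at h1 h2
    have h3 : ∀ b, u < (⟪ξ, ρ b z.fst⟫_ℂ + ⟪z.snd, ρ b η⟫_ℂ).re := fun b => by
      have := h2 _ (subset_closure ⟨b, rfl⟩)
      simp only [WithLp.prod_inner_apply, ← rep_inner_left, map_add] at this
      rw [inner_re_symm] at this
      exact this
    have h4 : ∀ b, ⟪ξ, ρ b z.fst⟫_ℂ + ⟪z.snd, ρ b η⟫_ℂ = 0 := fun b => by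
      by_contra h5
      have := h3 ((((u - 1 : ℝ) : ℂ) / (⟪ξ, ρ b z.fst⟫_ℂ + ⟪z.snd, ρ b η⟫_ℂ)) • b)
      simp only [map_smul, ContinuousLinearMap.smul_apply, inner_smul_right] at this
      rw [← mul_add, div_mul_cancel₀ _ h5, Complex.ofReal_re] at this
      linarith
    have h5 := cyc_induction (Q := {w | ⟪WithLp.toLp 2 (ξ, z.snd), w⟫_ℂ = 0})
      (isClosed_eq (by fun_prop) continuous_const) (fun b _ => h4 b)
      (h.dense2 z.fst η (InnerProductSpace.rankOne ℂ ξ ξ))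
    simp only [Set.mem_setOf_eq, WithLp.prod_inner_apply, InnerProductSpace.rankOne_apply, ho,
      zero_smul, inner_zero_right, add_zero, inner_smul_right, mul_eq_zero] at h5
    have h6 : ⟪ξ, z.fst⟫_ℂ = 0 := by
      rcases h5 with h5 | h5
      · exact h5
      · rw [inner_self_eq_zero.mp h5, inner_zero_left]
    have h7 := h3 0
    have h8 : ⟪z.fst, ξ⟫_ℂ = 0 := inner_eq_zero_symm.mp h6
    simp only [inner_zero_right, add_zero] at h1
    erw [h8] at h1
    simp at h1 h7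
    linarith
  have hU : {w : WithLp 2 (H × H) | ‖w.fst - ξ‖ < ε} ∩ {w | ‖w.snd‖ < ε} ∈
      𝓝 (WithLp.toLp 2 (ξ, (0 : H))) :=
    inter_mem ((isOpen_lt (by fun_prop) continuous_const).mem_nhds (by simpa using hε))
      ((isOpen_lt (by fun_prop) continuous_const).mem_nhds (by simpa using hε))
  obtain ⟨_, ⟨h1, h2⟩, b, rfl⟩ := mem_closure_iff_nhds.mp hm _ hU
  exact ⟨b, trivial, h1, h2⟩

theorem Irr.exists_g (T : Tr A) (h : Irr ρ) {ξ : H} (hξ : ‖ξ‖ = 1) {q : A}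
    (hq : IsStarProjection q) (h0 : ρ q ≠ 0) {γ : ℝ} (hγ : 0 < γ) (hγ' : γ ≤ 1 / 4)
    (hv : ‖T.v q‖ ≤ γ) : ∃ g, ‖g‖ ≤ 3 ∧ ‖T.v g‖ ^ 2 ≤ 6 * γ ∧ 1 / 2 ≤ ‖ρ g ξ‖ := by
  obtain ⟨y, hy⟩ : ∃ y, ρ q y ≠ 0 := by
    by_contra h1
    push Not at h1
    exact h0 (ContinuousLinearMap.ext h1)
  obtain ⟨ζ, z1, z2⟩ : ∃ ζ, ‖ζ‖ = 1 ∧ ρ q ζ = ζ := ⟨(‖ρ q y‖ : ℂ)⁻¹ • ρ q y, by
    rw [norm_smul, norm_inv, Complex.norm_real, norm_norm,
      inv_mul_cancel₀ (norm_ne_zero_iff.mpr hy)], by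
    rw [map_smul, ← rep_mul, hq.isIdempotentElem.eq]⟩
  have z0 : ζ ≠ 0 := by rintro rfl; simp at z1
  obtain ⟨x, -, hx⟩ := cyc_approx (ρ := ρ) (C := ⊤) (ξ := ζ) (η := ξ) (by rw [h.cyc_eq z0]; trivial)
    (Metric.ball_mem_nhds ξ (half_pos hγ))
  rw [Metric.mem_ball, dist_eq_norm] at hx
  set c : ℝ := ‖ρ x ζ‖ ^ 2 with hc
  have c1 : c ≤ 4 := by
    have := norm_le_norm_add_norm_sub' (ρ x ζ) ξ
    nlinarith [norm_nonneg (ρ x ζ)]
  set s := γ / 2 / (‖x‖ + 1) with hs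
  have hs0 : 0 < s := by positivity
  have hs1 : s * (‖x‖ + 1) = γ / 2 := by rw [hs]; field_simp
  have hs2 : s ≤ γ / 2 := by nlinarith [norm_nonneg x]
  obtain ⟨l₁, -, l₂, -, e1, n1, n2⟩ := h.KP.split (fun _ _ _ _ => trivial) (ξ := ζ) trivial
    (a := star x * x - (c : ℂ) • 1) trivial (by
      simp only [map_sub, map_smul, map_one, ContinuousLinearMap.sub_apply,
        ContinuousLinearMap.smul_apply, ContinuousLinearMap.one_apply, inner_sub_right,
        inner_smul_right, rep_mul, ← rep_inner_left, inner_self_eq_norm_sq_to_K, z1, hc]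
      simp) (show 0 < s ^ 2 / 2 by positivity)
  obtain ⟨e, -, s1, s2, s3, s4⟩ := exists_e ρ (C := ⊤) (by simp) ![l₁, l₂, 1 - q]
    (fun _ => trivial) hs0 (ξ := ζ) (by simp [Fin.sum_univ_three, z2]; linarith)
  have a1 : ‖l₁ * e‖ ≤ s := s3 0
  have a2 : ‖l₂ * e‖ ≤ s := s3 1
  have a3 : ‖(1 - q) * e‖ ≤ s := s3 2
  have a4 : ‖e * (star x * x - (c : ℂ) • 1) * e‖ ≤ 2 * s := by
    rw [e1]; linarith [norm_sandwich_split (l₁ := l₁) (l₂ := l₂) s1 s2]
  have a5 : star (x * e) * (x * e) = e * (star x * x - (c : ℂ) • 1) * e + (c : ℂ) • (star e * e) := by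
    rw [star_mul, s1.star_eq]
    simp only [mul_sub, sub_mul, mul_smul_comm, smul_mul_assoc, mul_one, mul_assoc]; abel
  have c0 : 0 ≤ c := by positivity
  refine ⟨star (x * e), ?_, ?_, ?_⟩
  · have b1 : ‖x * e‖ * ‖x * e‖ ≤ 2 * s + c * 1 := by
      rw [← CStarRing.norm_star_mul_self, a5]
      refine (norm_add_le _ _).trans (add_le_add a4 ?_)
      rw [norm_smul, Complex.norm_real, Real.norm_eq_abs, abs_of_nonneg c0,
        CStarRing.norm_star_mul_self]
      gcongr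
      exact mul_le_one₀ s2 (norm_nonneg _) s2
    rw [norm_star]
    nlinarith [norm_nonneg (x * e)]
  · have b1 : ‖T.v e‖ ≤ γ + s := by
      have : e = q * e + (1 - q) * e := by noncomm_ring
      rw [this, map_add]
      refine (norm_add_le _ _).trans (add_le_add ?_ ((T.norm_v_le _).trans a3))
      exact (T.norm_v_mul_le' _ _).trans ((mul_le_of_le_one_right (norm_nonneg _) s2).trans hv)
    rw [T.norm_v_star, T.norm_v_sq', a5, map_add, map_smul, ← T.norm_v_sq, Complex.add_re,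
      smul_eq_mul, ← Complex.ofReal_mul, Complex.ofReal_re]
    have b2 := (Complex.re_le_norm _).trans ((T.norm_τ_le _).trans a4)
    have b3 : ‖T.v e‖ ^ 2 ≤ (γ + s) ^ 2 := by gcongr
    nlinarith [norm_nonneg (T.v e)]
  · have b1 : ⟪ζ, ρ (star (x * e)) ξ⟫_ℂ = ⟪ξ, ξ⟫_ℂ + ⟪ρ x (ρ e ζ - ζ) + (ρ x ζ - ξ), ξ⟫_ℂ := by
      rw [← rep_inner_left, ← inner_add_left]; simp
    have b2 := norm_inner_le_norm (𝕜 := ℂ) ζ (ρ (star (x * e)) ξ)
    have b3 := norm_inner_le_norm (𝕜 := ℂ) (ρ x (ρ e ζ - ζ) + (ρ x ζ - ξ)) ξ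
    have b4 : ‖ρ x (ρ e ζ - ζ)‖ ≤ ‖x‖ * s := (rep_norm_le _ _ _).trans (by gcongr)
    have b5 := norm_add_le (ρ x (ρ e ζ - ζ)) (ρ x ζ - ξ)
    have b6 := norm_sub_le (⟪ξ, ξ⟫_ℂ + ⟪ρ x (ρ e ζ - ζ) + (ρ x ζ - ξ), ξ⟫_ℂ)
      ⟪ρ x (ρ e ζ - ζ) + (ρ x ζ - ξ), ξ⟫_ℂ
    rw [add_sub_cancel_right, ← b1, inner_self_eq_norm_sq_to_K, hξ] at b6
    simp only [RCLike.ofReal_one, one_pow, norm_one] at b6
    rw [hξ, mul_one] at b3
    rw [z1, one_mul] at b2
    nlinarith

theorem Irr.sing_top (T : Tr A) (h : Irr ρ)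
    (hq : ∀ γ > 0, ∃ q, IsStarProjection q ∧ ρ q ≠ 0 ∧ ‖T.v q‖ ≤ γ) (ζ : H) :
    ζ ∈ T.Sing ρ ⊤ := by
  rcases h _ (Tr.isClosed_Nor (T := T) ⊤) (Tr.inv_Nor ⊤) with h1 | h1
  · intro η hη
    rw [h1, Submodule.mem_bot] at hη
    simp [hη]
  exfalso
  obtain ⟨q₀, -, h0, -⟩ := hq 1 one_pos
  obtain ⟨ξ, hξ⟩ : ∃ ξ : H, ‖ξ‖ = 1 := by
    have : Nontrivial H := by
      by_contra h2
      rw [not_nontrivial_iff_subsingleton] at h2
      exact h0 (Subsingleton.elim _ _)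
    exact exists_norm_eq H zero_le_one
  set u : ℕ → ℝ := fun n => 1 / ((n : ℝ) + 1) / 4 with hu
  have hu0 : ∀ n, 0 < u n := fun n => by positivity
  have hu1 : ∀ n, u n ≤ 1 / 4 := fun n => by
    have : 1 / ((n : ℝ) + 1) ≤ 1 := by rw [div_le_one (by positivity)]; simp
    simp only [hu]; linarith
  have hul : Tendsto u atTop (𝓝 0) := by
    have := (tendsto_one_div_add_atTop_nhds_zero_nat (𝕜 := ℝ)).div_const 4
    rwa [zero_div] at this
  choose q q1 q2 q3 using fun n => hq _ (hu0 n)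
  choose g g1 g2 g3 using fun n => h.exists_g T hξ (q1 n) (q2 n) (hu0 n) (hu1 n) (q3 n)
  have h2 : ξ ∈ T.Nor ρ ⊤ := h1 ▸ Submodule.mem_top
  have h3 := (h2 g ⟨fun _ => trivial, ⟨3, g1⟩, squeeze_zero (fun _ => norm_nonneg _)
    (fun n => Real.le_sqrt_of_sq_le (g2 n)) (by simpa using (hul.const_mul 6).sqrt)⟩).norm
  have := ge_of_tendsto' h3 g3
  norm_num at this

theorem equiv_of_norm_eq {H' : Type} [NormedAddCommGroup H'] [InnerProductSpace ℂ H']
    [CompleteSpace H'] {ρ' : A →⋆ₐ[ℂ] (H' →L[ℂ] H')} (h : Irr ρ) (h' : Irr ρ') {η : H} {η' : H'}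
    (h0 : η ≠ 0) (h0' : η' ≠ 0) (hn : ∀ a, ‖ρ' a η'‖ = ‖ρ a η‖) :
    ∃ U : H ≃ₗᵢ[ℂ] H', ∀ a v, U (ρ a v) = ρ' a (U v) := by
  have d1 : DenseRange (repAt ρ η).toLinearMap := fun x =>
    cyc_induction (C := ⊤) isClosed_closure (fun c _ => subset_closure (Set.mem_range_self c))
      (h.cyc_eq h0 ▸ Submodule.mem_top)
  have d2 : DenseRange (repAt ρ' η').toLinearMap := fun x =>
    cyc_induction (C := ⊤) isClosed_closure (fun c _ => subset_closure (Set.mem_range_self c))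
      (h'.cyc_eq h0' ▸ Submodule.mem_top)
  refine ⟨(LinearEquiv.refl ℂ A).extendOfIsometry _ _ d1 d2 hn, fun a v => ?_⟩
  have key : ∀ b, (LinearEquiv.refl ℂ A).extendOfIsometry _ _ d1 d2 hn (ρ b η) = ρ' b η' :=
    fun b => LinearEquiv.extendOfIsometry_eq _ _ _ d1 d2 hn b
  refine d1.induction_on v (isClosed_eq (by fun_prop) (by fun_prop)) fun b => ?_
  simp only [ContinuousLinearMap.coe_coe, repAt_apply]
  rw [← rep_mul, key, key, rep_mul]

end Crest.Agent.H3N
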