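import Crest.Agent.H3N.Tower

/-! Excising sequences of projections with prescribed traces; simplicity; uniqueness. -/

set_option autoImplicit false

open scoped InnerProductSpace ComplexOrder
open Filter Topology Set

noncomputable section

namespace Crest.Agent.H3N
variable {A : Type} [CStarAlgebra A]

theorem exists_inv_of_norm_lt {x : A} (h : ‖x - 1‖ < 1) : ∃ y, y * x = 1 := by
  rw [norm_sub_rev] at h
  exact ⟨((Units.oneSub (1 - x) h)⁻¹ : Aˣ), by
    simpa using (Units.oneSub (1 - x) h).inv_mul⟩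

/-- the task asking for a symmetry exchanging `r` and `1 - r` -/
def E0 (r : A) : Bool → ℕ → A := fun b n => if n = 0 then cond b r (1 - r) else 0

theorem E0_proj {r : A} (hr : IsStarProjection r) (b : Bool) (n : ℕ) :
    IsStarProjection (E0 r b n) := by
  unfold E0; split_ifs
  · cases b
    exacts [hr.one_sub, hr]
  · exact IsStarProjection.zero A

theorem E0_succ (r : A) (b : Bool) (n : ℕ) : E0 r b (n + 1) = 0 := by simp [E0]

namespace Tr
variable {T : Tr A}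

theorem isUnit_of_left_inv (T : Tr A) {Z g W : A} (hg : IsStarProjection g) (hW : W * Z = g) :
    IsUnit (star Z * Z + (1 - g)) := by
  set S := star Z * Z + (1 - g) with hS
  set c : ℝ := 1 / (‖W‖ ^ 2 + 1) with hc
  have c0 : 0 < c := by positivity
  have c1 : c * (‖W‖ ^ 2 + 1) = 1 := by rw [hc]; field_simp
  have h1 : ∀ ζ : T.H, c * ‖ζ‖ ^ 2 ≤ RCLike.re ⟪ζ, T.lam S ζ⟫_ℂ := fun ζ => by
    have e1 : ⟪ζ, T.lam S ζ⟫_ℂ = ⟪T.lam Z ζ, T.lam Z ζ⟫_ℂ + ⟪T.lam (1 - g) ζ, T.lam (1 - g) ζ⟫_ℂ := by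
      rw [rep_inner_left, rep_inner_left, ← rep_mul, ← rep_mul, hg.one_sub.isSelfAdjoint.star_eq,
        hg.one_sub.isIdempotentElem.eq, hS, map_add, ContinuousLinearMap.add_apply, inner_add_right]
    have e2 : ⟪T.lam g ζ, T.lam (1 - g) ζ⟫_ℂ = 0 := by
      rw [rep_inner_left, ← rep_mul, hg.isSelfAdjoint.star_eq, hg.mul_one_sub_self]; simp
    have e3 := norm_add_sq_eq_norm_sq_add_norm_sq_of_inner_eq_zero _ _ e2
    have e4 : T.lam g ζ + T.lam (1 - g) ζ = ζ := by simp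
    have e5 : ‖T.lam g ζ‖ ≤ ‖W‖ * ‖T.lam Z ζ‖ := by rw [← hW, rep_mul]; exact rep_norm_le _ _ _
    rw [e4] at e3
    rw [e1, map_add, inner_self_eq_norm_sq, inner_self_eq_norm_sq]
    have e6 : ‖T.lam g ζ‖ ^ 2 ≤ (‖W‖ * ‖T.lam Z ζ‖) ^ 2 := by gcongr
    have e7 : c * ‖W‖ ^ 2 ≤ 1 := by nlinarith
    have e8 : c ≤ 1 := by nlinarith [sq_nonneg ‖W‖]
    calc c * ‖ζ‖ ^ 2 = c * ‖T.lam g ζ‖ ^ 2 + c * ‖T.lam (1 - g) ζ‖ ^ 2 := by
          rw [sq ‖ζ‖, e3]; ring
      _ ≤ c * (‖W‖ * ‖T.lam Z ζ‖) ^ 2 + 1 * ‖T.lam (1 - g) ζ‖ ^ 2 := by gcongr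
      _ = (c * ‖W‖ ^ 2) * ‖T.lam Z ζ‖ ^ 2 + ‖T.lam (1 - g) ζ‖ ^ 2 := by ring
      _ ≤ 1 * ‖T.lam Z ζ‖ ^ 2 + ‖T.lam (1 - g) ζ‖ ^ 2 := by gcongr
      _ = _ := by ring
  set M := ‖S‖ ^ 2 + 1 with hM
  have M0 : 0 < M := by positivity
  set t := min (c / M) (1 / (2 * c)) with ht
  have t0 : 0 < t := by positivity
  have t1 : t * M ≤ c := (le_div_iff₀ M0).mp (min_le_left _ _)
  have t2 : t * (2 * c) ≤ 1 := (le_div_iff₀ (by positivity)).mp (min_le_right _ _)
  have h2 : ‖1 - (t : ℂ) • S‖ ≤ √(1 - t * c) := by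
    refine (T.norm_le_lam _).trans ((T.lam _).opNorm_le_bound (Real.sqrt_nonneg _) fun ζ => ?_)
    have a1 : T.lam (1 - (t : ℂ) • S) ζ = ζ - (t : ℂ) • T.lam S ζ := by
      rw [map_sub, map_one, map_smul]; rfl
    have a2 := norm_sub_sq (𝕜 := ℂ) ζ ((t : ℂ) • T.lam S ζ)
    have a3 : ‖T.lam S ζ‖ ^ 2 ≤ (‖S‖ * ‖ζ‖) ^ 2 := by gcongr; exact rep_norm_le _ _ _
    rw [inner_smul_right, norm_smul, Complex.norm_real, Real.norm_eq_abs, abs_of_pos t0] at a2
    have a4 : RCLike.re ((t : ℂ) * ⟪ζ, T.lam S ζ⟫_ℂ) = t * RCLike.re ⟪ζ, T.lam S ζ⟫_ℂ := by simp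
    rw [a4] at a2
    rw [a1, ← Real.sqrt_sq (norm_nonneg ζ), ← Real.sqrt_mul (by nlinarith)]
    refine Real.le_sqrt_of_sq_le ?_
    rw [a2]
    have a5 := h1 ζ
    have a6 : t * (t * ‖S‖ ^ 2) ≤ t * c := by gcongr; nlinarith
    calc _ ≤ ‖ζ‖ ^ 2 - 2 * (t * (c * ‖ζ‖ ^ 2)) + t ^ 2 * (‖S‖ * ‖ζ‖) ^ 2 := by
          rw [mul_pow t]; gcongr
      _ = ‖ζ‖ ^ 2 - 2 * (t * (c * ‖ζ‖ ^ 2)) + (t * (t * ‖S‖ ^ 2)) * ‖ζ‖ ^ 2 := by ring
      _ ≤ ‖ζ‖ ^ 2 - 2 * (t * (c * ‖ζ‖ ^ 2)) + (t * c) * ‖ζ‖ ^ 2 := by gcongr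
      _ = _ := by ring
  have h3 : ‖1 - (t : ℂ) • S‖ < 1 := h2.trans_lt (by
    rw [Real.sqrt_lt' one_pos]; nlinarith [mul_pos t0 c0])
  have h4 : IsUnit ((t : ℂ) • S) := by simpa using (Units.oneSub _ h3).isUnit
  have h5 : S = (t : ℂ)⁻¹ • ((t : ℂ) • S) := (inv_smul_smul₀ (by exact_mod_cast t0.ne') S).symm
  rw [h5]
  exact h4.smul (Units.mk0 (t : ℂ)⁻¹ (inv_ne_zero (by exact_mod_cast t0.ne')))

theorem exists_range_proj (T : Tr A) {Z g W : A} (hg : IsStarProjection g) (hZ : Z * g = Z)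
    (hW : W * Z = g) : ∃ e, IsStarProjection e ∧ e * Z = Z ∧ T.τ e = T.τ g ∧ ∃ Y, e = Z * Y := by
  obtain ⟨U, hU⟩ := T.isUnit_of_left_inv hg hW
  have h1 : star (U : A) = U := by simp [hU, hg.isSelfAdjoint.star_eq]
  set S : A := ↑U⁻¹ with hS
  have h2 : star S = S := by
    have : star S * U = 1 := by rw [← h1, ← star_mul, hS, U.mul_inv, star_one]
    calc star S = star S * U * S := by rw [mul_assoc, hS, U.mul_inv, mul_one]
      _ = S := by rw [this, one_mul]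
  have h3 : (U : A) * g = star Z * Z := by
    rw [hU, add_mul, mul_assoc, hZ, hg.one_sub_mul_self, add_zero]
  have h4 : S * (star Z * Z) = g := by rw [← h3, ← mul_assoc, hS, U.inv_mul, one_mul]
  refine ⟨Z * S * star Z, ⟨?_, ?_⟩, ?_, ?_, S * star Z, mul_assoc _ _ _⟩
  · show _ = _
    calc Z * S * star Z * (Z * S * star Z) = Z * (S * (star Z * Z)) * S * star Z := by
          simp only [mul_assoc]
      _ = _ := by rw [h4, hZ]
  · show _ = _
    simp [h2, mul_assoc]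
  · rw [mul_assoc, mul_assoc, h4, hZ]
  · rw [mul_assoc, T.τ_comm, mul_assoc, h4]

theorem task_E0 {r : A} (hr : IsStarProjection r) (hτ : T.τ r = 1 / 2) : T.Task ⊤ (E0 r) where
  chain := fun b => ⟨fun n => (E0_proj hr b n).isSelfAdjoint, fun n => (E0_proj hr b n).norm_le,
    fun n => by simp [E0_succ]⟩
  idem := fun b n => (E0_proj hr b n).isIdempotentElem
  orth := hr.mul_one_sub_self
  null := fun b => by rw [← tendsto_add_atTop_iff_nat 1]; simp [E0_succ]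
  tr := fun n => by
    rcases n with _ | n
    · simp [E0, hτ, T.τ_one]; norm_num
    · simp [E0_succ]
  mem := fun _ _ => trivial
  exc := fun b a _ => ⟨0, by rw [ExcAt, ← tendsto_add_atTop_iff_nat 1]; simp [E0_succ]⟩
  disj := fun a _ => by rw [← tendsto_add_atTop_iff_nat 1]; simp [E0_succ]

/-- a symmetry exchanging `r` and `1 - r`, free from `X` -/
structure FreeU (T : Tr A) (r : A) (X : StarSubalgebra ℂ A) (u : A) : Prop where
  closed : IsClosed (X : Set A)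
  τr : T.τ r = 1 / 2
  task : T.Task X (E0 r)
  step : T.Step X (E0 r) u

namespace FreeU
variable {r u : A} {X : StarSubalgebra ℂ A} (h : T.FreeU r X u)
include h

theorem sa : star u = u := h.step.sa.star_eq
theorem uu : u * u = 1 := by simpa [E0] using h.step.sq
theorem ur : u * r = (1 - r) * u := h.step.comm true 0
theorem ur' : u * (1 - r) = r * u := h.step.comm false 0
theorem norm_u : ‖u‖ ≤ 1 := by
  have := CStarRing.norm_star_mul_self (x := u)
  rw [h.sa, h.uu] at this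
  nlinarith [norm_one_le' (A := A), norm_nonneg u]

theorem perp {b : Bool} {x : A} (h1 : E0 r b 0 * x = x) :
    x - (2 * T.τ x) • E0 r b 0 ∈ T.perp (DD (E0 r)) := by
  have h2 : T.τ (E0 r b 0) = 1 / 2 := by cases b <;> simp [E0, h.τr, T.τ_one]; norm_num
  have h3 : T.τ (x - (2 * T.τ x) • E0 r b 0) = 0 := by
    rw [map_sub, map_smul, h2, smul_eq_mul]; ring
  intro d hd
  refine h.task.toPre0.induction (Q := rq _ (LinearMap.ker T.τ.toLinearMap))
    (isClosed_rq T.τ.isClosed_ker) (by simpa using h3) (fun c n => ?_) hd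
  show T.τ (_ * _) = 0
  rcases n with _ | n
  · by_cases hc : c = b
    · subst hc
      rw [mul_sub, h1, mul_smul_comm, h.task.idem, h3]
    · rw [mul_sub, mul_smul_comm, h.task.toPre0.mul_ne hc, ← h1, ← mul_assoc,
        h.task.toPre0.mul_ne hc]; simp
  · simp [E0_succ]

theorem est {b : Bool} {g x : A} (hg : g ∈ X) (hx : x ∈ X) (sg : IsSelfAdjoint g) (ng : ‖g‖ ≤ 1)
    (h1 : E0 r (!b) 0 * g = g) (h2 : E0 r b 0 * x = x) :
    ‖g * u * x * u * g - (2 * T.τ x) • (g * g)‖ ≤ 12 * ‖x‖ * ‖T.v g‖ := by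
  have F := h.step.freeSys h.closed h.task
  have hu : u ∈ T.cen (two X (NN (E0 r) u)) (DD (E0 r)) false := ⟨u_mem_NN _ _, fun d hd =>
    h.step.free false false _ (.single ⟨d, hd, rfl⟩)⟩
  have ne : ∀ b, ‖E0 r b 0‖ ≤ 1 := fun b => (h.task.chain b).norm_le 0
  have hs : T.Small (DD (E0 r)) g (2 * ‖T.v g‖) := by
    refine ⟨_, SMulMemClass.smul_mem _ (mem_DD _ _ _), h.perp (b := !b) (by
      rw [← mul_assoc, h1]), ?_⟩
    rw [T.τ_comm, ← T.norm_v_sq, norm_smul, norm_mul, Complex.norm_real, Real.norm_eq_abs,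
      abs_of_nonneg (sq_nonneg _), Complex.norm_ofNat]
    nlinarith [ne (!b), sq_nonneg ‖T.v g‖]
  have h3 := F.powers_alt (j := true) (j' := true) hg hg (by positivity) (by positivity) hs hs
    (.cons hu (by simp) (.cons (i := true) ⟨sub_mem hx (SMulMemClass.smul_mem _ (h.task.mem b 0)),
      h.perp h2⟩ (by simp) (.single hu))) (by simp) (by simp)
  have h4 : u * E0 r b 0 * u * g = g := by rw [h.step.comm, mul_assoc _ u u, h.uu, mul_one, h1]
  have e : star g * (u * ((x - (2 * T.τ x) • E0 r b 0) * u)) * g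
      = g * u * x * u * g - (2 * T.τ x) • (g * g) := by
    conv_rhs => rw [← congrArg (g * ·) h4]
    rw [sg.star_eq]
    simp only [mul_sub, sub_mul, mul_smul_comm, smul_mul_assoc, mul_assoc]
  rw [e] at h3
  have h5 : ‖x - (2 * T.τ x) • E0 r b 0‖ ≤ 3 * ‖x‖ := by
    refine (norm_sub_le _ _).trans ?_
    rw [norm_smul, norm_mul, Complex.norm_ofNat]
    nlinarith [T.norm_τ_le x, ne b, norm_nonneg (T.τ x), norm_nonneg (E0 r b 0)]
  have h6 : ‖u * ((x - (2 * T.τ x) • E0 r b 0) * u)‖ ≤ 1 * (3 * ‖x‖ * 1) :=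
    (norm_mul_le _ _).trans (by
      gcongr
      · exact h.norm_u
      · exact (norm_mul_le _ _).trans (by gcongr; exact h.norm_u))
  calc _ ≤ _ := h3
    _ ≤ (1 * (3 * ‖x‖ * 1)) * (1 * (2 * ‖T.v g‖) + 2 * ‖T.v g‖ * 1) := by gcongr
    _ = _ := by ring

theorem inv {b : Bool} {g y : A} (hg : g ∈ X) (hy : y ∈ X) (sg : IsSelfAdjoint g) (ng : ‖g‖ ≤ 1)
    (h1 : E0 r (!b) 0 * g = g) (h2 : y * E0 r b 0 = y)
    (h3 : 12 * ‖star y * y‖ * ‖T.v g‖ < 2 * ‖T.v y‖ ^ 2) :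
    ∃ S, ∀ z, g * z = z → S * star (y * u * g) * (y * u * g) * z = z := by
  have h4 := h.est hg (mul_mem (star_mem hy) hy) sg ng h1 (b := b) (by
    rw [← mul_assoc, ← h.task.toPre0.sa b 0, ← star_mul, h2])
  set α : ℝ := 2 * ‖T.v y‖ ^ 2 with hα
  have α0 : 0 < α := lt_of_le_of_lt (by positivity) h3
  have α1 : (α : ℂ) ≠ 0 := by exact_mod_cast α0.ne'
  have e1 : 2 * T.τ (star y * y) = α := by rw [← T.norm_v_sq, hα]; push_cast; ring
  rw [e1] at h4
  obtain ⟨S, hS⟩ := exists_inv_of_norm_lt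
    (x := (α : ℂ)⁻¹ • (g * u * (star y * y) * u * g) + (1 - g * g)) (by
      have : (α : ℂ)⁻¹ • (g * u * (star y * y) * u * g) + (1 - g * g) - 1
          = (α : ℂ)⁻¹ • (g * u * (star y * y) * u * g - (α : ℂ) • (g * g)) := by
        rw [smul_sub, inv_smul_smul₀ α1]; abel
      rw [this, norm_smul, norm_inv, Complex.norm_real, Real.norm_eq_abs, abs_of_pos α0,
        inv_mul_lt_one₀ α0]
      exact h4.trans_lt h3)
  refine ⟨(α : ℂ)⁻¹ • S, fun z hz => ?_⟩
  have h5 := congrArg (· * z) hS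
  simp only [mul_assoc, add_mul, sub_mul, one_mul, hz, sub_self, add_zero, smul_mul_assoc,
    mul_smul_comm] at h5
  simp only [star_mul, sg.star_eq, h.sa, mul_assoc, smul_mul_assoc, hz]
  exact h5

theorem proj_between {f : ℕ → A} (hf : Chain f) (hm : ∀ n, f n ∈ X) (h0 : f 0 = r)
    (hn : Tendsto (fun n => ‖T.v (f n)‖) atTop (𝓝 0)) (hne : ∀ n, f n ≠ 0) (k₀ : ℕ) :
    ∃ γ > 0, ∀ s ∈ X, IsStarProjection s → (1 - r) * s = s → s ≠ 0 → ‖T.v s‖ < γ →
      ∃ j e, IsStarProjection e ∧ f k₀ * e = e ∧ e * f j = f j ∧ T.τ e = T.τ s := by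
  obtain ⟨k, hk, hk'⟩ : ∃ k, k₀ < k ∧ f k - f (k + 1) ≠ 0 := by
    by_contra h1
    push Not at h1
    have h2 : ∀ n, f (n + (k₀ + 1)) = f (k₀ + 1) := fun n => by
      induction n with
      | zero => simp
      | succ n ih =>
        rw [← ih, sub_eq_zero.mp (h1 (n + (k₀ + 1)) (by omega))]; congr 1; omega
    rw [← tendsto_add_atTop_iff_nat (k₀ + 1)] at hn
    simp only [h2] at hn
    exact hne _ (T.eq_zero_of_v (norm_eq_zero.mp (tendsto_nhds_unique tendsto_const_nhds hn)))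
  set m := f k - f (k + 1) with hm'
  have vm : 0 < ‖T.v m‖ := norm_pos_iff.mpr fun h1 => hk' (T.eq_zero_of_v h1)
  have fr : ∀ n, 0 < n → r * f n = f n := fun n h1 => h0 ▸ hf.mul_lt h1
  have fr' : ∀ n, 0 < n → f n * r = f n := fun n h1 => h0 ▸ hf.mul_lt' h1
  refine ⟨2 * ‖T.v m‖ ^ 2 / (12 * ‖star m * m‖ + 1), by positivity, fun s ms ps rs s0 hγ => ?_⟩
  have vs : 0 < ‖T.v s‖ := norm_pos_iff.mpr fun h1 => s0 (T.eq_zero_of_v h1)
  obtain ⟨S₁, h1⟩ := h.inv (b := true) ms (sub_mem (hm k) (hm (k + 1))) ps.isSelfAdjoint ps.norm_le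
    rs (by
      show m * r = m
      rw [hm', sub_mul, fr' _ (by omega), fr' _ (by omega)]) (by
      rw [lt_div_iff₀ (by positivity)] at hγ
      nlinarith)
  have h2 : Tendsto (fun n => 12 * ‖star s * s‖ * ‖T.v (f n)‖) atTop (𝓝 0) := by
    simpa using hn.const_mul (12 * ‖star s * s‖)
  obtain ⟨j, j1, j2⟩ := ((h2.eventually (gt_mem_nhds (show 0 < 2 * ‖T.v s‖ ^ 2 by positivity))).and
    (eventually_gt_atTop k)).exists
  obtain ⟨S₂, h3⟩ := h.inv (b := false) (hm j) ms (hf.sa j) (hf.norm_le j) (fr j (by omega)) (by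
    have := congrArg star rs
    rwa [star_mul, ps.isSelfAdjoint.star_eq, star_sub, star_one,
      show star r = r from h.task.toPre0.sa true 0] at this) j1
  rw [← hm'] at h1
  have ss := ps.isIdempotentElem.eq
  set a := m * u * s with ha
  set y := s * u * f j with hy
  set Y := f (j + 1) * S₂ * star y with hY
  have a1 : S₁ * star a * a = s := by
    have := h1 s ss
    rwa [mul_assoc _ a, ha, mul_assoc _ s s, ss] at this
  have a2 : star a * Y = 0 := by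
    have : star m * f (j + 1) = 0 := by
      rw [hm', star_sub, (hf.sa _).star_eq, (hf.sa _).star_eq, sub_mul, hf.mul_lt (by omega),
        hf.mul_lt (by omega), sub_self]
    rw [ha, hY, star_mul, star_mul]
    simp only [mul_assoc]
    rw [← mul_assoc (star m), this]; simp
  have a3 : s * y = y := by rw [hy, ← mul_assoc, ← mul_assoc, ss]
  have a4 : Y * s = Y := by
    rw [hY, mul_assoc, ← ps.isSelfAdjoint.star_eq, ← star_mul, a3]
  have a5 : Y * (y * f (j + 2)) = f (j + 2) := by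
    have := h3 (f (j + 2)) (hf.mul_lt (by omega))
    rw [hY]
    simp only [mul_assoc] at this ⊢
    rw [this, hf.mul]
  have a6 : S₁ * star a * (a * (s - y * Y) + Y) = s - y * Y := by
    rw [mul_add, ← mul_assoc, a1, mul_assoc S₁, a2, mul_zero, add_zero, mul_sub, ss, ← mul_assoc, a3]
  obtain ⟨e, e1, e2, e3, Y', e4⟩ := T.exists_range_proj (Z := a * (s - y * Y) + Y)
    (W := S₁ * star a + y * (1 - a * (S₁ * star a))) ps
    (by rw [add_mul, mul_assoc a, sub_mul, ss, mul_assoc y, a4]) (by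
      rw [add_mul, a6, mul_assoc y, sub_mul, mul_assoc a, a6]; noncomm_ring)
  refine ⟨j + 2, e, e1, ?_, ?_, e3⟩
  · have b1 : f k₀ * a = a := by
      rw [ha, ← mul_assoc, ← mul_assoc, hm', mul_sub, hf.mul_lt hk, hf.mul_lt (by omega)]
    have b2 : f k₀ * Y = Y := by rw [hY, ← mul_assoc, ← mul_assoc, hf.mul_lt (by omega)]
    rw [e4, ← mul_assoc, mul_add, ← mul_assoc, b1, b2]
  · have b1 : (a * (s - y * Y) + Y) * (y * f (j + 2)) = f (j + 2) := by
      rw [add_mul, a5, mul_assoc, sub_mul, mul_assoc y, a5, ← mul_assoc s, a3]; simp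
    rw [← b1, ← mul_assoc, e2]

theorem conj_peak {f : ℕ → A} (hf : T.Peak ⊤ f) : T.Peak ⊤ fun n => u * f n * u := by
  have e : ∀ x y : A, u * x * u * (u * y * u) = u * (x * y) * u := fun x y => by
    calc _ = u * x * (u * u) * y * u := by simp only [mul_assoc]
      _ = _ := by rw [h.uu]; simp only [mul_assoc, one_mul]
  have n : ∀ x : A, ‖u * x * u‖ ≤ ‖x‖ := fun x =>
    calc _ ≤ 1 * ‖x‖ * 1 := (norm_mul_le _ _).trans (by
          gcongr
          · exact (norm_mul_le _ _).trans (by gcongr; exact h.norm_u)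
          · exact h.norm_u)
      _ = _ := by ring
  refine ⟨fun _ => trivial, ⟨fun n => ?_, fun k => (n _).trans (hf.chain.norm_le k),
    fun n => by rw [e, hf.chain.mul]⟩, ?_, fun a _ => ?_⟩
  · show _ = _
    simp [h.sa, (hf.chain.sa n).star_eq, mul_assoc]
  · refine squeeze_zero (fun _ => norm_nonneg _) (fun k => ?_) hf.null
    calc _ ≤ 1 * ‖T.v (f k)‖ * 1 := (T.norm_v_mul_le' _ _).trans (by
          gcongr
          · exact (T.norm_v_mul_le _ _).trans (by gcongr; exact h.norm_u)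
          · exact h.norm_u)
      _ = _ := by ring
  · obtain ⟨c, hc⟩ := hf.exc (u * a * u) trivial
    refine ⟨c, tendsto_zero_of_le (fun k => le_trans (le_of_eq ?_) (n _)) (by simpa using hc.norm)⟩
    congr 1
    have : u * a * u - c • 1 = u * (a - c • 1) * u := by
      simp only [mul_sub, sub_mul, mul_smul_comm, smul_mul_assoc, mul_one, h.uu]
    rw [this]; simp only [mul_assoc]

theorem conj_fix {H : Type} [NormedAddCommGroup H] [InnerProductSpace ℂ H] [CompleteSpace H]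
    {ρ : A →⋆ₐ[ℂ] (H →L[ℂ] H)} {f : ℕ → A} {η : H} (h0 : η ≠ 0) (h1 : η ∈ Fix ρ f) :
    ρ u η ≠ 0 ∧ ρ u η ∈ Fix ρ fun n => u * f n * u := by
  have e : ρ u (ρ u η) = η := by rw [← rep_mul, h.uu]; simp
  refine ⟨fun h2 => h0 (by rw [← e, h2, map_zero]), fun n => ?_⟩
  rw [rep_mul, rep_mul, e, h1 n]

end FreeU

theorem Peak.refine {f e : ℕ → A} (hf : T.Peak ⊤ f) {k : ℕ → ℕ} (hk : StrictMono k)
    (he : ∀ n, IsStarProjection (e n)) (h1 : ∀ n, f (k n) * e n = e n)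
    (h2 : ∀ n, e n * f (k (n + 1)) = f (k (n + 1))) : T.Peak ⊤ e := by
  have h1' : ∀ n, e n * f (k n) = e n := fun n => by
    have := congrArg star (h1 n)
    rwa [star_mul, (he n).isSelfAdjoint.star_eq, (hf.chain.sa _).star_eq] at this
  refine ⟨fun _ => trivial, ⟨fun n => (he n).isSelfAdjoint, fun n => (he n).norm_le, fun n => ?_⟩,
    ?_, fun a _ => ?_⟩
  · rw [← h1 (n + 1), ← mul_assoc, h2]
  · refine squeeze_zero (fun _ => norm_nonneg _) (fun n => ?_) (hf.null.comp hk.tendsto_atTop)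
    rw [← h1 n]
    exact (T.norm_v_mul_le' _ _).trans (mul_le_of_le_one_right (norm_nonneg _) (he n).norm_le)
  · obtain ⟨c, hc⟩ := hf.exc a trivial
    refine ⟨c, tendsto_zero_of_le (g := fun n => ‖f (k n) * (a - c • 1) * f (k n)‖) (fun n => ?_)
      (by simpa using (hc.comp hk.tendsto_atTop).norm)⟩
    have : e n * (a - c • 1) * e n = e n * (f (k n) * (a - c • 1) * f (k n)) * e n := by
      conv_lhs => rw [← h1' n]
      nth_rewrite 2 [h1' n]
      nth_rewrite 2 [← h1 n]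
      simp only [mul_assoc]
    rw [this]
    calc _ ≤ 1 * ‖f (k n) * (a - c • 1) * f (k n)‖ * 1 := (norm_mul_le _ _).trans (by
          gcongr
          · exact (norm_mul_le _ _).trans (by gcongr; exact (he n).norm_le)
          · exact (he n).norm_le)
      _ = _ := by ring

end Tr

variable {I : Type} [LinearOrder I]

/-- the complete tower -/
structure Full (T : Tr A) (I : Type) [LinearOrder I] extends Tower T I where
  top : AL base u univ = ⊤
  bdd : ∀ S : Set I, S.Countable → ∃ β, S ⊆ Iio β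
  cof : ∀ E', T.Task ⊤ E' → ∀ β₀, ∃ β, β₀ ≤ β ∧ E β = E'
  τr : T.τ r = 1 / 2
  part : ∀ γ > 0, ∃ (n : ℕ) (s : Fin n → A), (∀ j, IsStarProjection (s j) ∧ s j ∈ AL base u ∅ ∧
    (1 - r) * s j = s j ∧ ‖T.v (s j)‖ < γ) ∧ ∑ j, s j = 1 - r

namespace Full
variable {T : Tr A} (W : Full T I)

theorem exists_freeU {Y : Set A} (hY : Y.Countable) :
    ∃ X u, T.FreeU W.r X u ∧ AL W.base W.u ∅ ≤ X ∧ Y ⊆ X := by
  choose S _ S2 S3 using fun y : A => AL_countable_support (base := W.base) (u := W.u) (S := univ)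
    (a := y) (by rw [W.top]; trivial)
  obtain ⟨β₀, h0⟩ := W.bdd (⋃ y ∈ Y, S y) (hY.biUnion fun y _ => S2 y)
  obtain ⟨β, h1, h2⟩ := W.cof _ (Tr.task_E0 W.r_proj W.τr) β₀
  refine ⟨AL W.base W.u (Iio β), W.u β, ⟨isClosed_AL _, W.τr, h2 ▸ W.task β, h2 ▸ W.step β⟩,
    AL_mono (empty_subset _), fun y hy => AL_mono ?_ (S3 y)⟩
  exact ((subset_biUnion_of_mem (u := S) hy).trans h0).trans (Iio_subset_Iio h1)

theorem one_sub_ne : 1 - W.r ≠ 0 := fun h => by
  have := congrArg T.τ h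
  rw [map_sub, T.τ_one, W.τr, map_zero] at this
  norm_num at this

theorem part' {γ : ℝ} (hγ : 0 < γ) : ∃ s, IsStarProjection s ∧ s ∈ AL W.base W.u ∅ ∧ s ≠ 0 ∧
    (1 - W.r) * s = s ∧ ‖T.v s‖ < γ := by
  obtain ⟨n, s, hs, hsum⟩ := W.part γ hγ
  obtain ⟨j, -, hj⟩ := Finset.exists_ne_zero_of_sum_ne_zero (hsum ▸ W.one_sub_ne)
  exact ⟨s j, (hs j).1, (hs j).2.1, hj, (hs j).2.2⟩

include W in
theorem simple (J : TwoSidedIdeal A) : J = ⊥ ∨ J = ⊤ := by
  by_cases h0 : J = ⊥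
  · exact Or.inl h0
  right
  obtain ⟨x, hx, x0⟩ : ∃ x ∈ J, x * W.r ≠ 0 := by
    obtain ⟨x, hx, x0⟩ : ∃ x ∈ J, x ≠ 0 := by
      by_contra h1
      push Not at h1
      exact h0 (eq_bot_iff.mpr fun x hx => h1 x hx)
    by_cases h1 : x * W.r = 0
    · obtain ⟨X, u, F, -⟩ := W.exists_freeU countable_empty
      refine ⟨x * u, J.mul_mem_right _ _ hx, fun h2 => x0 ?_⟩
      rw [mul_assoc, F.ur, ← mul_assoc, mul_sub, h1, mul_one, sub_zero] at h2
      rw [← mul_one x, ← F.uu, ← mul_assoc, h2, zero_mul]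
    · exact ⟨x, hx, h1⟩
  obtain ⟨X, u, F, hb, hX⟩ := W.exists_freeU (countable_singleton x)
  have vx : 0 < ‖T.v (x * W.r)‖ := norm_pos_iff.mpr fun h1 => x0 (T.eq_zero_of_v h1)
  obtain ⟨n, s, hs, hsum⟩ := W.part
    (2 * ‖T.v (x * W.r)‖ ^ 2 / (12 * ‖star (x * W.r) * (x * W.r)‖ + 1)) (by positivity)
  have h1 : 1 - W.r ∈ J := by
    rw [← hsum]
    refine sum_mem fun j _ => ?_
    obtain ⟨ps, ms, rs, hγ⟩ := hs j
    obtain ⟨S, hS⟩ := F.inv (b := true) (hb ms) (mul_mem (hX rfl) (hb (base_mem_AL _ W.r_mem))) ps.isSelfAdjoint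
      ps.norm_le rs (by
        show x * W.r * W.r = _
        rw [mul_assoc, W.r_proj.isIdempotentElem.eq]) (by
      rw [lt_div_iff₀ (by positivity)] at hγ
      nlinarith [norm_nonneg (T.v (s j))])
    rw [← hS _ ps.isIdempotentElem.eq]
    exact J.mul_mem_right _ _ (J.mul_mem_left _ _ (J.mul_mem_right _ _ (J.mul_mem_right _ _
      (J.mul_mem_right _ _ hx))))
  have h2 : W.r ∈ J := by
    have := J.mul_mem_right _ u (J.mul_mem_left u _ h1)
    rwa [F.ur', mul_assoc, F.uu, mul_one] at this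
  rw [← J.one_mem_iff]
  simpa using J.add_mem h1 h2

theorem not_finiteDimensional (W : Full T I) : ¬ FiniteDimensional ℂ A := by
  intro hfin
  obtain ⟨K, K0, hK⟩ := T.v.toLinearMap.exists_antilipschitzWith
    (LinearMap.ker_eq_bot'.mpr fun a ha => T.eq_zero_of_v ha)
  obtain ⟨s, ps, -, s0, -, hγ⟩ := W.part' (γ := 1 / K) (by positivity)
  have h1 : ‖s‖ ≤ K * ‖T.v s‖ := by simpa using hK.le_mul_norm (map_zero _) s
  have h2 : ‖s‖ = 1 := by
    have := CStarRing.norm_star_mul_self (x := s)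
    rw [ps.isSelfAdjoint.star_eq, ps.isIdempotentElem.eq] at this
    exact (mul_left_cancel₀ (norm_ne_zero_iff.mpr s0) (by rw [← this, mul_one])).symm
  rw [lt_div_iff₀ (by positivity)] at hγ
  linarith

variable [WellFoundedLT I]

theorem exists_peak {H : Type} [NormedAddCommGroup H] [InnerProductSpace ℂ H] [CompleteSpace H]
    [Nontrivial H] {ρ : A →⋆ₐ[ℂ] (H →L[ℂ] H)} (h : Irr ρ) :
    ∃ f, T.Peak ⊤ f ∧ f 0 = W.r ∧ ∃ η, η ≠ 0 ∧ η ∈ Fix ρ f := by
  obtain ⟨X, u, F, -⟩ := W.exists_freeU countable_empty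
  obtain ⟨f, p1, p2, η, -, p3, p4⟩ := Tower.exists_peak (W := W.toTower) W.top h fun γ hγ => by
    obtain ⟨n, s, hs, hsum⟩ := W.part γ hγ
    by_contra h1
    push Not at h1
    have h2 : ρ (1 - W.r) = 0 := by
      rw [← hsum, map_sum]
      refine Finset.sum_eq_zero fun j _ => ?_
      by_contra h3
      exact absurd (h1 _ (hs j).1 h3) (not_lt.mpr (hs j).2.2.2.le)
    have h3 : ρ W.r = 0 := by
      have := congrArg ρ F.ur'
      rw [map_mul, h2, mul_zero] at this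
      rw [← mul_one W.r, ← F.uu, ← mul_assoc, map_mul, ← this, zero_mul]
    rw [map_sub, h3, map_one, sub_zero] at h2
    exact one_ne_zero h2
  rcases p2 with p2 | p2
  · exact ⟨f, p1, p2, η, p3, p4⟩
  · exact ⟨_, F.conj_peak p1, by rw [p2, F.ur', mul_assoc, F.uu, mul_one], _, F.conj_fix p3 p4⟩

theorem equiv (W : Full T I) {H₁ : Type} [NormedAddCommGroup H₁] [InnerProductSpace ℂ H₁]
    [CompleteSpace H₁] [Nontrivial H₁] {ρ₁ : A →⋆ₐ[ℂ] (H₁ →L[ℂ] H₁)} (h₁ : Irr ρ₁)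
    {H₂ : Type} [NormedAddCommGroup H₂] [InnerProductSpace ℂ H₂]
    [CompleteSpace H₂] [Nontrivial H₂] {ρ₂ : A →⋆ₐ[ℂ] (H₂ →L[ℂ] H₂)} (h₂ : Irr ρ₂) :
    ∃ U : H₁ ≃ₗᵢ[ℂ] H₂, ∀ a v, U (ρ₁ a v) = ρ₂ a (U v) := by
  obtain ⟨f₁, p1, p2, η₁, p3, p4⟩ := W.exists_peak h₁
  obtain ⟨f₂, q1, q2, η₂, q3, q4⟩ := W.exists_peak h₂
  obtain ⟨X, u, F, hb, hX⟩ := W.exists_freeU ((countable_range f₁).union (countable_range f₂))
  have st : ∀ k, ∃ j, k < j ∧ ∃ e₁ e₂, IsStarProjection e₁ ∧ f₁ k * e₁ = e₁ ∧ e₁ * f₁ j = f₁ j ∧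
      IsStarProjection e₂ ∧ f₂ k * e₂ = e₂ ∧ e₂ * f₂ j = f₂ j ∧ T.τ e₁ = T.τ e₂ := fun k => by
    obtain ⟨γ₁, g1, a1⟩ := F.proj_between p1.chain (fun n => hX (Or.inl ⟨n, rfl⟩)) p2 p1.null
      (fun n h => p3 (by rw [← p4 n, h]; simp)) k
    obtain ⟨γ₂, g2, a2⟩ := F.proj_between q1.chain (fun n => hX (Or.inr ⟨n, rfl⟩)) q2 q1.null
      (fun n h => q3 (by rw [← q4 n, h]; simp)) k
    obtain ⟨s, ps, ms, s0, rs, hγ⟩ := W.part' (lt_min g1 g2)
    obtain ⟨j₁, e₁, b1, b2, b3, b4⟩ := a1 _ (hb ms) ps rs s0 (hγ.trans_le (min_le_left _ _))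
    obtain ⟨j₂, e₂, c1, c2, c3, c4⟩ := a2 _ (hb ms) ps rs s0 (hγ.trans_le (min_le_right _ _))
    refine ⟨k + j₁ + j₂ + 1, by omega, e₁, e₂, b1, b2, ?_, c1, c2, ?_, b4.trans c4.symm⟩
    · rw [← p1.chain.mul_lt (show j₁ < k + j₁ + j₂ + 1 by omega), ← mul_assoc, b3]
    · rw [← q1.chain.mul_lt (show j₂ < k + j₁ + j₂ + 1 by omega), ← mul_assoc, c3]
  choose j j1 e₁ e₂ b1 b2 b3 c1 c2 c3 d using st
  let k : ℕ → ℕ := fun n => j^[n] 0
  have hk : ∀ n, k (n + 1) = j (k n) := fun n => Function.iterate_succ_apply' _ _ _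
  have hk' : StrictMono k := strictMono_nat_of_lt_succ fun n => by rw [hk]; exact j1 _
  have P1 := p1.refine hk' (fun n => b1 (k n)) (fun n => b2 _) fun n => by rw [hk]; exact b3 _
  have P2 := q1.refine hk' (fun n => c1 (k n)) (fun n => c2 _) fun n => by rw [hk]; exact c3 _
  have f1 : η₁ ∈ Fix ρ₁ fun n => e₁ (k n) := fun n => by
    rw [← p4 (j (k n)), ← rep_mul, b3]
  have f2 : η₂ ∈ Fix ρ₂ fun n => e₂ (k n) := fun n => by
    rw [← q4 (j (k n)), ← rep_mul, c3]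
  obtain ⟨f3, f4⟩ := F.conj_fix q3 f2
  have P3 := F.conj_peak P2
  set E : Bool → ℕ → A := two (fun n => e₁ (k n)) fun n => u * e₂ (k n) * u with hE
  have pk : ∀ b, T.Peak ⊤ (E b) := by rintro (_ | _); exacts [P3, P1]
  have pre : T.Pre E := by
    refine ⟨⟨fun b => (pk b).chain, ?_, ?_⟩, fun b => (pk b).null, fun n => ?_⟩
    · rintro (_ | _) n
      · show u * e₂ (k n) * u * (u * e₂ (k n) * u) = u * e₂ (k n) * u
        calc _ = u * e₂ (k n) * (u * u) * e₂ (k n) * u := by simp only [mul_assoc]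
          _ = _ := by rw [F.uu, mul_one, mul_assoc u, (c1 _).isIdempotentElem.eq]
      · exact (b1 _).isIdempotentElem.eq
    · show e₁ 0 * (u * e₂ 0 * u) = 0
      have a1 : e₁ 0 * W.r = e₁ 0 := by
        have := congrArg star (b2 0)
        rwa [star_mul, (b1 0).isSelfAdjoint.star_eq, (p1.chain.sa 0).star_eq, p2] at this
      have a2 : u * e₂ 0 = (1 - W.r) * u * e₂ 0 := by rw [← F.ur, mul_assoc, ← q2, c2]
      rw [a2]
      simp only [← mul_assoc]
      rw [mul_sub, a1]; simp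
    · show T.τ (e₁ (k n)) = T.τ (u * e₂ (k n) * u)
      rw [T.τ_comm, ← mul_assoc, F.uu, one_mul, d]
  by_cases hd : ∀ a, Tendsto (fun n => E true n * a * E false n) atTop (𝓝 0)
  · exfalso
    obtain ⟨β₀, -⟩ := W.bdd ∅ countable_empty
    obtain ⟨β, -, h2⟩ := W.cof E ⟨pre, fun _ _ => trivial, fun b a _ => (pk b).exc a trivial,
      fun a _ => hd a⟩ β₀
    have hu := (W.step β).toUU
    rw [h2] at hu
    have h3 := ((rep_cont ρ₂ (ρ₂ u η₂)).tendsto _).comp ((hd (W.u β)).const_mul (W.u β))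
    rw [mul_zero, map_zero, ContinuousLinearMap.zero_apply] at h3
    refine f3 (tendsto_nhds_unique tendsto_const_nhds (h3.congr fun n => ?_))
    have : W.u β * (E true n * W.u β * E false n) = E false n := by
      rw [show E true n * W.u β = W.u β * E false n from (hu.comm false n).symm, mul_assoc,
        pre.idem, ← mul_assoc, hu.sq, pre.toPre0.p_mul]
    simp only [Function.comp, this]
    exact f4 n
  push Not at hd
  obtain ⟨a, ha⟩ := hd
  obtain ⟨δ, hδ, h1⟩ : ∃ δ > 0, ∀ n, δ ≤ ‖E true n * a * E false n‖ := by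
    by_contra h2
    push Not at h2
    refine ha (Metric.tendsto_atTop.mpr fun ε hε => ?_)
    obtain ⟨n, hn⟩ := h2 ε hε
    refine ⟨n, fun m hm => ?_⟩
    rw [dist_zero_right]
    exact ((pre.chain false).norm_anti (pre.chain true) a hm).trans_lt hn
  set ζ := ρ₂ u η₂
  obtain ⟨η, g1, g2⟩ := (pre.chain true).exists_lim (ρ := ρ₂) (pre.idem true) (ρ₂ a ζ)
  have h2 : ∀ m, δ ^ 2 * ‖ζ‖ ^ 2 ≤ ‖ρ₂ (E true m) (ρ₂ a ζ)‖ ^ 2 := fun m => by
    obtain ⟨c, hc⟩ := (pk false).exc (star (E true m * a) * (E true m * a)) trivial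
    have a1 := congrArg norm (hc.inner (pre.chain false) f4 f4)
    rw [rep_mul, ← rep_inner_left, norm_mul, inner_self_eq_norm_sq_to_K,
      inner_self_eq_norm_sq_to_K, norm_pow, norm_pow, RCLike.norm_ofReal, RCLike.norm_ofReal,
      abs_norm, abs_norm, rep_mul] at a1
    rw [a1]
    gcongr
    have a2 := hc.norm.add_const ‖c‖
    rw [norm_zero, zero_add] at a2
    refine ge_of_tendsto a2 ?_
    filter_upwards [eventually_ge_atTop m] with n hn
    have a3 : δ ≤ ‖E true m * a * E false n‖ := by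
      refine (h1 n).trans ?_
      rw [← pre.toPre0.mul_ge true hn, mul_assoc, mul_assoc, ← mul_assoc (E true m)]
      exact (norm_mul_le _ _).trans (mul_le_of_le_one_left (norm_nonneg _)
        ((pre.chain true).norm_le n))
    have a4 : star (E true m * a * E false n) * (E true m * a * E false n)
        = E false n * (star (E true m * a) * (E true m * a) - c • 1) * E false n
          + c • (E false n * E false n) := by
      rw [star_mul, pre.toPre0.sa]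
      simp only [mul_sub, sub_mul, mul_smul_comm, smul_mul_assoc, mul_one, mul_assoc]; abel
    calc δ ^ 2 ≤ ‖E true m * a * E false n‖ ^ 2 := by gcongr
      _ = _ := by rw [sq, ← CStarRing.norm_star_mul_self, a4]
      _ ≤ _ := (norm_add_le _ _).trans (by
          gcongr
          rw [norm_smul, pre.idem]
          exact mul_le_of_le_one_right (norm_nonneg _) ((pre.chain false).norm_le n))
  have h3 : η ≠ 0 := by
    rintro rfl
    have := ge_of_tendsto' (g2.norm.pow 2) h2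
    have z : 0 < ‖ζ‖ := norm_pos_iff.mpr f3
    have : 0 < δ ^ 2 * ‖ζ‖ ^ 2 := by positivity
    simp at *; linarith
  refine equiv_of_norm_eq h₁ h₂ (η := (‖η‖ : ℂ) • η₁) (η' := (‖η₁‖ : ℂ) • η)
    (smul_ne_zero (by simpa using h3) p3) (smul_ne_zero (by simpa using p3) h3) fun x => ?_
  have := norm_cross (pre.chain true) ((pk true).exc (star x * x) trivial) f1 g1
  simp only [map_smul, norm_smul, Complex.norm_real, norm_norm]
  linarith

end Full
end Crest.Agent.H3N
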