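import Crest.Agent.H3N.Corr
import Crest.Agent.H3N.Proj

/-! Construction of the tower by transfinite recursion. -/

set_option autoImplicit false

open scoped InnerProductSpace ComplexOrder ENNReal
open Filter Topology Set

noncomputable section

namespace Crest.Agent.H3N

/-- noncommutative polynomials in the generators of `S` -/
def FS {G : Type} (S : Set G) : Subalgebra ℂ (FreeAlgebra ℂ G) :=
  Algebra.adjoin ℂ (FreeAlgebra.ι ℂ '' S)

theorem FS_mono {G : Type} {S S' : Set G} (h : S ⊆ S') : FS S ≤ FS S' :=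
  Algebra.adjoin_mono (image_mono h)

theorem mem_adjoin_iff {G A : Type} [CStarAlgebra A] {g : G → A} (hg : ∀ x, IsSelfAdjoint (g x))
    {S : Set G} {a : A} :
    a ∈ StarAlgebra.adjoin ℂ (g '' S) ↔ ∃ p ∈ FS S, FreeAlgebra.lift ℂ g p = a := by
  have h1 : star (g '' S) = g '' S := by
    ext x
    rw [Set.mem_star]
    constructor
    · rintro ⟨y, hy, h⟩; exact ⟨y, hy, by rw [← star_star x, ← h, (hg y).star_eq]⟩
    · rintro ⟨y, hy, rfl⟩; exact ⟨y, hy, (hg y).star_eq.symm⟩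
  rw [← StarSubalgebra.mem_toSubalgebra, StarAlgebra.adjoin_toSubalgebra, h1, union_self, FS,
    ← Subalgebra.mem_map, AlgHom.map_adjoin, image_image]
  simp

theorem lift_comp {G A B : Type} [CStarAlgebra A] [CStarAlgebra B] (g : G → A) (φ : A →⋆ₐ[ℂ] B)
    (p : FreeAlgebra ℂ G) : φ (FreeAlgebra.lift ℂ g p) = FreeAlgebra.lift ℂ (φ ∘ g) p := by
  have : φ.toAlgHom.comp (FreeAlgebra.lift ℂ g) = FreeAlgebra.lift ℂ (φ ∘ g) := by
    ext x; simp
  exact congrArg (fun f => f p) this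

/-- a tracial C⋆-algebra with marked self-adjoint contractions -/
structure Mod (G : Type) : Type 1 where
  B : Type
  [inst : CStarAlgebra B]
  T : Tr B
  g : G → B
  sa : ∀ x, IsSelfAdjoint (g x)
  norm_le : ∀ x, ‖g x‖ ≤ 1

attribute [instance] Mod.inst

namespace Mod
variable {G : Type}

abbrev ev (M : Mod G) : FreeAlgebra ℂ G →ₐ[ℂ] M.B := FreeAlgebra.lift ℂ M.g
abbrev A (M : Mod G) (S : Set G) : StarSubalgebra ℂ M.B := cl (M.g '' S)

def Agree (M M' : Mod G) (S : Set G) : Prop := ∀ p ∈ FS S, M.T.τ (M.ev p) = M'.T.τ (M'.ev p)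

theorem Agree.symm {M M' : Mod G} {S : Set G} (h : Agree M M' S) : Agree M' M S :=
  fun p hp => (h p hp).symm

theorem Agree.trans {M M' M'' : Mod G} {S : Set G} (h : Agree M M' S) (h' : Agree M' M'' S) :
    Agree M M'' S := fun p hp => (h p hp).trans (h' p hp)

theorem Agree.mono {M M' : Mod G} {S S' : Set G} (h : Agree M M' S) (h' : S' ⊆ S) :
    Agree M M' S' := fun p hp => h p (FS_mono h' hp)

theorem ev_mem {M M' : Mod G} {S : Set G} {C : Corr M.T M'.T} (h : ∀ x ∈ S, (M.g x, M'.g x) ∈ C.Γ)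
    {p : FreeAlgebra ℂ G} (hp : p ∈ FS S) : (M.ev p, M'.ev p) ∈ C.Γ := by
  induction hp using Algebra.adjoin_induction with
  | mem x hx => obtain ⟨y, hy, rfl⟩ := hx; simpa using h y hy
  | algebraMap r => simpa using algebraMap_mem C.Γ r
  | add x y _ _ h1 h2 => simpa using add_mem h1 h2
  | mul x y _ _ h1 h2 => simpa using mul_mem h1 h2

theorem agree_of_corr {M M' : Mod G} {S : Set G} {C : Corr M.T M'.T}
    (h : ∀ x ∈ S, (M.g x, M'.g x) ∈ C.Γ) : Agree M M' S := fun _ hp => C.τ_eq _ (ev_mem h hp)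

theorem Agree.corr {M M' : Mod G} {S : Set G} (h : Agree M M' S) :
    ∃ C : Corr M.T M'.T, ∀ x ∈ S, (M.g x, M'.g x) ∈ C.Γ := by
  refine ⟨⟨cl ((fun x => (M.g x, M'.g x)) '' S), isClosed_cl _, fun z hz => ?_⟩,
    fun x hx => subset_cl ⟨x, hx, rfl⟩⟩
  refine closure_minimal (t := {z : M.B × M'.B | M.T.τ z.1 = M'.T.τ z.2}) (fun z hz => ?_)
    (isClosed_eq (by fun_prop) (by fun_prop)) hz
  obtain ⟨p, hp, rfl⟩ := (mem_adjoin_iff (g := fun x => (M.g x, M'.g x))
    (fun x => Prod.ext (M.sa x).star_eq (M'.sa x).star_eq)).mp hz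
  have h1 := lift_comp (fun x => (M.g x, M'.g x)) (StarAlgHom.fst ℂ _ _) p
  have h2 := lift_comp (fun x => (M.g x, M'.g x)) (StarAlgHom.snd ℂ _ _) p
  exact (congrArg M.T.τ h1).trans ((h p hp).trans (congrArg M'.T.τ h2).symm)

theorem exists_sub (M : Mod G) (S : Set G) (h0 : ∀ x ∉ S, M.g x = 0) :
    ∃ L : Mod G, L.A S = ⊤ ∧ (∀ x ∉ S, L.g x = 0) ∧ Agree L M univ := by
  have hc : IsClosed (M.A S : Set M.B) := isClosed_cl _
  obtain ⟨T, hT⟩ := exists_tr (A := M.A S) (M.T.τ.toLinearMap ∘ₗ (M.A S).subtype.toLinearMap)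
    M.T.τ_one (fun a => M.T.τ_nonneg _) (fun a ha => Subtype.ext (M.T.eq_zero_of_τ ha))
    fun a b => M.T.τ_comm _ _
  have mem : ∀ x, M.g x ∈ M.A S := fun x => by
    by_cases hx : x ∈ S
    · exact subset_cl ⟨x, hx, rfl⟩
    · rw [h0 x hx]; exact zero_mem _
  let L : Mod G := ⟨M.A S, T, fun x => ⟨M.g x, mem x⟩, fun x => Subtype.ext (M.sa x), M.norm_le⟩
  let C : Corr L.T M.T := Corr.graph (M.A S).subtype fun a => (hT a).symm
  have hC : ∀ x, (L.g x, M.g x) ∈ C.Γ := fun x => Corr.mem_graph.mpr rfl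
  refine ⟨L, eq_top_iff.mpr fun a _ => ?_, fun x hx => Subtype.ext (h0 x hx),
    agree_of_corr fun x _ => hC x⟩
  obtain ⟨b, b1, b2⟩ := Corr.exists_rel' (S := S) (fun x _ => hC x) a.2
  rwa [← Subtype.ext (Corr.mem_graph.mp b2)]

theorem exists_ultra {ι : Type} (U : Ultrafilter ι) (M : ι → Mod G) (S : Set G) :
    ∃ L : Mod G, L.A S = ⊤ ∧ (∀ x ∉ S, L.g x = 0) ∧
      ∀ p ∈ FS S, Tendsto (fun i => (M i).T.τ ((M i).ev p)) U (𝓝 (L.T.τ (L.ev p))) := by
  classical
  have : ∀ i, Nontrivial (M i).B := fun i => ⟨1, 0, fun h => by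
    simpa [h] using (M i).T.τ_one⟩
  let P := lp (fun i => (M i).B) ∞
  let _ : CStarAlgebra P := {}
  let φ : ∀ i, P →⋆ₐ[ℂ] (M i).B := fun i =>
    { toFun := fun f => f i
      map_one' := rfl
      map_mul' := fun _ _ => rfl
      map_zero' := rfl
      map_add' := fun _ _ => rfl
      commutes' := fun c => by
        simp only [Algebra.algebraMap_eq_smul_one]; rfl
      map_star' := fun _ => rfl }
  obtain ⟨ω, hω⟩ := exists_ultralim U
    (fun i => (M i).T.τ.toLinearMap ∘ₗ (φ i).toAlgHom.toLinearMap) fun a =>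
      ⟨‖a‖, fun i => ((M i).T.norm_τ_le _).trans (NonUnitalStarAlgHom.norm_apply_le (φ i) a)⟩
  replace hω : ∀ a, Tendsto (fun i => (M i).T.τ (φ i a)) U (𝓝 (ω a)) := hω
  obtain ⟨B, _, T, ρ, hρ⟩ := exists_quot ω
    (tendsto_nhds_unique (hω 1) (by simp [Tr.τ_one]))
    (fun a => isClosed_Ici.mem_of_tendsto (hω _) (.of_forall fun i => by
      rw [map_mul, map_star]; exact (M i).T.τ_nonneg _))
    fun a b => tendsto_nhds_unique (hω _) ((hω _).congr fun i => by
      rw [map_mul (φ i), map_mul (φ i), Tr.τ_comm])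
  let g : G → P := fun x => if x ∈ S then ⟨fun i => (M i).g x, memℓp_infty ⟨1, by
    rintro _ ⟨i, rfl⟩; exact (M i).norm_le x⟩⟩ else 0
  have g1 : ∀ x ∈ S, ∀ i, φ i (g x) = (M i).g x := fun x hx i => by simp only [g, if_pos hx]; rfl
  have g2 : ∀ x, IsSelfAdjoint (g x) := fun x => by
    simp only [g]
    split_ifs
    · exact Subtype.ext (funext fun i => (M i).sa x)
    · exact .zero _
  have g3 : ∀ x, ‖g x‖ ≤ 1 := fun x => by
    simp only [g]
    split_ifs
    · exact lp.norm_le_of_forall_le zero_le_one fun i => (M i).norm_le x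
    · simp
  obtain ⟨L, l1, l2, l3⟩ := exists_sub ⟨B, T, ρ ∘ g, fun x => (g2 x).map ρ,
    fun x => (NonUnitalStarAlgHom.norm_apply_le ρ _).trans (g3 x)⟩ S fun x hx => by simp [g, hx]
  refine ⟨L, l1, l2, fun p hp => ?_⟩
  rw [l3 p (FS_mono (subset_univ _) hp)]
  have := hω (FreeAlgebra.lift ℂ g p)
  rw [← hρ, lift_comp] at this
  refine this.congr fun i => congrArg _ ?_
  clear this
  induction hp using Algebra.adjoin_induction with
  | mem x hx => obtain ⟨y, hy, rfl⟩ := hx; simpa using g1 y hy i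
  | algebraMap r => simp [Algebra.algebraMap_eq_smul_one]
  | add x y _ _ h1 h2 => simp [h1, h2]
  | mul x y _ _ h1 h2 => simp [h1, h2]

end Mod

abbrev Gen (I : Type) := (ℕ × ℕ) ⊕ I
abbrev Code (I : Type) := Bool → ℕ → ℕ → FreeAlgebra ℂ (Gen I)

variable {I : Type}

def gens (L : Set I) : Set (Gen I) := range Sum.inl ∪ Sum.inr '' L

theorem gens_mono {L L' : Set I} (h : L ⊆ L') : gens L ⊆ gens L' :=
  union_subset_union_right _ (image_mono h)

theorem inr_mem_gens {L : Set I} {β : I} : Sum.inr β ∈ gens L ↔ β ∈ L := by simp [gens]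

namespace Mod

theorem A_gens (M : Mod (Gen I)) (L : Set I) :
    M.A (gens L) = AL (range (M.g ∘ Sum.inl)) (M.g ∘ Sum.inr) L := by
  simp only [gens, AL, A, image_union, range_comp, image_comp]

/-- properties of the initial algebra -/
structure BaseOK (M : Mod (Gen I)) : Prop where
  idem : ∀ x, M.g (.inl x) * M.g (.inl x) = M.g (.inl x)
  comm : ∀ x y, M.g (.inl x) * M.g (.inl y) = M.g (.inl y) * M.g (.inl x)
  sum : ∀ m, ∑ j : Fin (m + 2), M.g (.inl (m, j)) = 1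
  tr : ∀ m (j : Fin (m + 2)), M.T.τ (M.g (.inl (m, j))) = 1 / (m + 2)

theorem BaseOK.transfer {M M' : Mod (Gen I)} (h : M.BaseOK) (h' : Agree M M' (gens ∅)) :
    M'.BaseOK := by
  obtain ⟨C, hC⟩ := h'.corr
  have m : ∀ x, (M.g (.inl x), M'.g (.inl x)) ∈ C.Γ := fun x => hC _ (Or.inl ⟨x, rfl⟩)
  refine ⟨fun x => Corr.eq_of (mul_mem (m x) (m x)) (m x) (h.idem x),
    fun x y => Corr.eq_of (mul_mem (m x) (m y)) (mul_mem (m y) (m x)) (h.comm x y),
    fun k => Corr.eq_of ?_ (one_mem C.Γ) (h.sum k),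
    fun k j => (C.τ_eq _ (m _)).symm.trans (h.tr k j)⟩
  rw [prod_mk_sum]
  exact sum_mem fun j _ => m _

open MeasureTheory ProbabilityTheory in
theorem exists_base : ∃ M : Mod (Gen I), M.BaseOK := by
  let X := (m : ℕ) → Fin (m + 2)
  let μ : Measure X := Measure.infinitePi fun m => uniformOn Set.univ
  have hi : ∀ f : C(X, ℂ), Integrable f μ := fun f =>
    f.continuous.integrable_of_hasCompactSupport (HasCompactSupport.of_compactSpace f)
  let ω : C(X, ℂ) →ₗ[ℂ] ℂ :=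
    ⟨⟨fun f => ∫ x, f x ∂μ, fun f g => integral_add (hi f) (hi g)⟩, fun c f => integral_smul c f⟩
  obtain ⟨B, _, T, ρ, hρ⟩ := exists_quot ω (by simp [ω]) (fun f => by
    show 0 ≤ ∫ x, (star f * f) x ∂μ
    have : ∀ x, (star f * f) x = ((‖f x‖ ^ 2 : ℝ) : ℂ) := fun x => by
      simp [Complex.conj_mul']
    simp only [this, integral_complex_ofReal]
    exact Complex.zero_le_real.mpr (integral_nonneg fun x => sq_nonneg _)) fun a b => by
      rw [mul_comm]
  let ind : ∀ m : ℕ, ℕ → Fin (m + 2) → ℂ := fun m j y => if (y : ℕ) = j then 1 else 0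
  let q : ℕ × ℕ → C(X, ℂ) := fun p => ⟨fun x => ind p.1 p.2 (x p.1),
    (continuous_of_discreteTopology (f := ind p.1 p.2)).comp (continuous_apply p.1)⟩
  have q1 : ∀ p, IsStarProjection (q p) := fun p => ⟨by
    ext x; simp only [q, ind, ContinuousMap.mul_apply, ContinuousMap.coe_mk]; split_ifs <;> simp, by
    ext x; simp only [q, ind, ContinuousMap.star_apply, ContinuousMap.coe_mk]; split_ifs <;> simp⟩
  refine ⟨⟨B, T, Sum.elim (fun p => ρ (q p)) 0, ?_, ?_⟩, fun x => ?_, fun x y => ?_, fun m => ?_,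
    fun m j => ?_⟩
  · rintro (p | β)
    exacts [(q1 p).isSelfAdjoint.map ρ, .zero _]
  · rintro (p | β)
    · exact (NonUnitalStarAlgHom.norm_apply_le ρ _).trans (q1 p).norm_le
    · simp
  · simp only [Sum.elim_inl, ← map_mul, (q1 x).isIdempotentElem.eq]
  · simp only [Sum.elim_inl, ← map_mul, mul_comm]
  · simp only [Sum.elim_inl]
    rw [← map_sum, ← map_one ρ]
    congr 1
    ext x
    simp [q, ind, Fin.val_inj]
  · simp only [Sum.elim_inl]
    rw [hρ]
    show ∫ x, ind m j (x m) ∂μ = _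
    rw [← integral_map (φ := fun x : X => x m) (measurable_pi_apply m).aemeasurable
      (measurable_of_finite _).aestronglyMeasurable, Measure.infinitePi_map_eval,
      integral_fintype .of_finite]
    simp [ind, Fin.val_inj, Measure.real, uniformOn_univ, ENNReal.toReal_add]

variable [LinearOrder I]

def Valid (M : Mod (Gen I)) (β : I) (c : Code I) (E : Bool → ℕ → M.B) : Prop :=
  (∀ b n k, c b n k ∈ FS (gens (Iio β))) ∧
    (∀ b n, Tendsto (fun k => M.ev (c b n k)) atTop (𝓝 (E b n))) ∧ M.T.Task (M.A (gens (Iio β))) E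

def Good (M : Mod (Gen I)) (β : I) (c : Code I) : Prop :=
  (∃ E, M.Valid β c E ∧ M.T.Step (M.A (gens (Iio β))) E (M.g (.inr β))) ∨
    ((¬ ∃ E, M.Valid β c E) ∧ M.g (.inr β) = 0)

theorem Valid.transfer {M M' : Mod (Gen I)} {β : I} {c : Code I} {E : Bool → ℕ → M.B}
    (h : M.Valid β c E) {C : Corr M.T M'.T} (hC : ∀ x ∈ gens (Iio β), (M.g x, M'.g x) ∈ C.Γ) :
    ∃ E', M'.Valid β c E' ∧ ∀ b n, (E b n, E' b n) ∈ C.Γ := by
  choose E' e1 e2 using fun b n => Corr.exists_lim (fun k => ev_mem hC (h.1 b n k)) (h.2.1 b n)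
  exact ⟨E', ⟨h.1, e1, Corr.task e2 (fun _ => Corr.exists_rel hC) (fun _ => Corr.exists_rel' hC)
    h.2.2⟩, e2⟩

theorem Good.transfer {M M' : Mod (Gen I)} {β : I} {c : Code I} (h : M.Good β c)
    (h' : Agree M M' (gens (Iic β))) : M'.Good β c := by
  obtain ⟨C, hC⟩ := h'.corr
  have hC' : ∀ x ∈ gens (Iio β), (M.g x, M'.g x) ∈ C.Γ :=
    fun x hx => hC x (gens_mono Iio_subset_Iic_self hx)
  have hu := hC (.inr β) (inr_mem_gens.mpr le_rfl)
  rcases h with ⟨E, h1, h2⟩ | ⟨h1, h2⟩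
  · obtain ⟨E', e1, e2⟩ := h1.transfer hC'
    exact Or.inl ⟨E', e1, Corr.step e2 (fun _ => Corr.exists_rel' hC') hu h2⟩
  · refine Or.inr ⟨?_, Corr.eq_of hu (zero_mem _) h2⟩
    rintro ⟨E', e1⟩
    obtain ⟨E, e2, -⟩ := e1.transfer (C := C.swap) hC'
    exact h1 ⟨E, e2⟩

theorem exists_good (L : Mod (Gen I)) (β : I) (c : Code I) (h1 : L.A (gens (Iio β)) = ⊤)
    (h2 : ∀ x ∉ gens (Iio β), L.g x = 0) : ∃ M, Agree M L (gens (Iio β)) ∧ M.Good β c := by
  classical
  have nm : Sum.inr β ∉ gens (Iio β) := by simp [inr_mem_gens]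
  by_cases h : ∃ E, L.Valid β c E
  swap
  · exact ⟨L, fun _ _ => rfl, Or.inr ⟨h, h2 _ nm⟩⟩
  obtain ⟨E, hE⟩ := h
  obtain ⟨B, _, T', ψ, u, e1, e2, e3⟩ := hE.2.2.toPre.exists_step (h1 ▸ hE.2.2.hasExp)
  have h' := hE.2.2.toPre0.map ψ
  have nu : ‖u‖ ≤ 1 := by
    have a1 : IsStarProjection (u * u) := ⟨by
      rw [IsIdempotentElem, e2.sq, mul_add, h'.p_mul, h'.p_mul], by
      simpa [e2.sa.star_eq] using IsSelfAdjoint.star_mul_self u⟩
    have a2 := CStarRing.norm_star_mul_self (x := u)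
    rw [e2.sa.star_eq] at a2
    nlinarith [a1.norm_le, norm_nonneg u]
  let M : Mod (Gen I) := ⟨B, T', Function.update (ψ ∘ L.g) (.inr β) u, fun x => by
    rw [Function.update_apply]
    split_ifs
    exacts [e2.sa, (L.sa x).map ψ], fun x => by
    rw [Function.update_apply]
    split_ifs
    exacts [nu, (NonUnitalStarAlgHom.norm_apply_le ψ _).trans (L.norm_le x)]⟩
  let C : Corr L.T M.T := Corr.graph ψ e1
  have hC : ∀ x ∈ gens (Iio β), (L.g x, M.g x) ∈ C.Γ := fun x hx => Corr.mem_graph.mpr (by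
    have : x ≠ .inr β := by rintro rfl; exact nm hx
    simp [M, this])
  obtain ⟨E', v1, v2⟩ := hE.transfer hC
  obtain rfl : E' = fun b n => ψ (E b n) := by
    funext b n; exact (Corr.mem_graph.mp (v2 b n)).symm
  refine ⟨M, (agree_of_corr hC).symm, Or.inl ⟨_, v1, ?_⟩⟩
  have : M.g (.inr β) = u := by simp [M]
  rw [this]
  refine ⟨e2, fun i k w hw => e3 i k w (hw.mono ?_)⟩
  rintro (_ | _)
  · rintro _ ⟨d, hd, rfl⟩
    obtain ⟨d', d1, d2⟩ := Corr.rel_DD (C := C.swap) v2 hd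
    exact ⟨d', d1, by rw [Corr.mem_graph.mp (C.mem_swap.mp d2)]⟩
  · intro y hy
    obtain ⟨x, x1, x2⟩ := Corr.cen v2 (fun _ => Corr.exists_rel' hC) hy
    exact ⟨x, ⟨trivial, x1.2⟩, Corr.mem_graph.mp x2⟩

theorem exists_lim (M₀ : Mod (Gen I)) {L : Set I} (hL : IsLowerSet L) (F : L → Mod (Gen I))
    (h0 : ∀ γ, Agree (F γ) M₀ (gens ∅))
    (h1 : ∀ γ δ : L, γ < δ → Agree (F δ) (F γ) (gens (Iic γ.1))) :
    ∃ M : Mod (Gen I), M.A (gens L) = ⊤ ∧ (∀ x ∉ gens L, M.g x = 0) ∧ Agree M M₀ (gens ∅) ∧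
      ∀ γ, Agree M (F γ) (gens (Iic γ.1)) := by
  rcases L.eq_empty_or_nonempty with rfl | hne
  · obtain ⟨M, m1, m2, m3⟩ := exists_ultra (pure () : Ultrafilter Unit) (fun _ => M₀) (gens ∅)
    exact ⟨M, m1, m2, fun p hp => tendsto_nhds_unique (m3 p hp) tendsto_const_nhds,
      fun γ => γ.2.elim⟩
  have := hne.to_subtype
  obtain ⟨M, m1, m2, m3⟩ := exists_ultra (Ultrafilter.of (atTop : Filter L)) F (gens L)
  refine ⟨M, m1, m2, fun p hp => tendsto_nhds_unique (m3 p (FS_mono (gens_mono (empty_subset _)) hp))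
    (tendsto_const_nhds.congr fun γ => (h0 γ p hp).symm), fun γ p hp =>
      tendsto_nhds_unique (m3 p (FS_mono (gens_mono (hL.Iic_subset γ.2)) hp))
      (tendsto_const_nhds.congr' ?_)⟩
  filter_upwards [Ultrafilter.of_le _ (eventually_ge_atTop γ)] with δ hδ
  rcases (hδ : γ ≤ δ).eq_or_lt with rfl | h
  · rfl
  · exact (h1 γ δ h p hp).symm

end Mod

theorem exists_rec {I : Type} [LinearOrder I] [WellFoundedLT I] {X : Type 1} [Nonempty X]
    (P : ∀ β : I, (∀ γ, γ < β → X) → X → Prop)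
    (h : ∀ β (F : ∀ γ, γ < β → X),
      (∀ γ (hγ : γ < β), P γ (fun δ hδ => F δ (hδ.trans hγ)) (F γ hγ)) → ∃ N, P β F N) :
    ∃ M : I → X, ∀ β, P β (fun γ _ => M γ) (M β) := by
  let M : I → X := WellFounded.fix wellFounded_lt fun β F => Classical.epsilon (P β F)
  have hM : ∀ β, M β = Classical.epsilon (P β fun γ _ => M γ) := fun β => WellFounded.fix_eq _ _ _
  refine ⟨M, fun β => ?_⟩
  induction β using WellFoundedLT.induction with
  | ind β ih => rw [hM]; exact Classical.epsilon_spec (h β _ ih)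

theorem exists_final [LinearOrder I] [WellFoundedLT I] (b : I → Code I) :
    ∃ M : Mod (Gen I), M.A (gens univ) = ⊤ ∧ M.BaseOK ∧ ∀ β, M.Good β (b β) := by
  obtain ⟨M₀, h₀⟩ := Mod.exists_base (I := I)
  have : Nonempty (Mod (Gen I)) := ⟨M₀⟩
  obtain ⟨M, hM⟩ := exists_rec (I := I) (X := Mod (Gen I)) (fun β F N => N.Agree M₀ (gens ∅) ∧
    (∀ γ (h : γ < β), N.Agree (F γ h) (gens (Iic γ))) ∧ N.Good β (b β)) fun β F ih => by
      obtain ⟨L, l1, l2, l3, l4⟩ := Mod.exists_lim M₀ (isLowerSet_Iio β) (fun γ => F γ.1 γ.2)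
        (fun γ => (ih γ.1 γ.2).1) fun γ δ h => (ih δ.1 δ.2).2.1 γ.1 h
      obtain ⟨N, n1, n2⟩ := L.exists_good β (b β) l1 l2
      exact ⟨N, (n1.mono (gens_mono (empty_subset _))).trans l3, fun γ h =>
        (n1.mono (gens_mono (Iic_subset_Iio.mpr h))).trans (l4 ⟨γ, h⟩), n2⟩
  obtain ⟨L, l1, -, l3, l4⟩ := Mod.exists_lim M₀ isLowerSet_univ (fun γ => M γ.1)
    (fun γ => (hM γ.1).1) fun γ δ h => (hM δ.1).2.1 γ.1 h
  exact ⟨L, l1, h₀.transfer l3.symm, fun β => (hM β).2.2.transfer (l4 ⟨β, trivial⟩).symm⟩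

open Cardinal in
theorem exists_index : ∃ (I : Type) (_ : LinearOrder I) (_ : WellFoundedLT I),
    (∀ S : Set I, S.Countable → ∃ β, S ⊆ Iio β) ∧
      ∃ b : I → Code I, ∀ c β₀, ∃ β, β₀ ≤ β ∧ b β = c := by
  let I := (continuum.{0}.ord).ToType
  have hI : #I = 𝔠 := mk_ord_toType _
  have hlt : ∀ β : I, #(Iio β) < 𝔠 := mk_Iio_toType_ord_lt
  refine ⟨I, inferInstance, inferInstance, fun S hS => ?_, ?_⟩
  · by_contra h
    push Not at h
    have := hS.to_subtype
    have h1 : (univ : Set I) ⊆ ⋃ s : S, Iic s.1 := fun β _ => by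
      obtain ⟨s, s1, s2⟩ := not_subset.mp (h β)
      exact mem_iUnion.mpr ⟨⟨s, s1⟩, (not_lt.mp s2 : β ≤ s)⟩
    have h2 : ∀ s : S, #(Iic s.1) < 𝔠 := fun s => by
      rw [← Iio_insert]
      exact mk_insert_le.trans_lt (add_lt_of_lt aleph0_le_continuum (hlt _)
        (one_lt_aleph0.trans aleph0_lt_continuum))
    have h3 := ((mk_le_mk_of_subset h1).trans mk_iUnion_le_sum_mk).trans_lt
      (sum_lt_prod _ (fun _ => 𝔠) h2)
    rw [mk_univ, hI, prod_const'] at h3
    refine absurd h3 (not_lt.mpr ?_)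
    calc 𝔠 ^ #S ≤ 𝔠 ^ ℵ₀ := power_le_power_left continuum_ne_zero mk_le_aleph0
      _ = 𝔠 := continuum_power_aleph0
  · have h1 : #(FreeAlgebra ℂ (Gen I)) ≤ 𝔠 :=
      (FreeAlgebra.cardinalMk_le_max ℂ (Gen I)).trans (by simp [hI, aleph0_le_continuum])
    have h2 : #(I × Code I) ≤ #I := by
      simp only [mk_prod, lift_id, hI, mk_pi, prod_const, mk_nat, lift_aleph0, mk_fintype,
        Fintype.card_bool, lift_natCast]
      calc _ ≤ 𝔠 * ((𝔠 ^ ℵ₀) ^ ℵ₀) ^ ((2 : ℕ) : Cardinal) :=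
            mul_le_mul_right (power_le_power_right (power_le_power_right
              (power_le_power_right h1))) _
        _ = 𝔠 := by
          rw [continuum_power_aleph0, continuum_power_aleph0, power_natCast, sq]; simp
    obtain ⟨f⟩ := h2
    have : Nonempty (I × Code I) := by
      have : Nonempty I := mk_ne_zero_iff.mp (hI ▸ continuum_ne_zero)
      infer_instance
    refine ⟨fun β => (Function.invFun f β).2, fun c β₀ => ?_⟩
    by_contra h
    push Not at h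
    have h3 : ∀ γ, f (γ, c) ∈ Iio β₀ := fun γ => lt_of_not_ge fun h4 => h _ h4 (by
      rw [Function.leftInverse_invFun f.injective])
    have h4 : #I ≤ #(Iio β₀) := mk_le_of_injective (f := fun γ => ⟨f (γ, c), h3 γ⟩)
      fun γ δ e => (Prod.ext_iff.mp (f.injective (Subtype.ext_iff.mp e))).1
    exact absurd (hlt β₀) (not_lt.mpr (hI.symm.trans_le h4))

theorem exists_full : ∃ (A : Type) (_ : CStarAlgebra A) (T : Tr A) (I : Type) (_ : LinearOrder I)
    (_ : WellFoundedLT I), Nonempty (Full T I) := by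
  classical
  obtain ⟨I, _, _, hbdd, b, hb⟩ := exists_index
  obtain ⟨M, m1, m2, m3⟩ := exists_final b
  have ex : ∀ β, ∃ E, M.T.Task (M.A (gens (Iio β))) E ∧
      M.T.Step (M.A (gens (Iio β))) E (M.g (.inr β)) ∧ ∀ E', M.Valid β (b β) E' → E = E' := fun β => by
    rcases m3 β with ⟨E, h1, h2⟩ | ⟨h1, h2⟩
    · exact ⟨E, h1.2.2, h2, fun E' h3 => by
        funext c n; exact tendsto_nhds_unique (h1.2.1 c n) (h3.2.1 c n)⟩
    · exact ⟨_, M.T.task_zero _, by rw [h2]; exact M.T.step_zero _, fun E' h3 => (h1 ⟨E', h3⟩).elim⟩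
  choose E e1 e2 e3 using ex
  have pr : ∀ x, IsStarProjection (M.g (.inl x)) := fun x => ⟨m2.idem x, M.sa _⟩
  refine ⟨M.B, inferInstance, M.T, I, inferInstance, inferInstance, ⟨⟨⟨range (M.g ∘ Sum.inl),
    M.g ∘ Sum.inr, E, M.g (.inl (0, 0)), countable_range _, ⟨_, rfl⟩, pr _,
    fun β => M.A_gens _ ▸ e1 β, fun β => M.A_gens _ ▸ e2 β⟩, M.A_gens _ ▸ m1, hbdd,
    fun E' hE β₀ => ?_, by simpa using m2.tr 0 0, fun γ hγ => ?_⟩⟩⟩
  · choose S _ S2 S3 using fun c n => AL_countable_support (base := range (M.g ∘ Sum.inl))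
      (u := M.g ∘ Sum.inr) (S := univ) (a := E' c n) (by rw [← M.A_gens, m1]; trivial)
    obtain ⟨β₁, h1⟩ := hbdd (⋃ c, ⋃ n, S c n) (countable_iUnion fun c => countable_iUnion (S2 c))
    have mem : ∀ c n, E' c n ∈ M.A (gens (Iio β₁)) := fun c n => by
      rw [M.A_gens]
      exact AL_mono (((subset_iUnion (S c) n).trans (subset_iUnion (fun c => ⋃ n, S c n) c)).trans
        h1) (S3 c n)
    choose s s1 s2 using fun c n => mem_closure_iff_seq_limit.mp (mem c n)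
    choose p p1 p2 using fun c n k => (mem_adjoin_iff M.sa).mp (s1 c n k)
    obtain ⟨β, b1, b2⟩ := hb p (max β₀ β₁)
    have le := gens_mono (Iio_subset_Iio ((le_max_right _ _).trans b1))
    refine ⟨β, (le_max_left _ _).trans b1, e3 β E' (b2 ▸ ⟨fun c n k => FS_mono le (p1 c n k),
      fun c n => (s2 c n).congr fun k => (p2 c n k).symm, hE.mono le_top fun c n => ?_⟩)⟩
    exact cl_le (isClosed_cl _) (fun x hx => subset_cl (image_mono le hx)) (mem c n)
  · obtain ⟨m, hm⟩ := exists_nat_one_div_lt (show 0 < γ ^ 2 by positivity)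
    refine ⟨m + 2, fun j => (1 - M.g (.inl (0, 0))) * M.g (.inl (m, j)), fun j => ⟨?_, ?_, ?_, ?_⟩,
      by rw [← Finset.mul_sum, m2.sum, mul_one]⟩
    · exact (pr _).one_sub.mul (pr _) ((Commute.one_left _).sub_left (m2.comm _ _))
    · exact mul_mem (sub_mem (one_mem _) (base_mem_AL _ ⟨_, rfl⟩)) (base_mem_AL _ ⟨_, rfl⟩)
    · simp only
      rw [← mul_assoc, (pr _).one_sub.isIdempotentElem.eq]
    · refine lt_of_le_of_lt ((M.T.norm_v_mul_le _ _).trans
        (mul_le_of_le_one_left (norm_nonneg _) (pr _).one_sub.norm_le)) ?_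
      have h1 := (M.T.proj_τ (pr (m, j))).symm.trans (m2.tr m j)
      have h2 : ‖M.T.v (M.g (.inl (m, j)))‖ ^ 2 = 1 / (m + 2) := by
        apply Complex.ofReal_injective
        rw [h1]; push_cast; rfl
      refine lt_of_pow_lt_pow_left₀ 2 hγ.le (h2 ▸ lt_of_le_of_lt ?_ hm)
      gcongr; norm_num

end Crest.Agent.H3N
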