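import Crest.Agent.H3N.Sing

/-! Decreasing sequences of contractions excising a state. -/

set_option autoImplicit false

open scoped InnerProductSpace ComplexOrder
open Filter Topology

noncomputable section

namespace Crest.Agent.H3N
variable {A : Type} [CStarAlgebra A]

structure Chain (f : ℕ → A) : Prop where
  sa : ∀ n, IsSelfAdjoint (f n)
  norm_le : ∀ n, ‖f n‖ ≤ 1
  mul : ∀ n, f n * f (n + 1) = f (n + 1)

namespace Chain
variable {f f' : ℕ → A} (hf : Chain f) (hf' : Chain f')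
include hf

theorem mul_lt {n m : ℕ} (h : n < m) : f n * f m = f m := by
  induction m, h using Nat.le_induction with
  | base => exact hf.mul n
  | succ m _ ih => rw [← hf.mul m, ← mul_assoc, ih]

theorem mul_lt' {n m : ℕ} (h : n < m) : f m * f n = f m := by
  have := congrArg star (hf.mul_lt h)
  rwa [star_mul, (hf.sa n).star_eq, (hf.sa m).star_eq] at this

include hf' in
theorem norm_anti (b : A) : Antitone fun n => ‖f' n * b * f n‖ := by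
  intro n m h
  rcases h.eq_or_lt with rfl | h
  · exact le_rfl
  · have : f' m * b * f m = f' m * (f' n * b * f n) * f m := by
      conv_lhs => rw [← hf'.mul_lt' h, ← hf.mul_lt h]
      simp only [mul_assoc]
    show ‖f' m * b * f m‖ ≤ ‖f' n * b * f n‖
    rw [this]
    calc _ ≤ ‖f' m‖ * ‖f' n * b * f n‖ * ‖f m‖ :=
          (norm_mul_le _ _).trans (by gcongr; exact norm_mul_le _ _)
      _ ≤ 1 * ‖f' n * b * f n‖ * 1 := by gcongr; exacts [hf'.norm_le m, hf.norm_le m]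
      _ = _ := by ring

theorem norm_sandwich (b : A) (n : ℕ) : ‖f n * b * f n‖ ≤ ‖b‖ :=
  calc _ ≤ ‖f n‖ * ‖b‖ * ‖f n‖ := (norm_mul_le _ _).trans (by gcongr; exact norm_mul_le _ _)
    _ ≤ 1 * ‖b‖ * 1 := by gcongr <;> exact hf.norm_le n
    _ = _ := by ring

end Chain

/-- `f` excises `a` with value `c` -/
def ExcAt (f : ℕ → A) (a : A) (c : ℂ) : Prop :=
  Tendsto (fun n => f n * (a - c • 1) * f n) atTop (𝓝 0)

def Exc (f : ℕ → A) (a : A) : Prop := ∃ c, ExcAt f a c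

theorem ExcAt.add {f : ℕ → A} {a b : A} {c d : ℂ} (h : ExcAt f a c) (h' : ExcAt f b d) :
    ExcAt f (a + b) (c + d) := by
  have := Tendsto.add h h'
  rw [add_zero] at this
  refine this.congr fun n => ?_
  rw [add_smul]; noncomm_ring

theorem Exc.add {f : ℕ → A} {a b : A} (h : Exc f a) (h' : Exc f b) : Exc f (a + b) := by
  obtain ⟨c, h⟩ := h
  obtain ⟨d, h'⟩ := h'
  exact ⟨_, h.add h'⟩

theorem Chain.exc_of_approx {f : ℕ → A} (hf : Chain f) {a : A}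
    (h : ∀ ε > 0, ∃ n, ∃ c : ℂ, ‖f n * (a - c • 1) * f n‖ < ε) : Exc f a := by
  by_cases h0 : ∃ n, f n = 0
  · obtain ⟨n, hn⟩ := h0
    refine ⟨0, tendsto_const_nhds.congr' ?_⟩
    filter_upwards [eventually_gt_atTop n] with m hm
    rw [← hf.mul_lt hm, hn]; simp
  push Not at h0
  have h1 : ∀ n, ‖f n * f n‖ = 1 := fun n => by
    have h2 : ‖f (n + 1)‖ ≤ ‖f n‖ * ‖f (n + 1)‖ := by
      conv_lhs => rw [← hf.mul n]
      exact norm_mul_le _ _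
    have h3 : 1 ≤ ‖f n‖ := by
      by_contra h4
      have := norm_pos_iff.mpr (h0 (n + 1))
      nlinarith
    have h4 : ‖f n‖ = 1 := le_antisymm (hf.norm_le n) h3
    have := CStarRing.norm_star_mul_self (x := f n)
    rw [(hf.sa n).star_eq, h4] at this
    simpa using this
  have h2 : ∀ n (c d : ℂ), ‖f n * (a - c • 1) * f n - f n * (a - d • 1) * f n‖ = ‖d - c‖ := by
    intro n c d
    have : f n * (a - c • 1) * f n - f n * (a - d • 1) * f n = (d - c) • (f n * f n) := by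
      simp only [mul_sub, sub_mul, mul_smul_comm, smul_mul_assoc, mul_one, sub_smul]; abel
    rw [this, norm_smul, h1, mul_one]
  set u : ℕ → ℝ := fun n => 1 / ((n : ℝ) + 1) with hu
  have hu0 : ∀ n, 0 < u n := fun n => Nat.one_div_pos_of_nat
  have hul : Tendsto u atTop (𝓝 0) := tendsto_one_div_add_atTop_nhds_zero_nat
  have hua : Antitone u := fun a b h => Nat.one_div_le_one_div h
  choose n c hc using fun k => h (u k) (hu0 k)
  have h3 : ∀ k m, n k ≤ m → ‖f m * (a - c k • 1) * f m‖ < u k := fun k m hm =>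
    (hf.norm_anti hf _ hm).trans_lt (hc k)
  have hcau : CauchySeq c := by
    refine cauchySeq_of_le_tendsto_0 (fun N => u N + u N) (fun k l N hk hl => ?_)
      (by simpa using hul.add hul)
    rw [dist_eq_norm, ← h2 (max (n k) (n l))]
    refine (norm_sub_le _ _).trans ?_
    have := h3 k _ (le_max_left _ (n l))
    have := h3 l _ (le_max_right (n k) _)
    linarith [hua hk, hua hl]
  obtain ⟨d, hd⟩ := cauchySeq_tendsto_of_complete hcau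
  refine ⟨d, Metric.tendsto_atTop.mpr fun ε hε => ?_⟩
  have h4 := (tendsto_iff_norm_sub_tendsto_zero.mp hd).add hul
  rw [add_zero] at h4
  obtain ⟨k, hk⟩ := (h4.eventually (gt_mem_nhds hε)).exists
  refine ⟨n k, fun m hm => ?_⟩
  rw [dist_zero_right]
  have := norm_le_norm_add_norm_sub' (f m * (a - d • 1) * f m) (f m * (a - c k • 1) * f m)
  rw [h2] at this
  linarith [h3 k m hm]

theorem Chain.isClosed_exc {f : ℕ → A} (hf : Chain f) : IsClosed {a | Exc f a} := by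
  refine isClosed_of_closure_subset fun a ha => hf.exc_of_approx fun ε hε => ?_
  obtain ⟨b, ⟨c, hb⟩, h1⟩ := Metric.mem_closure_iff.mp ha (ε / 2) (by positivity)
  obtain ⟨n, hn⟩ := Metric.tendsto_atTop.mp hb (ε / 2) (by positivity)
  refine ⟨n, c, ?_⟩
  have h2 := hn n le_rfl
  rw [dist_zero_right] at h2
  rw [dist_eq_norm] at h1
  have : f n * (a - c • 1) * f n = f n * (a - b) * f n + f n * (b - c • 1) * f n := by noncomm_ring
  rw [this]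
  linarith [norm_add_le (f n * (a - b) * f n) (f n * (b - c • 1) * f n), hf.norm_sandwich (a - b) n]

section rep
variable {H : Type} [NormedAddCommGroup H] [InnerProductSpace ℂ H] [CompleteSpace H]
  (ρ : A →⋆ₐ[ℂ] (H →L[ℂ] H))

/-- vectors fixed by all `f n` -/
def Fix (f : ℕ → A) : Submodule ℂ H where
  carrier := {ζ | ∀ n, ρ (f n) ζ = ζ}
  add_mem' := fun {a b} ha hb n => by rw [map_add, ha n, hb n]
  zero_mem' := fun n => by simp
  smul_mem' := fun r a ha n => by rw [map_smul, ha n]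

/-- cyclic subspace -/
def cyc (C : StarSubalgebra ℂ A) (ξ : H) : Submodule ℂ H :=
  (C.toSubalgebra.toSubmodule.map (repAt ρ ξ).toLinearMap).topologicalClosure

variable {ρ}
theorem mem_Fix {f : ℕ → A} {ζ : H} : ζ ∈ Fix ρ f ↔ ∀ n, ρ (f n) ζ = ζ := Iff.rfl

theorem isClosed_cyc (C : StarSubalgebra ℂ A) (ξ : H) : IsClosed (cyc ρ C ξ : Set H) :=
  Submodule.isClosed_topologicalClosure _

theorem mem_cyc {C : StarSubalgebra ℂ A} {c : A} (hc : c ∈ C) (ξ : H) : ρ c ξ ∈ cyc ρ C ξ :=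
  Submodule.le_topologicalClosure _ ⟨c, hc, rfl⟩

theorem self_mem_cyc (C : StarSubalgebra ℂ A) (ξ : H) : ξ ∈ cyc ρ C ξ := by
  simpa using mem_cyc (ρ := ρ) (one_mem C) ξ

theorem cyc_induction {C : StarSubalgebra ℂ A} {ξ : H} {Q : Set H} (hQ : IsClosed Q)
    (h : ∀ c ∈ C, ρ c ξ ∈ Q) {η : H} (hη : η ∈ cyc ρ C ξ) : η ∈ Q :=
  closure_minimal (by rintro _ ⟨c, hc, rfl⟩; exact h c hc) hQ hη

theorem inv_cyc (C : StarSubalgebra ℂ A) (ξ : H) : Inv ρ C (cyc ρ C ξ) := fun c hc ζ hζ =>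
  cyc_induction (Q := (ρ c) ⁻¹' (cyc ρ C ξ)) ((isClosed_cyc C ξ).preimage (ρ c).continuous)
    (fun d hd => by
      show ρ c (ρ d ξ) ∈ cyc ρ C ξ
      rw [← rep_mul]; exact mem_cyc (mul_mem hc hd) ξ) hζ

theorem cyc_le {C : StarSubalgebra ℂ A} {ξ : H} {K : Submodule ℂ H} (hK : IsClosed (K : Set H))
    (hi : Inv ρ C K) (h : ξ ∈ K) : cyc ρ C ξ ≤ K := fun _ hη =>
  cyc_induction hK (fun c hc => hi c hc ξ h) hη

theorem cyc_approx {C : StarSubalgebra ℂ A} {ξ η : H} (hη : η ∈ cyc ρ C ξ) {U : Set H}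
    (hU : U ∈ 𝓝 η) : ∃ c ∈ C, ρ c ξ ∈ U := by
  obtain ⟨_, h1, c, hc, rfl⟩ := mem_closure_iff_nhds.mp hη U hU
  exact ⟨c, hc, h1⟩

theorem ExcAt.tendsto {f : ℕ → A} {a : A} {c : ℂ} (h : ExcAt f a c) {ξ : H} (hξ : ξ ∈ Fix ρ f) :
    Tendsto (fun n => ρ (f n) (ρ a ξ)) atTop (𝓝 (c • ξ)) := by
  have h1 := ((rep_cont ρ ξ).tendsto 0).comp h
  rw [map_zero, ContinuousLinearMap.zero_apply] at h1
  rw [← tendsto_sub_nhds_zero_iff]
  refine h1.congr fun n => ?_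
  simp [hξ n]

theorem ExcAt.inner {f : ℕ → A} (hf : Chain f) {a : A} {c : ℂ} (h : ExcAt f a c) {ξ ξ' : H}
    (hξ : ξ ∈ Fix ρ f) (hξ' : ξ' ∈ Fix ρ f) : ⟪ξ', ρ a ξ⟫_ℂ = c * ⟪ξ', ξ⟫_ℂ := by
  have h1 : Tendsto (fun n => ⟪ξ', ρ (f n) (ρ a ξ)⟫_ℂ) atTop (𝓝 ⟪ξ', c • ξ⟫_ℂ) :=
    tendsto_const_nhds.inner (h.tendsto hξ)
  simp only [rep_inner_right ρ (f _), (hf.sa _).star_eq, hξ' _, inner_smul_right] at h1
  exact tendsto_nhds_unique tendsto_const_nhds h1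

theorem ExcAt.norm_sq {f : ℕ → A} (hf : Chain f) {a : A} {c : ℂ} (h : ExcAt f (star a * a) c)
    {ξ : H} (hξ : ξ ∈ Fix ρ f) : ‖ρ a ξ‖ ^ 2 = c.re * ‖ξ‖ ^ 2 := by
  have := h.inner hf hξ hξ
  rw [rep_mul, ← rep_inner_left, inner_self_eq_norm_sq_to_K, inner_self_eq_norm_sq_to_K] at this
  have h2 := congrArg Complex.re this
  have h3 : ∀ x : ℝ, ((RCLike.ofReal x : ℂ) ^ 2) = ((x ^ 2 : ℝ) : ℂ) := fun x => by
    rw [Complex.ofReal_pow]; rfl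
  rw [h3, h3, Complex.ofReal_re, Complex.re_mul_ofReal] at h2
  exact h2

theorem norm_cross {H' : Type} [NormedAddCommGroup H'] [InnerProductSpace ℂ H'] [CompleteSpace H']
    {ρ' : A →⋆ₐ[ℂ] (H' →L[ℂ] H')} {f : ℕ → A} (hf : Chain f) {a : A} (h : Exc f (star a * a))
    {ξ : H} (hξ : ξ ∈ Fix ρ f) {ξ' : H'} (hξ' : ξ' ∈ Fix ρ' f) :
    ‖ρ a ξ‖ * ‖ξ'‖ = ‖ρ' a ξ'‖ * ‖ξ‖ := by
  obtain ⟨c, h⟩ := h
  have : (‖ρ a ξ‖ * ‖ξ'‖) ^ 2 = (‖ρ' a ξ'‖ * ‖ξ‖) ^ 2 := by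
    rw [mul_pow, mul_pow, h.norm_sq hf hξ, h.norm_sq hf hξ']; ring
  exact (pow_left_inj₀ (by positivity) (by positivity) two_ne_zero).mp this

theorem isClosed_tendsto {S : ℕ → H →L[ℂ] H} {M : ℝ} (hM : ∀ n, ‖S n‖ ≤ M) {P : H → H}
    (hP : Continuous P) : IsClosed {η | Tendsto (fun n => S n η) atTop (𝓝 (P η))} := by
  refine isClosed_of_closure_subset fun ζ hζ => ?_
  have hM0 : 0 ≤ M := (norm_nonneg _).trans (hM 0)
  show Tendsto _ _ _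
  rw [Metric.tendsto_atTop]
  intro ε hε
  have hc : Continuous fun η => M * ‖ζ - η‖ + ‖P η - P ζ‖ := by fun_prop
  have h0 : {η | M * ‖ζ - η‖ + ‖P η - P ζ‖ < ε / 2} ∈ 𝓝 ζ :=
    (isOpen_lt hc continuous_const).mem_nhds (by simpa using hε)
  obtain ⟨η, h1, hη⟩ := mem_closure_iff_nhds.mp hζ _ h0
  obtain ⟨N, hN⟩ := Metric.tendsto_atTop.mp hη (ε / 2) (by positivity)
  refine ⟨N, fun n hn => ?_⟩
  have h2 := hN n hn
  rw [dist_eq_norm] at h2 ⊢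
  have h3 : S n ζ - P ζ = S n (ζ - η) + (S n η - P η) + (P η - P ζ) := by simp
  have h4 : ‖S n (ζ - η)‖ ≤ M * ‖ζ - η‖ := ((S n).le_opNorm _).trans (by gcongr; exact hM n)
  rw [h3]
  refine (norm_add₃_le).trans_lt ?_
  simp only [Set.mem_setOf_eq] at h1
  linarith

theorem Chain.tendsto_cyc {f : ℕ → A} (hf : Chain f) {C : StarSubalgebra ℂ A}
    (hE : ∀ a ∈ C, Exc f a) {ξ η : H} (hξ : ξ ∈ Fix ρ f) (hη : η ∈ cyc ρ C ξ) :
    Tendsto (fun n => ρ (f n) η) atTop (𝓝 ((⟪ξ, η⟫_ℂ / ⟪ξ, ξ⟫_ℂ) • ξ)) := by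
  refine cyc_induction (Q := {η | Tendsto (fun n => ρ (f n) η) atTop
    (𝓝 ((⟪ξ, η⟫_ℂ / ⟪ξ, ξ⟫_ℂ) • ξ))}) (isClosed_tendsto (M := 1) (fun n =>
      (NonUnitalStarAlgHom.norm_apply_le ρ _).trans (hf.norm_le n)) (by fun_prop))
      (fun a ha => ?_) hη
  obtain ⟨c, h⟩ := hE a ha
  have h1 := h.tendsto hξ
  show Tendsto _ _ _
  rw [h.inner hf hξ hξ]
  by_cases h0 : ξ = 0
  · simpa [h0] using h1
  · rwa [mul_div_assoc, div_self (inner_self_ne_zero.mpr h0), mul_one]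

theorem Chain.mem_cyc_of_mem {f : ℕ → A} (hf : Chain f) {C : StarSubalgebra ℂ A}
    (hm : ∀ n, f n ∈ C) (hE : ∀ a ∈ C, Exc f a) {ξ η : H} (hξ : ξ ∈ Fix ρ f)
    (hη : η ∈ cyc ρ C ξ) (h0 : η ≠ 0) : ξ ∈ cyc ρ C η := by
  have h1 : ∃ y ∈ C, ⟪ρ y ξ, η⟫_ℂ ≠ 0 := by
    by_contra h
    push Not at h
    have := cyc_induction (Q := {x | ⟪x, η⟫_ℂ = 0})
      (isClosed_eq (by fun_prop) continuous_const) h hη
    exact h0 (inner_self_eq_zero.mp this)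
  obtain ⟨y, hy, h1⟩ := h1
  have h2 := hf.tendsto_cyc hE hξ (inv_cyc C ξ _ (star_mem hy) _ hη)
  have h3 := (isClosed_cyc (ρ := ρ) C η).mem_of_tendsto h2 (.of_forall fun n =>
    inv_cyc C η _ (hm n) _ (mem_cyc (star_mem hy) η))
  have hξ0 : ξ ≠ 0 := by rintro rfl; simp at h1
  rw [← rep_inner_left] at h3
  exact (Submodule.smul_mem_iff _ (div_ne_zero h1 (inner_self_ne_zero.mpr hξ0))).mp h3

variable (ρ)
/-- an approximate form of Kadison transitivity -/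
def KP (C : StarSubalgebra ℂ A) (K : Submodule ℂ H) : Prop :=
  ∀ ξ ∈ K, ∀ η ∈ K, ⟪ξ, η⟫_ℂ = 0 → ∀ ε > 0, ∃ b ∈ C, ‖ρ (star b) ξ - ξ‖ < ε ∧ ‖ρ b η‖ < ε

variable {ρ}
theorem Chain.KP_cyc {f : ℕ → A} (hf : Chain f) {C : StarSubalgebra ℂ A}
    (hm : ∀ n, f n ∈ C) (hE : ∀ a ∈ C, Exc f a) {ξ₀ : H} (h₀ : ξ₀ ∈ Fix ρ f) :
    KP ρ C (cyc ρ C ξ₀) := by
  intro ξ hξ η hη ho ε hε
  by_cases h0 : ξ = 0
  · exact ⟨0, zero_mem _, by simpa [h0] using hε, by simpa using hε⟩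
  have h00 : ξ₀ ≠ 0 := by
    rintro rfl
    exact h0 (cyc_induction (Q := {0}) isClosed_singleton (by simp) hξ)
  have i1 := inner_self_ne_zero (𝕜 := ℂ).mpr h0
  have i2 := inner_self_ne_zero (𝕜 := ℂ).mpr h00
  have hU : {y | ‖(⟪y, ξ⟫_ℂ / ⟪ξ, ξ⟫_ℂ) • y - ξ‖ < ε} ∩ {y | ‖(⟪y, η⟫_ℂ / ⟪ξ, ξ⟫_ℂ) • y‖ < ε}
      ∈ 𝓝 ξ :=
    inter_mem ((isOpen_lt (by fun_prop) continuous_const).mem_nhds (by
      simp only [Set.mem_setOf_eq, div_self i1]; simpa using hε))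
      ((isOpen_lt (by fun_prop) continuous_const).mem_nhds (by simpa [ho] using hε))
  obtain ⟨x, hx, h1, h2⟩ := cyc_approx hξ hU
  set l : ℂ := ⟪ξ₀, ξ₀⟫_ℂ / ⟪ξ, ξ⟫_ℂ with hl
  have hlc : star l = l := by simp [hl]
  have key : ∀ ζ ∈ cyc ρ C ξ₀, Tendsto (fun n => ρ (l • (x * f n * star x)) ζ) atTop
      (𝓝 ((⟪ρ x ξ₀, ζ⟫_ℂ / ⟪ξ, ξ⟫_ℂ) • ρ x ξ₀)) := by
    intro ζ hζ
    have h3 := hf.tendsto_cyc hE h₀ (inv_cyc C ξ₀ _ (star_mem hx) _ hζ)
    have h4 := (((ρ x).continuous.tendsto _).comp h3).const_smul l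
    rw [map_smul, smul_smul, ← rep_inner_left] at h4
    have e : l * (⟪ρ x ξ₀, ζ⟫_ℂ / ⟪ξ₀, ξ₀⟫_ℂ) = ⟪ρ x ξ₀, ζ⟫_ℂ / ⟪ξ, ξ⟫_ℂ := by
      rw [hl]; field_simp
    rw [e] at h4
    refine h4.congr fun n => ?_
    simp
  have e1 := ((key ξ hξ).sub_const ξ).norm.eventually (gt_mem_nhds h1)
  have e2 := (key η hη).norm.eventually (gt_mem_nhds h2)
  obtain ⟨n, h3, h4⟩ := (e1.and e2).exists
  refine ⟨l • (x * f n * star x), SMulMemClass.smul_mem _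
    (mul_mem (mul_mem hx (hm n)) (star_mem hx)), ?_, h4⟩
  rw [star_smul, hlc, star_mul, star_mul, star_star, (hf.sa n).star_eq, ← mul_assoc]
  exact h3

theorem Chain.exists_lim {e : ℕ → A} (he : Chain e) (hp : ∀ n, e n * e n = e n) (ζ : H) :
    ∃ η ∈ Fix ρ e, Tendsto (fun n => ρ (e n) ζ) atTop (𝓝 η) := by
  have hle : ∀ {n m}, n ≤ m → e n * e m = e m := fun {n m} h => by
    rcases h.eq_or_lt with rfl | h
    exacts [hp n, he.mul_lt h]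
  have key : ∀ {n m}, n ≤ m →
      ‖ρ (e n) ζ - ρ (e m) ζ‖ ^ 2 = ‖ρ (e n) ζ‖ ^ 2 - ‖ρ (e m) ζ‖ ^ 2 := fun {n m} h => by
    have h1 : ⟪ρ (e m) ζ, ρ (e n) ζ - ρ (e m) ζ⟫_ℂ = 0 := by
      have h2 : e m * e n = e m := by
        have := congrArg star (hle h)
        rwa [star_mul, (he.sa n).star_eq, (he.sa m).star_eq] at this
      rw [rep_inner_left, map_sub, ← rep_mul, ← rep_mul, (he.sa m).star_eq, h2, hp]; simp
    have h2 := norm_add_sq_eq_norm_sq_add_norm_sq_of_inner_eq_zero _ _ h1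
    rw [add_sub_cancel] at h2
    nlinarith
  have hanti : Antitone fun n => ‖ρ (e n) ζ‖ ^ 2 := fun n m h => by
    have := key h
    nlinarith [sq_nonneg ‖ρ (e n) ζ - ρ (e m) ζ‖]
  have hb : BddBelow (Set.range fun n => ‖ρ (e n) ζ‖ ^ 2) := ⟨0, by rintro _ ⟨n, rfl⟩; positivity⟩
  have hl := tendsto_atTop_ciInf hanti hb
  set L := ⨅ n, ‖ρ (e n) ζ‖ ^ 2
  have hcau : CauchySeq fun n => ρ (e n) ζ := by
    refine cauchySeq_of_le_tendsto_0' (fun n => √(‖ρ (e n) ζ‖ ^ 2 - L)) (fun n m h => ?_)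
      (by simpa using (hl.sub_const L).sqrt)
    rw [dist_eq_norm]
    refine Real.le_sqrt_of_sq_le ?_
    rw [key h]
    have : L ≤ ‖ρ (e m) ζ‖ ^ 2 := ciInf_le hb m
    linarith
  obtain ⟨η, hη⟩ := cauchySeq_tendsto_of_complete hcau
  refine ⟨η, fun k => tendsto_nhds_unique (((ρ (e k)).continuous.tendsto η).comp hη)
    (hη.congr' ?_), hη⟩
  filter_upwards [eventually_ge_atTop k] with n hn
  simp only [Function.comp]
  rw [← rep_mul, hle hn]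

end rep

theorem inner_self_nonneg' {H : Type} [NormedAddCommGroup H] [InnerProductSpace ℂ H] (x : H) :
    0 ≤ ⟪x, x⟫_ℂ := by
  rw [inner_self_eq_norm_sq_to_K]
  have : (0 : ℂ) ≤ ((‖x‖ ^ 2 : ℝ) : ℂ) := Complex.zero_le_real.mpr (sq_nonneg _)
  simpa using this

theorem exists_ultralim {ι : Type} (U : Ultrafilter ι) (φ : ι → A →ₗ[ℂ] ℂ)
    (h : ∀ a, ∃ M, ∀ i, ‖φ i a‖ ≤ M) :
    ∃ ω : A →ₗ[ℂ] ℂ, ∀ a, Tendsto (fun i => φ i a) U (𝓝 (ω a)) := by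
  have h1 : ∀ a, ∃ c, Tendsto (fun i => φ i a) U (𝓝 c) := fun a => by
    obtain ⟨M, hM⟩ := h a
    obtain ⟨c, -, hc⟩ := (isCompact_closedBall (0 : ℂ) M).ultrafilter_le_nhds'
      (U.map fun i => φ i a) (by
        rw [Ultrafilter.mem_map]; exact univ_mem' fun i => by simpa using hM i)
    exact ⟨c, hc⟩
  choose ω hω using h1
  refine ⟨⟨⟨ω, fun a b => tendsto_nhds_unique (hω (a + b)) ?_⟩,
    fun c a => tendsto_nhds_unique (hω (c • a)) ?_⟩, hω⟩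
  · simpa using (hω a).add (hω b)
  · simpa using (hω a).const_smul c

theorem opNorm_le_of_inner {H : Type} [NormedAddCommGroup H] [InnerProductSpace ℂ H]
    (X : H →L[ℂ] H) {δ : ℝ} (hδ : 0 ≤ δ) (h : ∀ w, ‖w‖ ≤ 2 → ‖⟪X w, w⟫_ℂ‖ ≤ δ) : ‖X‖ ≤ δ := by
  refine X.opNorm_le_of_unit_norm hδ fun y hy => ?_
  have key : ∀ x, ‖x‖ ≤ 1 → ‖⟪X y, x⟫_ℂ‖ ≤ δ := by
    intro x hx
    have h1 := inner_map_polarization X.toLinearMap x y
    simp only [ContinuousLinearMap.coe_coe] at h1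
    have hI : ‖Complex.I • y‖ = 1 := by simp [norm_smul, hy]
    have a1 := h (x + y) ((norm_add_le _ _).trans (by linarith))
    have a2 := h (x - y) ((norm_sub_le _ _).trans (by linarith))
    have a3 := h (x + Complex.I • y) ((norm_add_le _ _).trans (by linarith))
    have a4 := h (x - Complex.I • y) ((norm_sub_le _ _).trans (by linarith))
    rw [h1, norm_div]
    refine (div_le_iff₀ (by simp)).mpr ((norm_sub_le _ _).trans ?_)
    have b1 := norm_add_le (⟪X (x + y), x + y⟫_ℂ - ⟪X (x - y), x - y⟫_ℂ)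
      (Complex.I * ⟪X (x + Complex.I • y), x + Complex.I • y⟫_ℂ)
    have b2 := norm_sub_le ⟪X (x + y), x + y⟫_ℂ ⟪X (x - y), x - y⟫_ℂ
    simp only [norm_mul, Complex.norm_I, one_mul, Complex.norm_ofNat] at b1 ⊢
    linarith
  by_cases h0 : X y = 0
  · simpa [h0] using hδ
  have h1 := key ((‖X y‖ : ℂ)⁻¹ • X y) (by
    rw [norm_smul, norm_inv, Complex.norm_real, norm_norm, inv_mul_cancel₀ (norm_ne_zero_iff.mpr h0)])
  rw [inner_smul_right, inner_self_eq_norm_sq_to_K, norm_mul, norm_inv, Complex.norm_real,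
    norm_norm, norm_pow, RCLike.norm_ofReal, abs_norm, sq,
    inv_mul_cancel_left₀ (norm_ne_zero_iff.mpr h0)] at h1
  exact h1

theorem Tr.norm_le_lam (T : Tr A) (x : A) : ‖x‖ ≤ ‖T.lam x‖ :=
  T.norm_le_of_L2 Set.univ trivial (fun _ _ => trivial) (fun _ _ => trivial) (norm_nonneg _)
    fun y _ => by rw [T.v_mul]; exact (T.lam x).le_opNorm _

/-- excision criterion -/
theorem Chain.EC (T : Tr A) {f : ℕ → A} (hf : Chain f) {b : A}
    (h : ∀ (H : Type) [NormedAddCommGroup H] [InnerProductSpace ℂ H] [CompleteSpace H]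
      (ρ : A →⋆ₐ[ℂ] (H →L[ℂ] H)), ∀ ζ ∈ Fix ρ f, ⟪ζ, ρ b ζ⟫_ℂ = 0) : ExcAt f b 0 := by
  by_contra hc
  have h1 : ∃ δ > 0, ∀ n, δ < ‖f n * b * f n‖ := by
    by_contra h2
    push Not at h2
    refine hc (Metric.tendsto_atTop.mpr fun ε hε => ?_)
    obtain ⟨n, hn⟩ := h2 (ε / 2) (by positivity)
    refine ⟨n, fun m hm => ?_⟩
    have := hf.norm_anti hf b hm
    simp only [zero_smul, sub_zero, dist_zero_right] at this ⊢
    linarith
  obtain ⟨δ, hδ, h1⟩ := h1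
  have h2 : ∀ n, ∃ w : T.H, ‖w‖ ≤ 2 ∧ δ < ‖⟪T.lam (f n * b * f n) w, w⟫_ℂ‖ := fun n => by
    by_contra h3
    push Not at h3
    exact absurd ((T.norm_le_lam _).trans (opNorm_le_of_inner _ hδ.le h3)) (not_le.mpr (h1 n))
  choose w hw hw' using h2
  set z : ℕ → T.H := fun n => T.lam (f n) (w n) with hz
  have hz2 : ∀ n, ‖z n‖ ≤ 2 := fun n => (rep_norm_le _ _ _).trans (by
    nlinarith [hf.norm_le n, hw n, norm_nonneg (f n), norm_nonneg (w n)])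
  obtain ⟨ω, hω⟩ := exists_ultralim (hyperfilter ℕ)
    (fun n => ((innerSL ℂ (z n)).comp (repAt T.lam (z n))).toLinearMap) fun a =>
      ⟨2 * (‖a‖ * 2), fun n => (norm_inner_le_norm (z n) (T.lam a (z n))).trans (by
        gcongr
        · exact hz2 n
        · exact (rep_norm_le _ _ _).trans (by gcongr; exact hz2 n))⟩
  replace hω : ∀ a, Tendsto (fun n => ⟪z n, T.lam a (z n)⟫_ℂ) (hyperfilter ℕ) (𝓝 (ω a)) := hω
  have hpos : ∀ a, 0 ≤ ω (star a * a) := fun a =>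
    isClosed_Ici.mem_of_tendsto (hω _) (.of_forall fun n => by
      rw [Set.mem_Ici, rep_mul, ← rep_inner_left]
      exact inner_self_nonneg' _)
  obtain ⟨H, _, _, _, ρ, Ω, h3, -⟩ := exists_gns ω hpos
  have hfix : Ω ∈ Fix ρ f := fun k => by
    have h4 : ω (star (1 - f k) * (1 - f k)) = 0 := by
      refine tendsto_nhds_unique (hω _) (tendsto_const_nhds.congr' ?_)
      filter_upwards [Nat.hyperfilter_le_atTop (eventually_gt_atTop k)] with n hn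
      have : T.lam (1 - f k) (z n) = 0 := by
        rw [hz, ← rep_mul, sub_mul, hf.mul_lt hn]; simp
      rw [rep_mul, this]; simp
    rw [← h3, rep_mul, ← rep_inner_left, inner_self_eq_zero] at h4
    rw [map_sub, map_one, ContinuousLinearMap.sub_apply, sub_eq_zero] at h4
    exact h4.symm
  have h4 := h H ρ Ω hfix
  rw [h3] at h4
  have h5 : Tendsto (fun n => ‖⟪z n, T.lam b (z n)⟫_ℂ‖) (hyperfilter ℕ) (𝓝 0) := by
    simpa [h4] using (hω b).norm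
  refine absurd (ge_of_tendsto' h5 fun n => ?_) (not_le.mpr hδ)
  have := hw' n
  rw [rep_mul, rep_mul, rep_inner_left, (hf.sa n).star_eq, norm_inner_symm] at this
  exact this.le

section sum
variable {H₁ : Type} [NormedAddCommGroup H₁] [InnerProductSpace ℂ H₁] [CompleteSpace H₁]
  {H₂ : Type} [NormedAddCommGroup H₂] [InnerProductSpace ℂ H₂] [CompleteSpace H₂]

/-- block diagonal operator -/
def diag2 (X : H₁ →L[ℂ] H₁) (Y : H₂ →L[ℂ] H₂) : WithLp 2 (H₁ × H₂) →L[ℂ] WithLp 2 (H₁ × H₂) :=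
  ((WithLp.prodContinuousLinearEquiv 2 ℂ H₁ H₂).symm : _ →L[ℂ] _) ∘L (X.prodMap Y) ∘L
    (WithLp.prodContinuousLinearEquiv 2 ℂ H₁ H₂ : _ →L[ℂ] _)

omit [CompleteSpace H₁] [CompleteSpace H₂] in
theorem diag2_apply (X : H₁ →L[ℂ] H₁) (Y : H₂ →L[ℂ] H₂) (z : WithLp 2 (H₁ × H₂)) :
    diag2 X Y z = WithLp.toLp 2 (X z.fst, Y z.snd) := rfl

/-- direct sum of representations -/
def sumRep (ρ₁ : A →⋆ₐ[ℂ] (H₁ →L[ℂ] H₁)) (ρ₂ : A →⋆ₐ[ℂ] (H₂ →L[ℂ] H₂)) :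
    A →⋆ₐ[ℂ] (WithLp 2 (H₁ × H₂) →L[ℂ] WithLp 2 (H₁ × H₂)) where
  toFun a := diag2 (ρ₁ a) (ρ₂ a)
  map_one' := by ext z : 1; simp [diag2_apply]; rfl
  map_mul' a b := by ext z : 1; simp [diag2_apply]
  map_zero' := by ext z : 1; simp [diag2_apply]
  map_add' a b := by ext z : 1; simp [diag2_apply, ← WithLp.toLp_add]
  commutes' c := by
    ext z : 1
    simp [diag2_apply, Algebra.algebraMap_eq_smul_one]; rfl
  map_star' a := by
    rw [ContinuousLinearMap.star_eq_adjoint, ContinuousLinearMap.eq_adjoint_iff]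
    intro x y
    simp [diag2_apply, rep_inner_right ρ₁ a, rep_inner_right ρ₂ a]

theorem sumRep_apply (ρ₁ : A →⋆ₐ[ℂ] (H₁ →L[ℂ] H₁)) (ρ₂ : A →⋆ₐ[ℂ] (H₂ →L[ℂ] H₂)) (a : A)
    (x : H₁) (y : H₂) :
    sumRep ρ₁ ρ₂ a (WithLp.toLp 2 (x, y)) = WithLp.toLp 2 (ρ₁ a x, ρ₂ a y) := rfl

end sum

/-- excision from vanishing of off-diagonal coefficients -/
theorem Chain.PL (T : Tr A) {f : ℕ → A} (hf : Chain f) {b : A}
    (h : ∀ (H : Type) [NormedAddCommGroup H] [InnerProductSpace ℂ H] [CompleteSpace H]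
      (ρ : A →⋆ₐ[ℂ] (H →L[ℂ] H)), ∀ ξ ∈ Fix ρ f, ∀ ξ' ∈ Fix ρ f, ⟪ξ', ξ⟫_ℂ = 0 →
        ⟪ξ', ρ b ξ⟫_ℂ = 0) : Exc f b := by
  by_cases h0 : ∀ (H : Type) [NormedAddCommGroup H] [InnerProductSpace ℂ H] [CompleteSpace H]
      (ρ : A →⋆ₐ[ℂ] (H →L[ℂ] H)), ∀ ξ ∈ Fix ρ f, ξ = 0
  · exact ⟨0, hf.EC T fun H _ _ _ ρ ζ hζ => by rw [h0 H ρ ζ hζ]; simp⟩
  push Not at h0
  obtain ⟨H₀, _, _, _, ρ₀, ξ, hξ, h0⟩ := h0
  have i0 := inner_self_ne_zero (𝕜 := ℂ).mpr h0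
  set c := ⟪ξ, ρ₀ b ξ⟫_ℂ / ⟪ξ, ξ⟫_ℂ with hc
  refine ⟨c, ?_⟩
  have := hf.EC T (b := b - c • 1) fun H _ _ _ ρ ζ hζ => by
    have h1 := h _ (sumRep ρ₀ ρ) (WithLp.toLp 2 (⟪ζ, ζ⟫_ℂ • ξ, -⟪ξ, ξ⟫_ℂ • ζ))
      (fun n => by rw [sumRep_apply, map_smul, map_smul, hξ n, hζ n]) (WithLp.toLp 2 (ξ, ζ))
      (fun n => by rw [sumRep_apply, hξ n, hζ n]) (by
        simp only [WithLp.prod_inner_apply, inner_smul_right]; ring)
    simp only [sumRep_apply, WithLp.prod_inner_apply, map_smul, inner_smul_right] at h1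
    simp only [map_sub, map_smul, map_one, ContinuousLinearMap.sub_apply,
      ContinuousLinearMap.smul_apply, ContinuousLinearMap.one_apply, inner_sub_right,
      inner_smul_right, hc]
    field_simp
    linear_combination -h1
  simpa [ExcAt] using this

structure Tr.Peak (T : Tr A) (C : StarSubalgebra ℂ A) (f : ℕ → A) : Prop where
  mem : ∀ n, f n ∈ C
  chain : Chain f
  null : Tendsto (fun n => ‖T.v (f n)‖) atTop (𝓝 0)
  exc : ∀ a ∈ C, Exc f a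

theorem Tr.Peak.nullSeq {T : Tr A} {C : StarSubalgebra ℂ A} {f : ℕ → A} (h : T.Peak C f) :
    T.NullSeq C f := ⟨h.mem, ⟨1, h.chain.norm_le⟩, h.null⟩

theorem Tr.NullSeq.fix_mem_Sing {T : Tr A} {C : StarSubalgebra ℂ A} {f : ℕ → A}
    (h : T.NullSeq C f) {H : Type} [NormedAddCommGroup H] [InnerProductSpace ℂ H] [CompleteSpace H]
    {ρ : A →⋆ₐ[ℂ] (H →L[ℂ] H)} {ζ : H} (hζ : ζ ∈ Fix ρ f) : ζ ∈ T.Sing ρ C :=
  Tr.mem_Sing_of_tendsto (ζ := ζ) h (by simp only [hζ _]; exact tendsto_const_nhds)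

end Crest.Agent.H3N
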