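import Crest.Agent.H3N.Free

/-! Normal and singular vectors with respect to the trace. -/

set_option autoImplicit false

open scoped InnerProductSpace ComplexOrder
open Filter Topology

noncomputable section

namespace Crest.Agent.H3N
variable {A : Type} [CStarAlgebra A]

theorem norm_one_le' : ‖(1 : A)‖ ≤ 1 := (IsStarProjection.one A).norm_le

theorem norm_one_sub_star_mul_le {g : A} (hg : ‖g‖ ≤ 1) : ‖1 - star g * g‖ ≤ 1 := by
  let _ := CStarAlgebra.spectralOrder A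
  have _ := CStarAlgebra.spectralOrderedRing A
  have h1 : star g * g ≤ 1 := by
    rw [← CStarAlgebra.norm_le_one_iff_of_nonneg _ (star_mul_self_nonneg g),
      CStarRing.norm_star_mul_self]
    nlinarith [norm_nonneg g]
  rw [CStarAlgebra.norm_le_one_iff_of_nonneg _ (sub_nonneg.mpr h1)]
  exact sub_le_self _ (star_mul_self_nonneg g)

theorem exists_ek {C : StarSubalgebra ℂ A} (hC : IsClosed (C : Set A)) {h : A} (hh : h ∈ C)
    (hs : IsSelfAdjoint h) {t : ℝ} (ht : 0 < t) :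
    ∃ e ∈ C, ∃ k ∈ C, IsSelfAdjoint e ∧ IsSelfAdjoint k ∧ ‖e‖ ≤ 1 ∧ 1 - e = k * h ∧
      ‖e * h * e‖ ≤ t ∧ ‖k‖ ≤ 1 / t ∧ ‖k * h * k‖ ≤ 1 / t := by
  have hp : ∀ s : ℝ, 0 < t ^ 2 + s ^ 2 := fun s => by positivity
  have c1 : Continuous fun s : ℝ => t ^ 2 / (t ^ 2 + s ^ 2) :=
    Continuous.div (by fun_prop) (by fun_prop) fun s => (hp s).ne'
  have c2 : Continuous fun s : ℝ => s / (t ^ 2 + s ^ 2) :=
    Continuous.div (by fun_prop) (by fun_prop) fun s => (hp s).ne'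
  have hab : ∀ s : ℝ, |s| * t ≤ t ^ 2 + s ^ 2 := fun s => by
    nlinarith [sq_nonneg (|s| - t), sq_abs s, abs_nonneg s]
  have mul3 : ∀ g : ℝ → ℝ, Continuous g →
      cfc g h * h * cfc g h = cfc (fun s => g s * s * g s) h := by
    intro g hg
    rw [cfc_mul (fun s => g s * s) g h (by fun_prop) hg.continuousOn,
      cfc_mul g (fun s => s) h hg.continuousOn (by fun_prop), cfc_id' ℝ h]
  refine ⟨cfc (fun s : ℝ => t ^ 2 / (t ^ 2 + s ^ 2)) h, cfc_mem _ hh,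
    cfc (fun s : ℝ => s / (t ^ 2 + s ^ 2)) h, cfc_mem _ hh, cfc_predicate _ _, cfc_predicate _ _,
    norm_cfc_le zero_le_one fun s _ => ?_, ?_, ?_, norm_cfc_le (by positivity) fun s _ => ?_, ?_⟩
  · rw [Real.norm_eq_abs, abs_of_nonneg (by positivity), div_le_one (hp s)]
    nlinarith [sq_nonneg s]
  · nth_rewrite 3 [← cfc_id' ℝ h]
    rw [← cfc_mul _ _ h c2.continuousOn (by fun_prop), ← cfc_one ℝ h,
      ← cfc_sub _ _ h (by fun_prop) c1.continuousOn]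
    refine cfc_congr fun s _ => ?_
    have := (hp s).ne'
    simp only [Pi.one_apply]
    field_simp
    ring
  · rw [mul3 _ c1]
    refine norm_cfc_le ht.le fun s _ => ?_
    have h1 : t ^ 2 / (t ^ 2 + s ^ 2) ≤ 1 := by rw [div_le_one (hp s)]; nlinarith [sq_nonneg s]
    have h2 : t ^ 2 / (t ^ 2 + s ^ 2) * |s| ≤ t := by
      rw [div_mul_eq_mul_div, div_le_iff₀ (hp s)]; nlinarith [hab s]
    rw [Real.norm_eq_abs, abs_mul, abs_mul, abs_of_nonneg (a := t ^ 2 / _) (by positivity)]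
    calc _ ≤ t * 1 := by gcongr
      _ = t := mul_one t
  · rw [Real.norm_eq_abs, abs_div, abs_of_pos (hp s), div_le_div_iff₀ (hp s) ht, one_mul]
    exact hab s
  · rw [mul3 _ c2]
    refine norm_cfc_le (by positivity) fun s _ => ?_
    have h1 : |s| / (t ^ 2 + s ^ 2) * |s| ≤ 1 := by
      rw [div_mul_eq_mul_div, div_le_one (hp s), abs_mul_abs_self]; nlinarith [sq_nonneg t]
    have h2 : |s| / (t ^ 2 + s ^ 2) ≤ 1 / t := by
      rw [div_le_div_iff₀ (hp s) ht, one_mul]; exact hab s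
    rw [Real.norm_eq_abs, abs_mul, abs_mul, abs_div, abs_of_pos (hp s)]
    calc _ ≤ 1 * (1 / t) := by gcongr
      _ = _ := one_mul _

/-- `K` is invariant under `ρ(C)` -/
def Inv {H : Type} [NormedAddCommGroup H] [InnerProductSpace ℂ H] [CompleteSpace H]
    (ρ : A →⋆ₐ[ℂ] (H →L[ℂ] H)) (C : StarSubalgebra ℂ A) (K : Submodule ℂ H) : Prop :=
  ∀ c ∈ C, ∀ ζ ∈ K, ρ c ζ ∈ K

theorem tendsto_zero_of_le {E : Type} [NormedAddCommGroup E] {f : ℕ → E} {g : ℕ → ℝ}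
    (h : ∀ n, ‖f n‖ ≤ g n) (hg : Tendsto g atTop (𝓝 0)) : Tendsto f atTop (𝓝 0) :=
  squeeze_zero_norm h hg

namespace Tr
variable (T : Tr A) {H : Type} [NormedAddCommGroup H] [InnerProductSpace ℂ H] [CompleteSpace H]
  (ρ : A →⋆ₐ[ℂ] (H →L[ℂ] H))

structure NullSeq (C : StarSubalgebra ℂ A) (g : ℕ → A) : Prop where
  mem : ∀ n, g n ∈ C
  bdd : ∃ M, ∀ n, ‖g n‖ ≤ M
  null : Tendsto (fun n => ‖T.v (g n)‖) atTop (𝓝 0)

def Nor (C : StarSubalgebra ℂ A) : Submodule ℂ H where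
  carrier := {ζ | ∀ g, T.NullSeq C g → Tendsto (fun n => ρ (g n) ζ) atTop (𝓝 0)}
  add_mem' := fun {a b} ha hb g hg => by simpa using (ha g hg).add (hb g hg)
  zero_mem' := fun g _ => by simp
  smul_mem' := fun r a ha g hg => by simpa using (ha g hg).const_smul r

def Sing (C : StarSubalgebra ℂ A) : Submodule ℂ H := (T.Nor ρ C)ᗮ

variable {T ρ}
theorem mem_Nor {C : StarSubalgebra ℂ A} {ζ : H} :
    ζ ∈ T.Nor ρ C ↔ ∀ g, T.NullSeq C g → Tendsto (fun n => ρ (g n) ζ) atTop (𝓝 0) := Iff.rfl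

theorem mem_Sing {C : StarSubalgebra ℂ A} {ζ : H} :
    ζ ∈ T.Sing ρ C ↔ ∀ η ∈ T.Nor ρ C, ⟪η, ζ⟫_ℂ = 0 := Iff.rfl

theorem isClosed_Nor (C : StarSubalgebra ℂ A) : IsClosed (T.Nor ρ C : Set H) := by
  refine isClosed_of_closure_subset fun ζ hζ g hg => ?_
  obtain ⟨M, hM⟩ := hg.bdd
  have hM0 : 0 ≤ M := (norm_nonneg _).trans (hM 0)
  rw [Metric.tendsto_atTop]
  intro ε hε
  obtain ⟨η, hη, h1⟩ := Metric.mem_closure_iff.mp hζ (ε / 2 / (M + 1)) (by positivity)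
  obtain ⟨N, hN⟩ := Metric.tendsto_atTop.mp (hη g hg) (ε / 2) (by positivity)
  refine ⟨N, fun n hn => ?_⟩
  have h2 := hN n hn
  rw [dist_zero_right] at h2 ⊢
  rw [dist_eq_norm, lt_div_iff₀ (by positivity)] at h1
  have h3 : ρ (g n) ζ = ρ (g n) (ζ - η) + ρ (g n) η := by simp
  have h4 : ‖ρ (g n) (ζ - η)‖ ≤ M * ‖ζ - η‖ := (rep_norm_le _ _ _).trans (by gcongr; exact hM n)
  rw [h3]
  refine (norm_add_le _ _).trans_lt ?_
  nlinarith [norm_nonneg (ζ - η)]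

theorem isClosed_Sing (C : StarSubalgebra ℂ A) : IsClosed (T.Sing ρ C : Set H) :=
  Submodule.isClosed_orthogonal _

theorem NullSeq.mul_right {C : StarSubalgebra ℂ A} {g : ℕ → A} (hg : T.NullSeq C g) {c : A}
    (hc : c ∈ C) : T.NullSeq C fun n => g n * c := by
  obtain ⟨M, hM⟩ := hg.bdd
  refine ⟨fun n => mul_mem (hg.mem n) hc, ⟨M * ‖c‖, fun n => (norm_mul_le _ _).trans (by
    gcongr; exact hM n)⟩, ?_⟩
  refine squeeze_zero (fun _ => norm_nonneg _) (fun n => T.norm_v_mul_le' _ _) ?_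
  simpa using hg.null.mul_const ‖c‖

theorem NullSeq.star {C : StarSubalgebra ℂ A} {g : ℕ → A} (hg : T.NullSeq C g) :
    T.NullSeq C fun n => star (g n) :=
  ⟨fun n => star_mem (hg.mem n), by simpa using hg.bdd, by simpa [norm_v_star] using hg.null⟩

theorem NullSeq.mono {C X : StarSubalgebra ℂ A} {g : ℕ → A} (hg : T.NullSeq C g) (h : C ≤ X) :
    T.NullSeq X g := ⟨fun n => h (hg.mem n), hg.bdd, hg.null⟩

theorem inv_Nor (C : StarSubalgebra ℂ A) : Inv ρ C (T.Nor ρ C) := fun c hc ζ hζ g hg => by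
  simpa [rep_mul] using hζ _ (hg.mul_right hc)

theorem _root_.Crest.Agent.H3N.Inv.orth {C : StarSubalgebra ℂ A} {K : Submodule ℂ H}
    (h : Inv ρ C K) : Inv ρ C Kᗮ := fun c hc ζ hζ η hη => by
  rw [rep_inner_right]; exact hζ _ (h _ (star_mem hc) _ hη)

theorem _root_.Crest.Agent.H3N.Inv.mono {C X : StarSubalgebra ℂ A} {K : Submodule ℂ H}
    (h : Inv ρ X K) (hC : C ≤ X) : Inv ρ C K := fun c hc => h c (hC hc)

theorem _root_.Crest.Agent.H3N.Inv.inf {C : StarSubalgebra ℂ A} {K K' : Submodule ℂ H}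
    (h : Inv ρ C K) (h' : Inv ρ C K') : Inv ρ C (K ⊓ K') :=
  fun c hc ζ hζ => ⟨h c hc ζ hζ.1, h' c hc ζ hζ.2⟩

theorem inv_Sing (C : StarSubalgebra ℂ A) : Inv ρ C (T.Sing ρ C) := (inv_Nor C).orth

theorem Nor_anti {C X : StarSubalgebra ℂ A} (h : C ≤ X) : T.Nor ρ X ≤ T.Nor ρ C :=
  fun _ hζ g hg => hζ g (hg.mono h)

theorem Sing_mono {C X : StarSubalgebra ℂ A} (h : C ≤ X) : T.Sing ρ C ≤ T.Sing ρ X :=
  Submodule.orthogonal_le (Nor_anti h)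

theorem mem_Sing_of_tendsto {C : StarSubalgebra ℂ A} {f : ℕ → A} (hf : T.NullSeq C f) {ζ ξ : H}
    (h : Tendsto (fun n => ρ (f n) ζ) atTop (𝓝 ξ)) : ξ ∈ T.Sing ρ C := by
  intro η hη
  have h1 : Tendsto (fun n => ⟪η, ρ (f n) ζ⟫_ℂ) atTop (𝓝 ⟪η, ξ⟫_ℂ) := tendsto_const_nhds.inner h
  have h2 : Tendsto (fun n => ⟪ρ (star (f n)) η, ζ⟫_ℂ) atTop (𝓝 ⟪(0 : H), ζ⟫_ℂ) :=
    (hη _ hf.star).inner tendsto_const_nhds
  simp only [← rep_inner_right, inner_zero_left] at h2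
  exact tendsto_nhds_unique h1 h2

theorem mem_Nor_of_orth {C : StarSubalgebra ℂ A} {ζ : H}
    (h : ∀ η ∈ T.Sing ρ C, ⟪η, ζ⟫_ℂ = 0) : ζ ∈ T.Nor ρ C := by
  have := (isClosed_Nor (T := T) (ρ := ρ) C).completeSpace_coe
  rw [← Submodule.orthogonal_orthogonal (T.Nor ρ C)]
  exact h

theorem inner_Sing_Nor {C : StarSubalgebra ℂ A} {ζ η : H} (h : ζ ∈ T.Sing ρ C)
    (h' : η ∈ T.Nor ρ C) : ⟪ζ, η⟫_ℂ = 0 := inner_eq_zero_symm.mp (h η h')

variable (T ρ)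
theorem decomp (C : StarSubalgebra ℂ A) (ζ : H) :
    ∃ f, T.NullSeq C f ∧ (∀ n, ‖f n‖ ≤ 2) ∧ ∃ ξ, Tendsto (fun n => ρ (f n) ζ) atTop (𝓝 ξ) ∧
      ζ - ξ ∈ T.Nor ρ C := by
  -- `K δ`: admissible contractions
  set K : ℝ → Set A := fun δ => {p | 1 - p ∈ C ∧ ‖p‖ ≤ 1 ∧ ‖T.v (1 - p)‖ ≤ δ} with hK
  set d : ℝ → ℝ := fun δ => sInf ((fun p => ‖ρ p ζ‖) '' K δ) with hd
  have h1K : ∀ δ, 0 ≤ δ → (1 : A) ∈ K δ := fun δ hδ =>
    ⟨by simp, norm_one_le', by simpa using hδ⟩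
  have hbd : ∀ δ, BddBelow ((fun p => ‖ρ p ζ‖) '' K δ) :=
    fun δ => ⟨0, by rintro _ ⟨p, -, rfl⟩; exact norm_nonneg _⟩
  have hle : ∀ δ, ∀ p ∈ K δ, d δ ≤ ‖ρ p ζ‖ := fun δ p hp => csInf_le (hbd δ) ⟨p, hp, rfl⟩
  have hd0 : ∀ δ, 0 ≤ d δ := fun δ => Real.sInf_nonneg (by rintro _ ⟨p, -, rfl⟩; exact norm_nonneg _)
  have hanti : ∀ δ δ', 0 ≤ δ → δ ≤ δ' → d δ' ≤ d δ := fun δ δ' h0 h =>
    le_csInf ⟨_, 1, h1K δ h0, rfl⟩ (by
      rintro _ ⟨p, hp, rfl⟩; exact hle _ p ⟨hp.1, hp.2.1, hp.2.2.trans h⟩)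
  set u : ℕ → ℝ := fun n => 1 / ((n : ℝ) + 1) with hu
  have hu0 : ∀ n, 0 < u n := fun n => Nat.one_div_pos_of_nat
  have hul : Tendsto u atTop (𝓝 0) := tendsto_one_div_add_atTop_nhds_zero_nat
  have hua : Antitone u := fun a b h => Nat.one_div_le_one_div h
  have hmono : Monotone fun n => d (u n) := fun a b h => hanti _ _ (hu0 b).le (hua h)
  have hbdd : BddAbove (Set.range fun n => d (u n)) := ⟨‖ρ 1 ζ‖, by
    rintro _ ⟨n, rfl⟩; exact hle _ _ (h1K _ (hu0 n).le)⟩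
  set D := ⨆ n, d (u n)
  have hD : Tendsto (fun n => d (u n)) atTop (𝓝 D) := tendsto_atTop_ciSup hmono hbdd
  have hDle : ∀ n, d (u n) ≤ D := fun n => le_ciSup hbdd n
  have hD0 : 0 ≤ D := (hd0 _).trans (hDle 0)
  have hex : ∀ n, ∃ p ∈ K (u n), ‖ρ p ζ‖ < d (u n) + u n := fun n => by
    obtain ⟨_, ⟨p, hp, rfl⟩, h⟩ := exists_lt_of_csInf_lt (s := (fun p => ‖ρ p ζ‖) '' K (u n))
      ⟨_, 1, h1K _ (hu0 n).le, rfl⟩ (lt_add_of_pos_right (d (u n)) (hu0 n))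
    exact ⟨p, hp, h⟩
  choose p hp hp' using hex
  have hcau : CauchySeq fun n => ρ (p n) ζ := by
    have hlim : Tendsto (fun N => √(4 * (D + u N) ^ 2 - 4 * d (u N) ^ 2)) atTop (𝓝 0) := by
      have := ((((tendsto_const_nhds (x := D)).add hul).pow 2).const_mul 4).sub
        ((hD.pow 2).const_mul 4)
      have h2 := this.sqrt
      simpa using h2
    refine cauchySeq_of_le_tendsto_0 _ (fun n m N hn hm => ?_) hlim
    rw [dist_eq_norm]
    refine Real.le_sqrt_of_sq_le ?_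
    have hmid : (1 / 2 : ℂ) • (p n + p m) ∈ K (u N) := by
      have e : 1 - (1 / 2 : ℂ) • (p n + p m) = (1 / 2 : ℂ) • ((1 - p n) + (1 - p m)) := by module
      refine ⟨?_, ?_, ?_⟩
      · rw [e]; exact SMulMemClass.smul_mem _ (add_mem (hp n).1 (hp m).1)
      · rw [norm_smul]
        have := norm_add_le (p n) (p m)
        have h1 := (hp n).2.1
        have h2 := (hp m).2.1
        norm_num; linarith
      · rw [e, map_smul, norm_smul, map_add]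
        have := norm_add_le (T.v (1 - p n)) (T.v (1 - p m))
        have h1 := (hp n).2.2.trans (hua hn)
        have h2 := (hp m).2.2.trans (hua hm)
        norm_num at this h1 h2 ⊢; linarith
    have h1 := hle _ _ hmid
    have h2 : ‖ρ ((1 / 2 : ℂ) • (p n + p m)) ζ‖ = ‖ρ (p n) ζ + ρ (p m) ζ‖ / 2 := by
      rw [map_smul, map_add, ContinuousLinearMap.smul_apply, norm_smul]; simp; ring
    have h3 := parallelogram_law_with_norm ℂ (ρ (p n) ζ) (ρ (p m) ζ)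
    have h4 : ‖ρ (p n) ζ‖ ≤ D + u N := by linarith [hp' n, hDle n, hua hn]
    have h5 : ‖ρ (p m) ζ‖ ≤ D + u N := by linarith [hp' m, hDle m, hua hm]
    rw [h2] at h1
    nlinarith [hd0 (u N), norm_nonneg (ρ (p n) ζ), norm_nonneg (ρ (p m) ζ)]
  obtain ⟨x, hx⟩ := cauchySeq_tendsto_of_complete hcau
  have hxD : ‖x‖ ≤ D := by
    have : Tendsto (fun n => d (u n) + u n) atTop (𝓝 (D + 0)) := hD.add hul
    rw [add_zero] at this
    exact le_of_tendsto_of_tendsto' hx.norm this fun n => (hp' n).le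
  refine ⟨fun n => 1 - p n, ⟨fun n => (hp n).1, ⟨2, fun n => ?_⟩, ?_⟩, fun n => ?_, ζ - x, ?_, ?_⟩
  · exact (norm_sub_le _ _).trans (by linarith [norm_one_le' (A := A), (hp n).2.1])
  · exact squeeze_zero (fun _ => norm_nonneg _) (fun n => (hp n).2.2) hul
  · exact (norm_sub_le _ _).trans (by linarith [norm_one_le' (A := A), (hp n).2.1])
  · simpa using hx.const_sub ζ
  rw [sub_sub_cancel]
  -- key estimate for contractions
  have key : ∀ g ∈ C, ‖g‖ ≤ 1 → ∀ N, ‖T.v g‖ < u N → ‖ρ g x‖ ^ 2 ≤ D ^ 2 - d (u N) ^ 2 := by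
    intro g hg hg1 N hN
    have hq := norm_one_sub_star_mul_le hg1
    have h1 : d (u N) ≤ ‖ρ (1 - star g * g) x‖ := by
      refine ge_of_tendsto (((ρ (1 - star g * g)).continuous.tendsto x).comp hx).norm ?_
      filter_upwards [hul.eventually (gt_mem_nhds (sub_pos.mpr hN))] with m hm
      have := hle (u N) ((1 - star g * g) * p m) ⟨?_, ?_, ?_⟩
      · rwa [rep_mul] at this
      · have : 1 - (1 - star g * g) * p m = (1 - p m) + star g * g * (1 - (1 - p m)) := by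
          noncomm_ring
        rw [this]
        exact add_mem (hp m).1 (mul_mem (mul_mem (star_mem hg) hg) (sub_mem (one_mem _) (hp m).1))
      · exact (norm_mul_le _ _).trans (mul_le_one₀ hq (norm_nonneg _) (hp m).2.1)
      · have : 1 - (1 - star g * g) * p m = (1 - p m) + star g * (g * p m) := by noncomm_ring
        rw [this, map_add]
        refine (norm_add_le _ _).trans ?_
        have h2 : ‖T.v (star g * (g * p m))‖ ≤ 1 * (‖T.v g‖ * 1) := by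
          refine (T.norm_v_mul_le _ _).trans ?_
          gcongr
          · simpa using hg1
          · exact (T.norm_v_mul_le' _ _).trans (by gcongr; exact (hp m).2.1)
        linarith [(hp m).2.2]
    have h2 : ρ (1 - star g * g) x = x - ρ (star g) (ρ g x) := by simp
    have h3 : ‖ρ (star g) (ρ g x)‖ ≤ ‖ρ g x‖ :=
      (rep_norm_le _ _ _).trans (mul_le_of_le_one_left (norm_nonneg _) (by simpa using hg1))
    have h4 := norm_sub_sq (𝕜 := ℂ) x (ρ (star g) (ρ g x))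
    rw [← rep_inner_left, inner_self_eq_norm_sq_to_K] at h4
    have h5 : RCLike.re (((‖ρ g x‖ : ℝ) : ℂ) ^ 2) = ‖ρ g x‖ ^ 2 := by
      rw [← Complex.ofReal_pow]; exact Complex.ofReal_re _
    rw [h2] at h1
    erw [h5] at h4
    nlinarith [hd0 (u N), norm_nonneg x, norm_nonneg (ρ (star g) (ρ g x))]
  intro g hg
  obtain ⟨M, hM⟩ := hg.bdd
  have hM0 : 0 < M + 1 := by linarith [(norm_nonneg _).trans (hM 0)]
  have hc : ∀ n, g n = ((M + 1 : ℝ) : ℂ) • (((M + 1 : ℝ) : ℂ)⁻¹ • g n) := fun n => by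
    rw [smul_inv_smul₀]; exact_mod_cast hM0.ne'
  have hn : ‖((M + 1 : ℝ) : ℂ)⁻¹‖ = (M + 1)⁻¹ := by
    rw [norm_inv, Complex.norm_real, Real.norm_eq_abs, abs_of_pos hM0]
  have h0 : Tendsto (fun n => ρ (((M + 1 : ℝ) : ℂ)⁻¹ • g n) x) atTop (𝓝 0) := by
    rw [Metric.tendsto_atTop]
    intro ε hε
    have h1 : Tendsto (fun N => D ^ 2 - d (u N) ^ 2) atTop (𝓝 (D ^ 2 - D ^ 2)) :=
      (hD.pow 2).const_sub _
    rw [sub_self] at h1
    obtain ⟨N, hN⟩ := (h1.eventually (gt_mem_nhds (show 0 < ε ^ 2 by positivity))).exists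
    have h2 : Tendsto (fun n => (M + 1)⁻¹ * ‖T.v (g n)‖) atTop (𝓝 0) := by
      simpa using hg.null.const_mul (M + 1)⁻¹
    obtain ⟨n₀, hn₀⟩ := eventually_atTop.mp (h2.eventually (gt_mem_nhds (hu0 N)))
    refine ⟨n₀, fun n hn' => ?_⟩
    have := key (((M + 1 : ℝ) : ℂ)⁻¹ • g n) (SMulMemClass.smul_mem _ (hg.mem n)) (by
      rw [norm_smul, hn, inv_mul_le_iff₀ hM0]; linarith [hM n]) N (by
      rw [map_smul, norm_smul, hn]; exact hn₀ n hn')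
    rw [dist_zero_right]
    exact lt_of_pow_lt_pow_left₀ 2 hε.le (this.trans_lt hN)
  have := h0.const_smul ((M + 1 : ℝ) : ℂ)
  rw [smul_zero] at this
  refine this.congr fun n => ?_
  conv_rhs => rw [hc n, map_smul]
  rfl

theorem decomp_mem (C : StarSubalgebra ℂ A) (ζ : H) :
    ∃ s ∈ T.Sing ρ C, ζ - s ∈ T.Nor ρ C ∧
      ∀ K : Submodule ℂ H, IsClosed (K : Set H) → Inv ρ C K → ζ ∈ K → s ∈ K := by
  obtain ⟨f, hf, -, ξ, h1, h2⟩ := T.decomp ρ C ζ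
  exact ⟨ξ, mem_Sing_of_tendsto hf h1, h2, fun K hK hi hζ =>
    hK.mem_of_tendsto h1 (.of_forall fun n => hi _ (hf.mem n) _ hζ)⟩

variable {T ρ}
theorem exists_null_of_Sing {C : StarSubalgebra ℂ A} {ζ : H} (hζ : ζ ∈ T.Sing ρ C) :
    ∃ f, T.NullSeq C f ∧ (∀ n, ‖f n‖ ≤ 2) ∧ Tendsto (fun n => ρ (f n) ζ) atTop (𝓝 ζ) := by
  obtain ⟨f, hf, hb, ξ, h1, h2⟩ := T.decomp ρ C ζ
  have h3 : ζ - ξ = 0 :=
    inner_self_eq_zero.mp ((sub_mem hζ (mem_Sing_of_tendsto hf h1)) _ h2)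
  rw [sub_eq_zero] at h3
  exact ⟨f, hf, hb, h3 ▸ h1⟩

/-- vanishing of matrix coefficients between singular vectors -/
def VQ (T : Tr A) (ρ : A →⋆ₐ[ℂ] (H →L[ℂ] H)) (C : StarSubalgebra ℂ A) (K : Submodule ℂ H) :
    Submodule ℂ A where
  carrier := {b | ∀ ζ ∈ K, ζ ∈ T.Sing ρ C → ∀ ζ' ∈ T.Sing ρ C, ⟪ζ', ρ b ζ⟫_ℂ = 0}
  add_mem' := fun {a b} ha hb ζ h1 h2 ζ' h3 => by
    simp [inner_add_right, ha ζ h1 h2 ζ' h3, hb ζ h1 h2 ζ' h3]
  zero_mem' := fun ζ h1 h2 ζ' h3 => by simp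
  smul_mem' := fun r a ha ζ h1 h2 ζ' h3 => by simp [inner_smul_right, ha ζ h1 h2 ζ' h3]

theorem mem_VQ {C : StarSubalgebra ℂ A} {K : Submodule ℂ H} {b : A} : b ∈ T.VQ ρ C K ↔
    ∀ ζ ∈ K, ζ ∈ T.Sing ρ C → ∀ ζ' ∈ T.Sing ρ C, ⟪ζ', ρ b ζ⟫_ℂ = 0 := Iff.rfl

theorem isClosed_VQ (C : StarSubalgebra ℂ A) (K : Submodule ℂ H) :
    IsClosed (T.VQ ρ C K : Set A) := by
  have : (T.VQ ρ C K : Set A) = ⋂ ζ ∈ K, ⋂ _ : ζ ∈ T.Sing ρ C, ⋂ ζ' ∈ T.Sing ρ C,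
      {b | ⟪ζ', ρ b ζ⟫_ℂ = 0} := by
    ext b; simp [mem_VQ]
  rw [this]
  exact isClosed_biInter fun ζ _ => isClosed_iInter fun _ => isClosed_biInter fun ζ' _ =>
    isClosed_eq (continuous_const.inner (rep_cont ρ ζ)) continuous_const

namespace FreeSys
variable {B : Bool → StarSubalgebra ℂ A} {C : StarSubalgebra ℂ A} (F : T.FreeSys B C)
include F

theorem exists_small {j : Bool} {ζ : H} (h1 : ζ ∈ T.Nor ρ C) (h2 : ζ ∈ T.Sing ρ (B j)) {δ : ℝ}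
    (hδ : 0 < δ) : ∃ f ∈ B j, ‖f‖ ≤ 2 ∧ T.Small C f δ ∧ ‖ρ f ζ - ζ‖ < δ := by
  obtain ⟨f, hf, hb, hl⟩ := exists_null_of_Sing h2
  choose c hc hc' using fun n => F.exp j _ (mul_mem (hf.mem n) (star_mem (hf.mem n)))
  have hsa : ∀ n, IsSelfAdjoint (c n) := fun n =>
    exp_selfAdjoint (hc n) (hc' n) (IsSelfAdjoint.mul_star_self _)
  choose r hr k hk r1 k1 r2 r3 r4 r5 r6 using
    fun n => exists_ek F.closed (hc n) (hsa n) (show 0 < δ ^ 2 by positivity)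
  have hnull : T.NullSeq C fun n => 1 - r n := by
    refine ⟨fun n => sub_mem (one_mem _) (hr n), ⟨2, fun n => (norm_sub_le _ _).trans (by
      linarith [norm_one_le' (A := A), r2 n])⟩, ?_⟩
    refine squeeze_zero (g := fun n => 1 / δ ^ 2 * (‖T.v (f n)‖ * 2)) (fun _ => norm_nonneg _)
      (fun n => ?_) (by simpa only [zero_mul, mul_zero] using (hf.null.mul_const 2).const_mul (1 / δ ^ 2))
    rw [r3]
    refine (T.norm_v_mul_le _ _).trans ?_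
    gcongr
    · exact r5 n
    · refine (norm_v_exp_le (hc n) (hc' n)).trans ((T.norm_v_mul_le' _ _).trans ?_)
      gcongr; simpa using hb n
  have h3 := (h1 _ hnull).norm
  have h4 := (tendsto_iff_norm_sub_tendsto_zero.mp hl).add h3
  rw [norm_zero, add_zero] at h4
  obtain ⟨n, hn⟩ := (h4.eventually (gt_mem_nhds hδ)).exists
  refine ⟨r n * f n, mul_mem (F.le j (hr n)) (hf.mem n), ?_, ⟨r n * c n * r n,
    mul_mem (mul_mem (hr n) (hc n)) (hr n), ?_, r4 n⟩, lt_of_le_of_lt ?_ hn⟩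
  · exact (norm_mul_le _ _).trans (by nlinarith [r2 n, hb n, norm_nonneg (r n), norm_nonneg (f n)])
  · have : r n * f n * star (r n * f n) - r n * c n * r n
        = r n * (f n * star (f n) - c n) * r n := by
      rw [star_mul, (r1 n).star_eq]; noncomm_ring
    rw [this]
    exact perp_mul_r (hr n) (perp_mul_l (hr n) (hc' n))
  · have : ρ (r n * f n) ζ - ζ = ρ (r n) (ρ (f n) ζ - ζ) - ρ (1 - r n) ζ := by simp
    rw [this]
    refine (norm_sub_le _ _).trans ?_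
    gcongr
    exact (rep_norm_le _ _ _).trans (mul_le_of_le_one_left (norm_nonneg _) (r2 n))

theorem core {j j' : Bool} {w : A} {ζ ζ' : H} (h1 : ζ ∈ T.Nor ρ C) (h2 : ζ ∈ T.Sing ρ (B j'))
    (h1' : ζ' ∈ T.Nor ρ C) (h2' : ζ' ∈ T.Sing ρ (B j))
    (hw : ∀ f ∈ B j, ∀ f' ∈ B j', ∀ δ, 0 ≤ δ → T.Small C f δ → T.Small C f' δ →
      ‖star f * w * f'‖ ≤ ‖w‖ * (‖f‖ * δ + δ * ‖f'‖)) : ⟪ζ', ρ w ζ⟫_ℂ = 0 := by
  set u : ℕ → ℝ := fun n => 1 / ((n : ℝ) + 1) with hu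
  have hu0 : ∀ n, 0 < u n := fun n => Nat.one_div_pos_of_nat
  have hul : Tendsto u atTop (𝓝 0) := tendsto_one_div_add_atTop_nhds_zero_nat
  choose f' a1 a2 a3 a4 using fun n => F.exists_small h1 h2 (hu0 n)
  choose f b1 b2 b3 b4 using fun n => F.exists_small h1' h2' (hu0 n)
  have l1 : Tendsto (fun n => ρ (f' n) ζ) atTop (𝓝 ζ) :=
    tendsto_iff_norm_sub_tendsto_zero.mpr
      (squeeze_zero (fun _ => norm_nonneg _) (fun n => (a4 n).le) hul)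
  have l2 : Tendsto (fun n => ρ (f n) ζ') atTop (𝓝 ζ') :=
    tendsto_iff_norm_sub_tendsto_zero.mpr
      (squeeze_zero (fun _ => norm_nonneg _) (fun n => (b4 n).le) hul)
  have l3 : Tendsto (fun n => ⟪ρ (f n) ζ', ρ w (ρ (f' n) ζ)⟫_ℂ) atTop (𝓝 ⟪ζ', ρ w ζ⟫_ℂ) :=
    l2.inner (((ρ w).continuous.tendsto ζ).comp l1)
  refine tendsto_nhds_unique l3 (tendsto_zero_of_le
    (g := fun n => ‖ζ'‖ * (‖w‖ * (2 * u n + u n * 2) * ‖ζ‖)) (fun n => ?_) ?_)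
  · rw [rep_inner_left, ← rep_mul, ← rep_mul]
    refine (norm_inner_le_norm _ _).trans ?_
    gcongr
    refine (rep_norm_le _ _ _).trans ?_
    gcongr
    refine (hw _ (b1 n) _ (a1 n) _ (hu0 n).le (b3 n) (a3 n)).trans ?_
    have := (hu0 n).le
    gcongr
    exacts [b2 n, a2 n]
  · simpa using ((((hul.const_mul 2).add (hul.mul_const 2)).const_mul ‖w‖).mul_const
      ‖ζ‖).const_mul ‖ζ'‖

theorem B0_one {i j : Bool} {ζ ζ' : H} (h1 : ζ ∈ T.Nor ρ C) (h2 : ζ ∈ T.Sing ρ (B j))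
    (hi : i ≠ j) (h3 : ζ' ∈ T.Sing ρ (B i)) : ⟪ζ', ζ⟫_ℂ = 0 := by
  obtain ⟨s, s1, s2, -⟩ := T.decomp_mem ρ C ζ'
  have h4 := F.core (w := 1) h1 h2 s2 (sub_mem h3 (Sing_mono (F.le i) s1))
    fun f hf f' hf' δ hδ hs hs' => F.powers_one hf hf' hδ hδ hs hs' hi.symm
  rw [map_one, inner_sub_left] at h4
  simpa [inner_Sing_Nor s1 h1] using h4

theorem B0 {i j k : Bool} {w : A} {ζ : H} (h1 : ζ ∈ T.Nor ρ C) (h2 : ζ ∈ T.Sing ρ (B j))
    (hw : Alt (T.cen B C) i k w) (hk : k ≠ j) (l : Bool) :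
    ∀ ζ' ∈ T.Sing ρ (B l), ⟪ζ', ρ w ζ⟫_ℂ = 0 := by
  have step : ∀ {i k : Bool} {w : A}, Alt (T.cen B C) i k w → k ≠ j →
      (∀ ζ' ∈ T.Sing ρ (B i), ⟪ζ', ρ w ζ⟫_ℂ = 0) →
      ∀ l, ∀ ζ' ∈ T.Sing ρ (B l), ⟪ζ', ρ w ζ⟫_ℂ = 0 := by
    intro i k w hw hk h l ζ' h3
    by_cases hl : i = l
    · subst hl; exact h ζ' h3
    obtain ⟨s, s1, s2, -⟩ := T.decomp_mem ρ C ζ'
    have h4 := F.core (w := w) h1 h2 s2 (sub_mem h3 (Sing_mono (F.le l) s1))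
      fun f hf f' hf' δ hδ hs hs' => F.powers_alt hf hf' hδ hδ hs hs' hw hl hk
    rw [inner_sub_left, h s (Sing_mono (F.le i) s1), sub_zero] at h4
    exact h4
  induction hw generalizing l with
  | single ha =>
    refine step (.single ha) hk (fun ζ' h3 => ?_) l
    rw [rep_inner_right]
    exact F.B0_one h1 h2 hk (inv_Sing _ _ (star_mem ha.1) _ h3)
  | cons ha hj hw ih =>
    refine step (.cons ha hj hw) hk (fun ζ' h3 => ?_) l
    rw [rep_mul, rep_inner_right]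
    exact ih hk _ _ (inv_Sing _ _ (star_mem ha.1) _ h3)

/-- Lemma B -/
theorem lemB (j : Bool) (hB : IsClosed (B j : Set A)) {K : Submodule ℂ H}
    (hK : IsClosed (K : Set H)) (hi : Inv ρ (B j) K)
    (hv : ∀ a ∈ T.cen B C (!j), a ∈ T.VQ ρ C K) {b : A}
    (hb : b ∈ (B true ⊔ B false).topologicalClosure) : b ∈ T.GG (B j) (T.VQ ρ (B j) K) := by
  refine F.master j hB (isClosed_VQ _ _) ?_ hb
  rintro _ ⟨x, hx, w, hw, y, hy, rfl⟩ ζ₀ k₀ s₀ ζ₀' s₀'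
  rw [rep_mul, rep_mul, rep_inner_right]
  have k1 := hi y hy _ k₀
  have s1 := inv_Sing _ y hy _ s₀
  have s1' := inv_Sing _ _ (star_mem hx) _ s₀'
  generalize ρ y ζ₀ = ζ at k1 s1
  generalize ρ (star x) ζ₀' = ζ' at s1'
  obtain ⟨s, t1, t2, t3⟩ := T.decomp_mem ρ C ζ
  have t4 : s ∈ K := t3 K hK (hi.mono (F.le j)) k1
  have h1 := F.B0 t2 (sub_mem s1 (Sing_mono (F.le j) t1)) hw (not_ne j) j ζ' s1'
  rw [map_sub, inner_sub_right, sub_eq_zero] at h1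
  rw [h1]
  have h2 : ∀ a ∈ T.cen B C (!j), ρ a s ∈ T.Nor ρ C ∧ ρ a s ∈ T.Sing ρ (B (!j)) := fun a ha =>
    ⟨mem_Nor_of_orth (hv a ha s t4 t1), inv_Sing _ a ha.1 _ (Sing_mono (F.le _) t1)⟩
  rcases hw.cases_right with ⟨-, ha⟩ | ⟨a, ha, w', hw', rfl⟩
  · exact F.B0_one (h2 w ha).1 (h2 w ha).2 (not_ne j).symm s1'
  · rw [rep_mul]
    exact F.B0 (h2 a ha).1 (h2 a ha).2 hw' (not_ne _) j ζ' s1'

end FreeSys
end Tr
end Crest.Agent.H3N
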