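import Crest.Agent.H3N.Irred

/-! One step of the tower. -/

set_option autoImplicit false

open scoped InnerProductSpace ComplexOrder
open Filter Topology

noncomputable section

namespace Crest.Agent.H3N
variable {A : Type} [CStarAlgebra A]

/-- two orthogonal decreasing sequences of projections -/
structure Pre0 (E : Bool → ℕ → A) : Prop where
  chain : ∀ b, Chain (E b)
  idem : ∀ b n, E b n * E b n = E b n
  orth : E true 0 * E false 0 = 0

def DD (E : Bool → ℕ → A) : StarSubalgebra ℂ A :=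
  (StarAlgebra.adjoin ℂ (Set.range (Function.uncurry E))).topologicalClosure

theorem isClosed_DD (E : Bool → ℕ → A) : IsClosed (DD E : Set A) :=
  StarSubalgebra.isClosed_topologicalClosure _

theorem mem_DD (E : Bool → ℕ → A) (b : Bool) (n : ℕ) : E b n ∈ DD E :=
  StarSubalgebra.le_topologicalClosure _ (StarAlgebra.subset_adjoin ℂ _ ⟨(b, n), rfl⟩)

theorem DD_le {E : Bool → ℕ → A} {X : StarSubalgebra ℂ A} (hX : IsClosed (X : Set A))
    (h : ∀ b n, E b n ∈ X) : DD E ≤ X :=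
  StarSubalgebra.topologicalClosure_minimal
    (StarAlgebra.adjoin_le (by rintro _ ⟨⟨b, n⟩, rfl⟩; exact h b n)) hX

/-- the atoms of `DD E` -/
def atm (E : Bool → ℕ → A) : Option (Bool × ℕ) → A
  | none => 1 - E true 0 - E false 0
  | some (b, n) => E b n - E b (n + 1)

/-- the atom `j` lies under `E b n` -/
def below (b : Bool) (n : ℕ) : Option (Bool × ℕ) → Prop
  | none => False
  | some (c, m) => c = b ∧ n ≤ m

instance (b : Bool) (n : ℕ) : DecidablePred (below b n) := fun j =>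
  match j with
  | none => isFalse id
  | some (c, m) => inferInstanceAs (Decidable (c = b ∧ n ≤ m))

theorem atm_mem (E : Bool → ℕ → A) (j : Option (Bool × ℕ)) : atm E j ∈ DD E := by
  rcases j with _ | ⟨b, n⟩
  · exact sub_mem (sub_mem (one_mem _) (mem_DD E _ _)) (mem_DD E _ _)
  · exact sub_mem (mem_DD E _ _) (mem_DD E _ _)

namespace Pre0
variable {E : Bool → ℕ → A} (h : Pre0 E)
include h

theorem sa (b : Bool) (n : ℕ) : star (E b n) = E b n := ((h.chain b).sa n).star_eq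

theorem mul_le (b : Bool) {n m : ℕ} (hn : n ≤ m) : E b n * E b m = E b m := by
  rcases hn.eq_or_lt with rfl | hn
  exacts [h.idem b n, (h.chain b).mul_lt hn]

theorem mul_ge (b : Bool) {n m : ℕ} (hn : n ≤ m) : E b m * E b n = E b m := by
  have := congrArg star (h.mul_le b hn)
  rwa [star_mul, h.sa, h.sa] at this

theorem mul_same (b : Bool) (n m : ℕ) : E b n * E b m = E b (max n m) := by
  rcases le_total n m with hn | hn
  · rw [max_eq_right hn, h.mul_le b hn]
  · rw [max_eq_left hn, h.mul_ge b hn]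

theorem mul_ne {b c : Bool} (hb : b ≠ c) (n m : ℕ) : E b n * E c m = 0 := by
  have h1 : E b 0 * E c 0 = 0 := by
    have h2 : E false 0 * E true 0 = 0 := by
      have := congrArg star h.orth
      rwa [star_mul, h.sa, h.sa, star_zero] at this
    cases b <;> cases c <;> simp_all [h.orth]
  rw [← h.mul_ge b (Nat.zero_le n), ← h.mul_le c (Nat.zero_le m), mul_assoc, ← mul_assoc (E b 0), h1]
  simp

theorem p_mul (b : Bool) (n : ℕ) : (E true 0 + E false 0) * E b n = E b n := by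
  cases b
  · rw [add_mul, h.mul_ne (by simp), h.mul_le _ (Nat.zero_le n), zero_add]
  · rw [add_mul, h.mul_ne (b := false) (by simp), h.mul_le _ (Nat.zero_le n), add_zero]

theorem mul_p (b : Bool) (n : ℕ) : E b n * (E true 0 + E false 0) = E b n := by
  have := congrArg star (h.p_mul b n)
  rwa [star_mul, star_add, h.sa, h.sa, h.sa] at this

theorem induction {Q : Submodule ℂ A} (hQ : IsClosed (Q : Set A)) (h1 : (1 : A) ∈ Q)
    (h2 : ∀ b n, E b n ∈ Q) {d : A} (hd : d ∈ DD E) : d ∈ Q := by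
  set S := Submodule.span ℂ (insert (1 : A) (Set.range (Function.uncurry E))) with hS
  have s1 : (1 : A) ∈ S := Submodule.subset_span (Or.inl rfl)
  have s2 : ∀ b n, E b n ∈ S := fun b n => Submodule.subset_span (Or.inr ⟨(b, n), rfl⟩)
  have hle : ∀ {Q : Submodule ℂ A}, (1 : A) ∈ Q → (∀ b n, E b n ∈ Q) → S ≤ Q := fun h1 h2 =>
    Submodule.span_le.mpr (by rintro _ (rfl | ⟨⟨b, n⟩, rfl⟩); exacts [h1, h2 b n])
  refine closure_minimal (fun x hx => hle h1 h2 ?_) hQ hd
  induction hx using StarAlgebra.adjoin_induction with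
  | mem x hx => exact Submodule.subset_span (Or.inr hx)
  | algebraMap r => rw [Algebra.algebraMap_eq_smul_one]; exact S.smul_mem _ s1
  | add x y _ _ h1 h2 => exact add_mem h1 h2
  | mul x y _ _ h1 h2 =>
    refine mem_rq.mp (hle (by simpa using h2) (fun b n => ?_) h1)
    refine mem_lq.mp (hle (by simpa using s2 b n) (fun c m => ?_) h2)
    rw [mem_lq]
    by_cases hb : b = c
    · subst hb; rw [h.mul_same]; exact s2 _ _
    · rw [h.mul_ne hb]; exact zero_mem _
  | star x _ h1 =>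
    refine Submodule.span_induction (p := fun x _ => star x ∈ S) ?_ (by simp)
      (fun x y _ _ h1 h2 => by rw [star_add]; exact add_mem h1 h2)
      (fun r x _ h1 => by rw [star_smul]; exact S.smul_mem _ h1) h1
    rintro _ (rfl | ⟨⟨b, n⟩, rfl⟩)
    · simpa using s1
    · simpa [h.sa] using s2 b n

theorem E_mul_atm (b : Bool) (n : ℕ) (j : Option (Bool × ℕ)) :
    E b n * atm E j = if below b n j then atm E j else 0 := by
  rcases j with _ | ⟨c, m⟩
  · simp only [atm, below, if_false]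
    rw [sub_sub, mul_sub, h.mul_p, mul_one, sub_self]
  · simp only [atm, below, mul_sub]
    by_cases hc : c = b
    · subst hc
      by_cases hn : n ≤ m
      · simp [hn, h.mul_le c hn, h.mul_le c (hn.trans m.le_succ)]
      · simp [hn, h.mul_ge c (not_le.mp hn).le, h.mul_ge c (Nat.succ_le_of_lt (not_le.mp hn))]
    · simp [hc, h.mul_ne (Ne.symm hc)]

theorem atm_sa (j : Option (Bool × ℕ)) : star (atm E j) = atm E j := by
  rcases j with _ | ⟨c, m⟩ <;> simp [atm, h.sa]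

theorem atm_mul_E (b : Bool) (n : ℕ) (j : Option (Bool × ℕ)) :
    atm E j * E b n = if below b n j then atm E j else 0 := by
  have := congrArg star (h.E_mul_atm b n j)
  rw [star_mul, h.sa, h.atm_sa] at this
  rw [this]; split_ifs <;> simp [h.atm_sa]

theorem atm_mul_atm (i j : Option (Bool × ℕ)) :
    atm E i * atm E j = if i = j then atm E j else 0 := by
  rcases i with _ | ⟨b, n⟩
  · rw [show atm E none = 1 - E true 0 - E false 0 from rfl, sub_mul, sub_mul, h.E_mul_atm,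
      h.E_mul_atm]
    rcases j with _ | ⟨_ | _, m⟩ <;> simp [below]
  · rw [show atm E (some (b, n)) = E b n - E b (n + 1) from rfl, sub_mul, h.E_mul_atm, h.E_mul_atm]
    rcases j with _ | ⟨c, m⟩
    · simp [below]
    · by_cases hc : c = b
      · subst hc
        rcases lt_trichotomy n m with hn | rfl | hn
        · simp [below, hn.le, hn, hn.ne]
        · simp [below]
        · simp [below, not_le.mpr hn, hn.ne', not_lt.mpr hn.le]
      · simp [below, hc, Ne.symm hc]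

theorem atm_proj (j : Option (Bool × ℕ)) : IsStarProjection (atm E j) :=
  ⟨by simpa [IsIdempotentElem] using h.atm_mul_atm j j, h.atm_sa j⟩

theorem D_mul_atm {d : A} (hd : d ∈ DD E) (j : Option (Bool × ℕ)) :
    ∃ c : ℂ, d * atm E j = c • atm E j := by
  have := h.induction (Q := rq (atm E j) (Submodule.span ℂ {atm E j}))
    (isClosed_rq (Submodule.closed_of_finiteDimensional _))
    (by simpa using Submodule.mem_span_singleton_self _) (fun b n => by
      rw [mem_rq, h.E_mul_atm]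
      split_ifs
      exacts [Submodule.mem_span_singleton_self _, zero_mem _]) hd
  obtain ⟨c, hc⟩ := Submodule.mem_span_singleton.mp (mem_rq.mp this)
  exact ⟨c, hc.symm⟩

theorem p_comm {d : A} (hd : d ∈ DD E) :
    (E true 0 + E false 0) * d = d * (E true 0 + E false 0) := by
  have := h.induction (Q := LinearMap.ker (LinearMap.mulLeft ℂ (E true 0 + E false 0) -
    LinearMap.mulRight ℂ (E true 0 + E false 0)))
    (isClosed_eq (f := fun x => (E true 0 + E false 0) * x - x * (E true 0 + E false 0))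
      (by fun_prop) continuous_const) (by simp) (fun b n => by
      simp only [LinearMap.mem_ker, LinearMap.sub_apply, LinearMap.mulLeft_apply,
        LinearMap.mulRight_apply, h.p_mul, h.mul_p, sub_self]) hd
  exact sub_eq_zero.mp this

end Pre0

/-- the partial symmetry exchanging the two sequences -/
structure UU (E : Bool → ℕ → A) (u : A) : Prop where
  sa : IsSelfAdjoint u
  comm : ∀ b n, u * E b n = E (!b) n * u
  sq : u * u = E true 0 + E false 0

theorem UU.mul_p {E : Bool → ℕ → A} {u : A} (h : Pre0 E) (hu : UU E u) :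
    u * (E true 0 + E false 0) = u := by
  set p := E true 0 + E false 0 with hp
  have h1 : p * p = p := by rw [hp, mul_add, h.p_mul, h.p_mul]
  have h2 : star p = p := by rw [hp, star_add, h.sa, h.sa]
  have : star (u * (1 - p)) * (u * (1 - p)) = 0 := by
    rw [star_mul, star_sub, star_one, h2, hu.sa.star_eq, mul_assoc, ← mul_assoc u, hu.sq, ← hp,
      mul_sub p, h1]; simp
  have h3 := (CStarRing.star_mul_self_eq_zero_iff _).mp this
  rw [mul_sub, mul_one, sub_eq_zero] at h3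
  exact h3.symm

theorem UU.conj_mem {E : Bool → ℕ → A} {u : A} (h : Pre0 E) (hu : UU E u) {d : A}
    (hd : d ∈ DD E) : u * d * u ∈ DD E := by
  have := h.induction (Q := lq u (rq u (DD E).toSubalgebra.toSubmodule))
    (isClosed_lq (isClosed_rq (isClosed_DD E)))
    (by simpa [hu.sq] using add_mem (mem_DD E true 0) (mem_DD E false 0)) (fun b n => by
      simp only [mem_lq, mem_rq, hu.comm, mul_assoc, hu.sq, h.mul_p]; exact mem_DD E _ _) hd
  exact this

theorem UU.comm_D {E : Bool → ℕ → A} {u : A} (h : Pre0 E) (hu : UU E u) {d : A}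
    (hd : d ∈ DD E) : u * d = u * d * u * u := by
  rw [mul_assoc (u * d), hu.sq, mul_assoc, ← h.p_comm hd, ← mul_assoc, hu.mul_p h]

def NN (E : Bool → ℕ → A) (u : A) : StarSubalgebra ℂ A :=
  StarAlgebra.adjoin ℂ (insert u (DD E : Set A))

def DU (E : Bool → ℕ → A) (u : A) : Set A := {x | ∃ d ∈ DD E, x = d * u}

theorem DD_le_NN (E : Bool → ℕ → A) (u : A) : DD E ≤ NN E u :=
  fun _ hx => StarAlgebra.subset_adjoin ℂ _ (Or.inr hx)

theorem u_mem_NN (E : Bool → ℕ → A) (u : A) : u ∈ NN E u :=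
  StarAlgebra.subset_adjoin ℂ _ (Or.inl rfl)

theorem UU.star_DU {E : Bool → ℕ → A} {u : A} (h : Pre0 E) (hu : UU E u) {x : A}
    (hx : x ∈ DU E u) : star x ∈ DU E u := by
  obtain ⟨d, hd, rfl⟩ := hx
  exact ⟨_, hu.conj_mem h (star_mem hd), by rw [star_mul, hu.sa.star_eq, ← hu.comm_D h (star_mem hd)]⟩

theorem UU.mem_NN {E : Bool → ℕ → A} {u : A} (h : Pre0 E) (hu : UU E u) {x : A}
    (hx : x ∈ NN E u) : ∃ d ∈ DD E, x - d ∈ DU E u := by
  induction hx using StarAlgebra.adjoin_induction with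
  | mem x hx =>
    rcases hx with rfl | hx
    · exact ⟨0, zero_mem _, 1, one_mem _, by simp⟩
    · exact ⟨x, hx, 0, zero_mem _, by simp⟩
  | algebraMap r => exact ⟨_, algebraMap_mem _ r, 0, zero_mem _, by simp⟩
  | add x y _ _ h1 h2 =>
    obtain ⟨a, ha, b, hb, h1⟩ := h1
    obtain ⟨c, hc, d, hd, h2⟩ := h2
    exact ⟨a + c, add_mem ha hc, b + d, add_mem hb hd, by rw [add_mul, ← h1, ← h2]; abel⟩
  | mul x y _ _ h1 h2 =>
    obtain ⟨a, ha, b, hb, h1⟩ := h1
    obtain ⟨c, hc, d, hd, h2⟩ := h2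
    refine ⟨a * c + b * (u * d * u), add_mem (mul_mem ha hc) (mul_mem hb (hu.conj_mem h hd)),
      a * d + b * (u * c * u), add_mem (mul_mem ha hd) (mul_mem hb (hu.conj_mem h hc)), ?_⟩
    rw [sub_eq_iff_eq_add'.mp h1, sub_eq_iff_eq_add'.mp h2]
    have := hu.comm_D h hc
    calc _ = a * d * u + b * (u * c) := by noncomm_ring
      _ = _ := by conv_lhs => rw [this]
                  noncomm_ring
  | star x _ h1 =>
    obtain ⟨a, ha, h1⟩ := h1
    exact ⟨star a, star_mem ha, by rw [← star_sub]; exact hu.star_DU h h1⟩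

namespace Tr
variable (T : Tr A)

structure Pre (E : Bool → ℕ → A) : Prop extends Pre0 E where
  null : ∀ b, Tendsto (fun n => ‖T.v (E b n)‖) atTop (𝓝 0)
  tr : ∀ n, T.τ (E true n) = T.τ (E false n)

structure Task (X : StarSubalgebra ℂ A) (E : Bool → ℕ → A) : Prop extends T.Pre E where
  mem : ∀ b n, E b n ∈ X
  exc : ∀ b, ∀ a ∈ X, Exc (E b) a
  disj : ∀ a ∈ X, Tendsto (fun n => E true n * a * E false n) atTop (𝓝 0)

structure Step (X : StarSubalgebra ℂ A) (E : Bool → ℕ → A) (u : A) : Prop extends UU E u where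
  free : ∀ i k w, Alt (two (T.Cen X (DD E)) (DU E u)) i k w → T.τ w = 0

variable {T}
theorem Pre.perp {E : Bool → ℕ → A} (h : T.Pre E) {x : A} (hx : ∀ j, T.τ (atm E j * x) = 0) :
    x ∈ T.perp (DD E) := by
  have h1 : ∀ b n, T.τ (E b n * x) = 0 := by
    intro b
    have h2 : ∀ n, T.τ (E b n * x) = T.τ (E b 0 * x) := fun n => by
      induction n with
      | zero => rfl
      | succ n ih =>
        have := hx (some (b, n))
        simp only [atm, sub_mul, map_sub] at this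
        rw [← ih, ← sub_eq_zero.mp this]
    have h3 : Tendsto (fun n => T.τ (E b n * x)) atTop (𝓝 0) :=
      tendsto_zero_of_le (fun n => (T.norm_τ_le_v _).trans (T.norm_v_mul_le' _ _))
        (by simpa using (h.null b).mul_const ‖x‖)
    simp only [h2] at h3
    intro n
    rw [h2]; exact tendsto_nhds_unique tendsto_const_nhds h3
  intro d hd
  refine h.toPre0.induction (Q := rq x (LinearMap.ker T.τ.toLinearMap))
    (isClosed_rq T.τ.isClosed_ker) ?_ h1 hd
  have := hx none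
  simp only [atm, sub_mul, map_sub, h1, sub_zero] at this
  exact this

theorem Pre.exp_of_finite {E : Bool → ℕ → A} (h : T.Pre E) {y : A}
    (F : Finset (Option (Bool × ℕ))) (hy : ∀ j ∉ F, T.τ (atm E j * y) = 0) :
    y ∈ T.GG (DD E) ⊤ := by
  refine mem_GG.mpr ⟨∑ j ∈ F, (T.τ (atm E j * y) / T.τ (atm E j)) • atm E j,
    sum_mem fun j _ => SMulMemClass.smul_mem _ (atm_mem E j), h.perp fun i => ?_, trivial⟩
  rw [mul_sub, map_sub, Finset.mul_sum]
  simp only [mul_smul_comm, h.toPre0.atm_mul_atm, smul_ite, smul_zero, Finset.sum_ite_eq]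
  split_ifs with hi
  · rw [map_smul, smul_eq_mul]
    by_cases h0 : T.τ (atm E i) = 0
    · have : atm E i = 0 := T.eq_zero_of_τ (by
        rw [h.toPre0.atm_sa, (h.toPre0.atm_proj i).isIdempotentElem.eq, h0])
      simp [this]
    · rw [div_mul_cancel₀ _ h0, sub_self]
  · simpa using hy i hi

theorem Task.hasExp {X : StarSubalgebra ℂ A} {E : Bool → ℕ → A} (h : T.Task X E) :
    T.HasExp X (DD E) := by
  refine hasExp_iff.mpr fun a ha => ?_
  obtain ⟨c, hc⟩ := h.exc true a ha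
  obtain ⟨c', hc'⟩ := h.exc false a ha
  have h1 := ((tendsto_const_nhds (x := a)).sub hc).sub hc'
  simp only [sub_zero] at h1
  refine (isClosed_GG (isClosed_DD E) (by simp)).mem_of_tendsto h1 (.of_forall fun n => ?_)
  have e : a - E true n * (a - c • 1) * E true n - E false n * (a - c' • 1) * E false n
      = (a - E true n * a * E true n - E false n * a * E false n) +
        (c • E true n + c' • E false n) := by
    simp only [mul_sub, sub_mul, mul_smul_comm, smul_mul_assoc, mul_one, h.idem]; abel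
  rw [e]
  refine add_mem (h.toPre.exp_of_finite
    (insert none ((Finset.univ ×ˢ Finset.range n).image some)) ?_) (Submodule.mem_sup_left
      (add_mem (SMulMemClass.smul_mem _ (mem_DD E _ _)) (SMulMemClass.smul_mem _ (mem_DD E _ _))))
  rintro (_ | ⟨b, m⟩) hj
  · simp at hj
  have hm : n ≤ m := by simpa using hj
  have key : ∀ c, T.τ (atm E (some (b, m)) * (E c n * a * E c n))
      = if b = c then T.τ (atm E (some (b, m)) * a) else 0 := fun c => by
    rw [← mul_assoc, T.τ_comm, ← mul_assoc, ← mul_assoc, h.toPre0.E_mul_atm]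
    by_cases hb : b = c
    · simp [below, hb, hm, h.toPre0.atm_mul_E]
    · simp [below, hb]
  rw [mul_sub, mul_sub, map_sub, map_sub, key, key]
  cases b <;> simp

theorem Pre.mem_Nor {E : Bool → ℕ → A} (h : T.Pre E) {H : Type} [NormedAddCommGroup H]
    [InnerProductSpace ℂ H] [CompleteSpace H] {ρ : A →⋆ₐ[ℂ] (H →L[ℂ] H)} {η : H}
    (hη : ∀ b, Tendsto (fun n => ρ (E b n) η) atTop (𝓝 0)) : η ∈ T.Nor ρ (DD E) := by
  intro g hg
  obtain ⟨M, hM⟩ := hg.bdd
  have hM0 : 0 ≤ M := (norm_nonneg _).trans (hM 0)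
  have h1 : ∀ j, Tendsto (fun m => g m * atm E j) atTop (𝓝 0) := fun j => by
    by_cases h0 : atm E j = 0
    · simp [h0]
    have hv : 0 < ‖T.v (atm E j)‖ := norm_pos_iff.mpr fun h2 => h0 (T.eq_zero_of_v h2)
    refine tendsto_zero_of_le (g := fun m => ‖T.v (g m)‖ * ‖atm E j‖ / ‖T.v (atm E j)‖ * ‖atm E j‖)
      (fun m => ?_) (by simpa using ((hg.null.mul_const _).div_const _).mul_const _)
    obtain ⟨c, hc⟩ := h.toPre0.D_mul_atm (hg.mem m) j
    have := T.norm_v_mul_le' (g m) (atm E j)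
    rw [hc, map_smul, norm_smul] at this
    rw [hc, norm_smul]
    gcongr
    rwa [le_div_iff₀ hv]
  have h2 : ∀ n, Tendsto (fun m => g m * (1 - E true n - E false n)) atTop (𝓝 0) := fun n => by
    induction n with
    | zero => exact h1 none
    | succ n ih =>
      have := (ih.add (h1 (some (true, n)))).add (h1 (some (false, n)))
      simp only [add_zero] at this
      refine this.congr fun m => ?_
      simp only [atm]; noncomm_ring
  have h3 : Tendsto (fun n => η - ρ (E true n) η - ρ (E false n) η) atTop (𝓝 η) := by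
    simpa using ((tendsto_const_nhds (x := η)).sub (hη true)).sub (hη false)
  refine (isClosed_tendsto (S := fun m => ρ (g m)) (M := M) (P := fun _ => 0) (fun m =>
    (NonUnitalStarAlgHom.norm_apply_le ρ _).trans (hM m)) continuous_const).mem_of_tendsto h3
    (.of_forall fun n => ?_)
  have := ((rep_cont ρ η).tendsto 0).comp (h2 n)
  rw [map_zero, ContinuousLinearMap.zero_apply] at this
  exact this.congr fun m => by simp [mul_sub]

theorem Step.freeSys {X : StarSubalgebra ℂ A} {E : Bool → ℕ → A} {u : A}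
    (hX : IsClosed (X : Set A)) (h : T.Task X E) (hu : T.Step X E u) :
    T.FreeSys (two X (NN E u)) (DD E) := by
  have h1 : ∀ x ∈ DU E u, x ∈ T.perp (DD E) := by
    rintro _ ⟨d, hd, rfl⟩ c hc
    exact hu.free false false _ (.single ⟨c * d, mul_mem hc hd, (mul_assoc _ _ _).symm⟩)
  refine ⟨isClosed_DD E, by rintro (_ | _); exacts [DD_le_NN E u, DD_le hX h.mem], ?_,
    fun i k w hw => hu.free i k w (hw.mono ?_)⟩
  · rintro (_ | _)
    · intro x hx
      obtain ⟨d, hd, h2⟩ := hu.toUU.mem_NN h.toPre0 hx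
      exact ⟨d, hd, h1 _ h2⟩
    · exact h.hasExp
  · rintro (_ | _)
    · intro x hx
      obtain ⟨d, hd, h2⟩ := hu.toUU.mem_NN h.toPre0 hx.1
      have : d = 0 := perp_eq_zero hd (by simpa using sub_mem hx.2 (h1 _ h2))
      simpa [this] using h2
    · exact fun _ hx => hx

theorem Task.peak {X : StarSubalgebra ℂ A} {E : Bool → ℕ → A} (h : T.Task X E) (b : Bool) :
    T.Peak X (E b) := ⟨h.mem b, h.chain b, h.null b, h.exc b⟩

theorem Task.disj' {X : StarSubalgebra ℂ A} {E : Bool → ℕ → A} (h : T.Task X E) {b c : Bool}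
    (hb : b ≠ c) {a : A} (ha : a ∈ X) : Tendsto (fun n => E b n * a * E c n) atTop (𝓝 0) := by
  cases b <;> cases c
  · exact absurd rfl hb
  · have := (h.disj _ (star_mem ha)).star
    simpa [h.toPre0.sa, mul_assoc] using this
  · exact h.disj a ha
  · exact absurd rfl hb

section rep
variable {H : Type} [NormedAddCommGroup H] [InnerProductSpace ℂ H] [CompleteSpace H]
  {ρ : A →⋆ₐ[ℂ] (H →L[ℂ] H)} {X : StarSubalgebra ℂ A} {E : Bool → ℕ → A} {u : A}

theorem Task.tendsto_ne (h : T.Task X E) {b c : Bool} (hb : c ≠ b) {α : H} (hα : α ∈ Fix ρ (E b))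
    {x : A} (hx : x ∈ X) : Tendsto (fun n => ρ (E c n) (ρ x α)) atTop (𝓝 0) := by
  have := ((rep_cont ρ α).tendsto 0).comp (h.disj' hb hx)
  rw [map_zero, ContinuousLinearMap.zero_apply] at this
  exact this.congr fun n => by simp [hα n]

theorem Task.inner_ne (h : T.Task X E) {b c : Bool} (hb : c ≠ b) {α β : H} (hα : α ∈ Fix ρ (E b))
    (hβ : β ∈ Fix ρ (E c)) {x : A} (hx : x ∈ X) : ⟪β, ρ x α⟫_ℂ = 0 := by
  have h1 : Tendsto (fun n => ⟪β, ρ (E c n) (ρ x α)⟫_ℂ) atTop (𝓝 ⟪β, 0⟫_ℂ) :=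
    tendsto_const_nhds.inner (h.tendsto_ne hb hα hx)
  simp only [rep_inner_right ρ (E _ _), h.toPre0.sa, hβ _, inner_zero_right] at h1
  exact tendsto_nhds_unique tendsto_const_nhds h1

theorem Task.sub_mem_Nor (h : T.Task X E) {b : Bool} {α : H} (hα : α ∈ Fix ρ (E b))
    {x : A} (hx : x ∈ X) : ∃ c : ℂ, ρ x α - c • α ∈ T.Nor ρ (DD E) := by
  obtain ⟨c, hc⟩ := h.exc b x hx
  refine ⟨c, h.toPre.mem_Nor fun b' => ?_⟩
  by_cases hb : b' = b
  · subst hb
    have := (hc.tendsto hα).sub_const (c • α)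
    rw [sub_self] at this
    exact this.congr fun n => by simp [hα n]
  · have := h.tendsto_ne hb hα (sub_mem hx (SMulMemClass.smul_mem c (one_mem X)))
    exact this.congr fun n => by simp

theorem _root_.Crest.Agent.H3N.UU.fix (hu : UU E u) {b : Bool} {α : H} (hα : α ∈ Fix ρ (E b)) :
    ρ u α ∈ Fix ρ (E (!b)) := fun n => by rw [← rep_mul, ← hu.comm, rep_mul, hα n]

theorem _root_.Crest.Agent.H3N.UU.uu (h : Pre0 E) (hu : UU E u) {b : Bool} {α : H}
    (hα : α ∈ Fix ρ (E b)) : ρ u (ρ u α) = α := by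
  rw [← rep_mul, hu.sq, ← hα 0, ← rep_mul, h.p_mul]

/-- Claim 1 -/
theorem Step.claim1 (hX : IsClosed (X : Set A)) (h : T.Task X E) (hu : T.Step X E u) {b : Bool}
    {η₁ η₂ : H} (h1 : η₁ ∈ Fix ρ (E b)) (h2 : η₂ ∈ Fix ρ (E b)) (ho : ⟪η₂, η₁⟫_ℂ = 0) {w : A}
    (hw : w ∈ (X ⊔ NN E u).topologicalClosure) : ⟪η₂, ρ w η₁⟫_ℂ = 0 := by
  have F := hu.freeSys hX h
  let InK : H → H → Prop := fun η ζ => ∃ x ∈ X, ∃ y ∈ X, ζ = ρ x η + ρ y (ρ u η)
  have u1 := hu.toUU.fix h1
  have u2 := hu.toUU.fix h2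
  have o1 : ∀ a ∈ X, ⟪η₂, ρ a η₁⟫_ℂ = 0 := fun a ha => by
    obtain ⟨c, hc⟩ := h.exc b a ha
    rw [hc.inner (h.chain b) h1 h2, ho, mul_zero]
  have o2 : ∀ a ∈ X, ⟪ρ u η₂, ρ a (ρ u η₁)⟫_ℂ = 0 := fun a ha => by
    obtain ⟨c, hc⟩ := h.exc (!b) a ha
    rw [hc.inner (h.chain _) u1 u2, rep_inner_left, hu.sa.star_eq, hu.toUU.uu h.toPre0 h1, ho,
      mul_zero]
  have oK : ∀ ζ₁ ζ₂, InK η₁ ζ₁ → InK η₂ ζ₂ → ⟪ζ₂, ζ₁⟫_ℂ = 0 := by
    rintro _ _ ⟨x, hx, y, hy, rfl⟩ ⟨x', hx', y', hy', rfl⟩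
    simp only [inner_add_left, inner_add_right, rep_inner_left ρ x', rep_inner_left ρ y']
    rw [← rep_mul ρ (star x'), ← rep_mul ρ (star x'), ← rep_mul ρ (star y'), ← rep_mul ρ (star y'),
      o1 _ (mul_mem (star_mem hx') hx), o2 _ (mul_mem (star_mem hy') hy),
      h.inner_ne (not_ne b) h1 u2 (mul_mem (star_mem hy') hx),
      h.inner_ne (not_ne b).symm u1 h2 (mul_mem (star_mem hx') hy)]
    simp
  have iK : ∀ η ζ, InK η ζ → ∀ a ∈ X, InK η (ρ a ζ) := by
    rintro η _ ⟨x, hx, y, hy, rfl⟩ a ha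
    exact ⟨a * x, mul_mem ha hx, a * y, mul_mem ha hy, by simp⟩
  have sK : ∀ η ∈ Fix ρ (E b), ∀ ζ, InK η ζ → ζ ∈ T.Sing ρ X := by
    rintro η hη _ ⟨x, hx, y, hy, rfl⟩
    exact add_mem (inv_Sing X x hx _ ((h.peak b).nullSeq.fix_mem_Sing hη))
      (inv_Sing X y hy _ ((h.peak _).nullSeq.fix_mem_Sing (hu.toUU.fix hη)))
  have DX := DD_le hX h.mem
  have step : ∀ (i k : Bool) (a w' : A) (ζ₁ : H), InK η₁ ζ₁ →
      Alt (T.cen (two X (NN E u)) (DD E)) i k (a * w') → a ∈ T.cen (two X (NN E u)) (DD E) i →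
      (∀ ζ₂, InK η₂ ζ₂ → ⟪ζ₂, ρ w' ζ₁⟫_ℂ = 0) → ∀ ζ₂, InK η₂ ζ₂ → ⟪ζ₂, ρ (a * w') ζ₁⟫_ℂ = 0 := by
    rintro (_ | _) k a w' ζ₁ k1 hw ha ih ζ₂ k2
    · obtain ⟨d, hd, h3⟩ := hu.toUU.mem_NN h.toPre0 (star_mem ha.1)
      obtain ⟨x, hx, y, hy, rfl⟩ := k2
      obtain ⟨c, hc⟩ := h.sub_mem_Nor h2 hx
      obtain ⟨c', hc'⟩ := h.sub_mem_Nor u2 hy
      have s1 := (h.peak b).nullSeq.fix_mem_Sing h2
      have s2 := (h.peak _).nullSeq.fix_mem_Sing u2
      have b0 := F.B0 (j := true) (add_mem hc hc') (add_mem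
        (sub_mem (inv_Sing X x hx _ s1) (Submodule.smul_mem _ _ s1))
        (sub_mem (inv_Sing X y hy _ s2) (Submodule.smul_mem _ _ s2))) (hw.star F.pre.star)
        (by simp) true ζ₁ (sK _ h1 _ k1)
      rw [← rep_inner_left, inner_eq_zero_symm] at b0
      obtain ⟨d', hd', h3⟩ := h3
      have e : star a = d + d' * u := sub_eq_iff_eq_add'.mp h3
      have b1 : ⟪η₂, ρ (a * w') ζ₁⟫_ℂ = 0 := by
        rw [rep_mul, rep_inner_right]
        exact ih _ ⟨d, DX hd, d', DX hd', by simp [e]⟩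
      have b2 : ⟪ρ u η₂, ρ (a * w') ζ₁⟫_ℂ = 0 := by
        rw [rep_mul, rep_inner_right]
        exact ih _ ⟨d', DX hd', d, DX hd, by simp [e, hu.toUU.uu h.toPre0 h2, add_comm]⟩
      simp only [inner_add_left, inner_sub_left, inner_smul_left, b1, b2, mul_zero, sub_zero] at b0
      rw [inner_add_left]; exact b0
    · rw [rep_mul, rep_inner_right]
      exact ih _ (iK _ _ k2 _ (star_mem ha.1))
  have main : ∀ {i k w}, Alt (T.cen (two X (NN E u)) (DD E)) i k w → ∀ ζ₁, InK η₁ ζ₁ →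
      ∀ ζ₂, InK η₂ ζ₂ → ⟪ζ₂, ρ w ζ₁⟫_ℂ = 0 := by
    intro i k w hw ζ₁ k1
    induction hw with
    | @single i a ha =>
      have := step i i a 1 ζ₁ k1 (by simpa using Alt.single ha) ha
        (fun ζ₂ k2 => by simpa using oK _ _ k1 k2)
      simpa using this
    | cons ha hj hw ih => exact step _ _ _ _ ζ₁ k1 (.cons ha hj hw) ha ih
  have k0 : ∀ η, InK η η := fun η => ⟨1, one_mem _, 0, zero_mem _, by simp⟩
  let Q : Submodule ℂ A := LinearMap.ker ((innerSL ℂ η₂).comp (repAt ρ η₁)).toLinearMap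
  have hW : ∀ i, Wd (T.cen (two X (NN E u)) (DD E)) i ≤ Q := fun i =>
    Submodule.span_le.mpr (by rintro w ⟨k, hw⟩; exact main hw _ (k0 _) _ (k0 _))
  have hS : SS (DD E) (T.cen (two X (NN E u)) (DD E)) ≤ Q :=
    sup_le (sup_le (fun d hd => o1 d (DX hd)) (hW _)) (hW _)
  exact closure_minimal (fun x hx => hS (F.pre.sup_mem_SS hx))
    (ContinuousLinearMap.isClosed_ker _) hw

theorem Step.van (hX : IsClosed (X : Set A)) (h : T.Task X E) (hu : T.Step X E u)
    {K : Submodule ℂ H} (hK : IsClosed (K : Set H)) (hi : Inv ρ X K)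
    (h0 : ∀ η ∈ K, ∀ b, Tendsto (fun n => ρ (E b n) η) atTop (𝓝 0)) {w : A}
    (hw : w ∈ (X ⊔ NN E u).topologicalClosure) : w ∈ T.GG X (T.VQ ρ X K) :=
  (hu.freeSys hX h).lemB true hX hK hi (fun a _ ζ hζ hs ζ' _ => by
    have : ζ = 0 := inner_self_eq_zero.mp (hs ζ (h.toPre.mem_Nor (h0 ζ hζ)))
    simp [this]) hw

end rep

/-- excising sequences remain excising after one step -/
theorem Step.exc {X : StarSubalgebra ℂ A} {E : Bool → ℕ → A} {u : A}
    (hX : IsClosed (X : Set A)) (h : T.Task X E) (hu : T.Step X E u) {f : ℕ → A}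
    (hf : T.Peak X f) {w : A} (hw : w ∈ (X ⊔ NN E u).topologicalClosure) : Exc f w := by
  refine hf.chain.PL T fun H _ _ _ ρ ξ₁ h1 ξ₂ h2 ho => ?_
  have o1 : ∀ a ∈ X, ⟪ξ₂, ρ a ξ₁⟫_ℂ = 0 := fun a ha => by
    obtain ⟨c, hc⟩ := hf.exc a ha
    rw [hc.inner hf.chain h1 h2, ho, mul_zero]
  by_cases h0 : ∀ x ∈ X, ∀ b, Tendsto (fun n => ρ (E b n) (ρ x ξ₁)) atTop (𝓝 0)
  · obtain ⟨x, hx, -, h3⟩ := mem_GG.mp (hu.van hX h (isClosed_cyc X ξ₁) (inv_cyc X ξ₁)
      (fun η hη b => cyc_induction (isClosed_tendsto (S := fun n => ρ (E b n)) (M := 1)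
        (P := fun _ => 0) (fun n => (NonUnitalStarAlgHom.norm_apply_le ρ _).trans
          ((h.chain b).norm_le n)) continuous_const) (fun x hx => h0 x hx b) hη) hw)
    have := h3 ξ₁ (self_mem_cyc X ξ₁) (hf.nullSeq.fix_mem_Sing h1) ξ₂ (hf.nullSeq.fix_mem_Sing h2)
    simpa [inner_sub_right, o1 x hx] using this
  push Not at h0
  obtain ⟨x, hx, b, h0⟩ := h0
  by_cases z2 : ξ₂ = 0
  · simp [z2]
  obtain ⟨η₁, f1, l1⟩ := (h.chain b).exists_lim (ρ := ρ) (h.idem b) (ρ x ξ₁)
  obtain ⟨η₂, f2, l2⟩ := (h.chain b).exists_lim (ρ := ρ) (h.idem b) (ρ x ξ₂)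
  have n1 : η₁ ≠ 0 := by rintro rfl; exact h0 l1
  have mE : ∀ n, E b n * x ∈ X := fun n => mul_mem (h.mem b n) hx
  have n2 : η₂ ≠ 0 := by
    rintro rfl
    have e : ∀ n, ‖ρ (E b n) (ρ x ξ₁)‖ * ‖ξ₂‖ = ‖ρ (E b n) (ρ x ξ₂)‖ * ‖ξ₁‖ := fun n => by
      rw [← rep_mul, ← rep_mul]
      exact norm_cross hf.chain (hf.exc _ (mul_mem (star_mem (mE n)) (mE n))) h1 h2
    have a1 := l1.norm.mul_const ‖ξ₂‖
    have a2 := l2.norm.mul_const ‖ξ₁‖
    simp only [e] at a1
    have := tendsto_nhds_unique a1 a2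
    simp [n1, z2] at this
  have c1 : η₁ ∈ cyc ρ X ξ₁ := (isClosed_cyc X ξ₁).mem_of_tendsto l1 (.of_forall fun n => by
    rw [← rep_mul]; exact mem_cyc (mE n) _)
  have c2 : η₂ ∈ cyc ρ X ξ₂ := (isClosed_cyc X ξ₂).mem_of_tendsto l2 (.of_forall fun n => by
    rw [← rep_mul]; exact mem_cyc (mE n) _)
  have oc : ∀ {α β : H} {w : A}, (∀ a ∈ X, ∀ a' ∈ X, ⟪ρ a' β, ρ w (ρ a α)⟫_ℂ = 0) →
      ∀ α' ∈ cyc ρ X α, ∀ β' ∈ cyc ρ X β, ⟪β', ρ w α'⟫_ℂ = 0 := fun {α β w} h3 α' hα β' hβ =>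
    cyc_induction (Q := {α' | ⟪β', ρ w α'⟫_ℂ = 0}) (isClosed_eq (by fun_prop) continuous_const)
      (fun a ha => cyc_induction (Q := {β' | ⟪β', ρ w (ρ a α)⟫_ℂ = 0})
        (isClosed_eq (by fun_prop) continuous_const) (h3 a ha) hβ) hα
  have o2 : ⟪η₂, η₁⟫_ℂ = 0 := by
    have := oc (w := 1) (fun a ha a' ha' => by
      rw [rep_inner_left, ← rep_mul, ← rep_mul]
      exact o1 _ (mul_mem (mul_mem (star_mem ha') (one_mem _)) ha)) η₁ c1 η₂ c2
    simpa using this
  have hXle : X ≤ (X ⊔ NN E u).topologicalClosure :=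
    le_sup_left.trans (StarSubalgebra.le_topologicalClosure _)
  exact oc (fun a ha a' ha' => by
      rw [rep_inner_left, ← rep_mul, ← rep_mul]
      exact hu.claim1 hX h f1 f2 o2 (mul_mem (mul_mem (hXle (star_mem ha')) hw) (hXle ha)))
    ξ₁ (hf.chain.mem_cyc_of_mem hf.mem hf.exc h1 c1 n1) ξ₂
    (hf.chain.mem_cyc_of_mem hf.mem hf.exc h2 c2 n2)

end Tr
end Crest.Agent.H3N
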