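import Crest.Agent.H3N.Step

/-! The transfinite tower: every irreducible representation has an excised vector state. -/

set_option autoImplicit false

open scoped InnerProductSpace ComplexOrder
open Filter Topology Set

noncomputable section

namespace Crest.Agent.H3N
variable {A : Type} [CStarAlgebra A] {I : Type}

def AL (base : Set A) (u : I → A) (S : Set I) : StarSubalgebra ℂ A :=
  (StarAlgebra.adjoin ℂ (base ∪ u '' S)).topologicalClosure

section AL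
variable {base : Set A} {u : I → A}

theorem isClosed_AL (S : Set I) : IsClosed (AL base u S : Set A) :=
  StarSubalgebra.isClosed_topologicalClosure _

theorem AL_le {S : Set I} {X : StarSubalgebra ℂ A} (hX : IsClosed (X : Set A))
    (h1 : ∀ x ∈ base, x ∈ X) (h2 : ∀ β ∈ S, u β ∈ X) : AL base u S ≤ X :=
  StarSubalgebra.topologicalClosure_minimal
    (StarAlgebra.adjoin_le (by rintro _ (h | ⟨β, h, rfl⟩); exacts [h1 _ h, h2 β h])) hX

theorem base_mem_AL (S : Set I) {x : A} (hx : x ∈ base) : x ∈ AL base u S :=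
  StarSubalgebra.le_topologicalClosure _ (StarAlgebra.subset_adjoin ℂ _ (Or.inl hx))

theorem u_mem_AL {S : Set I} {β : I} (h : β ∈ S) : u β ∈ AL base u S :=
  StarSubalgebra.le_topologicalClosure _ (StarAlgebra.subset_adjoin ℂ _ (Or.inr ⟨β, h, rfl⟩))

theorem AL_mono {S S' : Set I} (h : S ⊆ S') : AL base u S ≤ AL base u S' :=
  AL_le (isClosed_AL _) (fun _ => base_mem_AL _) fun _ hβ => u_mem_AL (h hβ)

theorem AL_finite {S : Set I} {Q : Set A} (hQ : IsClosed Q)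
    (h : ∀ F ⊆ S, F.Finite → (AL base u F : Set A) ⊆ Q) : (AL base u S : Set A) ⊆ Q := by
  refine closure_minimal (fun x hx => ?_) hQ
  suffices ∃ F ⊆ S, F.Finite ∧ x ∈ AL base u F by
    obtain ⟨F, h1, h2, h3⟩ := this; exact h F h1 h2 h3
  induction hx using StarAlgebra.adjoin_induction with
  | mem x hx =>
    rcases hx with hx | ⟨β, hβ, rfl⟩
    · exact ⟨∅, empty_subset _, finite_empty, base_mem_AL _ hx⟩
    · exact ⟨{β}, singleton_subset_iff.mpr hβ, finite_singleton _, u_mem_AL rfl⟩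
  | algebraMap r => exact ⟨∅, empty_subset _, finite_empty, algebraMap_mem _ r⟩
  | add x y _ _ h1 h2 =>
    obtain ⟨F, a1, a2, a3⟩ := h1
    obtain ⟨G, b1, b2, b3⟩ := h2
    exact ⟨F ∪ G, union_subset a1 b1, a2.union b2,
      add_mem (AL_mono subset_union_left a3) (AL_mono subset_union_right b3)⟩
  | mul x y _ _ h1 h2 =>
    obtain ⟨F, a1, a2, a3⟩ := h1
    obtain ⟨G, b1, b2, b3⟩ := h2
    exact ⟨F ∪ G, union_subset a1 b1, a2.union b2,
      mul_mem (AL_mono subset_union_left a3) (AL_mono subset_union_right b3)⟩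
  | star x _ h1 =>
    obtain ⟨F, a1, a2, a3⟩ := h1
    exact ⟨F, a1, a2, star_mem a3⟩

theorem AL_countable_support {S : Set I} {a : A} (ha : a ∈ AL base u S) :
    ∃ S' ⊆ S, S'.Countable ∧ a ∈ AL base u S' := by
  have h1 := AL_finite (S := S) (Q := closure {x | ∃ F ⊆ S, F.Finite ∧ x ∈ AL base u F})
    isClosed_closure (fun F h1 h2 x hx => subset_closure ⟨F, h1, h2, hx⟩) ha
  obtain ⟨s, hs, hl⟩ := mem_closure_iff_seq_limit.mp h1
  choose F f1 f2 f3 using hs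
  exact ⟨⋃ n, F n, iUnion_subset f1, countable_iUnion fun n => (f2 n).countable,
    (isClosed_AL _).mem_of_tendsto hl (.of_forall fun n => AL_mono (subset_iUnion F n) (f3 n))⟩

theorem separable_AL (hb : base.Countable) {S : Set I} (hS : S.Countable) :
    TopologicalSpace.IsSeparable (AL base u S : Set A) := by
  have h1 : (base ∪ u '' S).Countable := hb.union (hS.image u)
  have h2 : (base ∪ u '' S ∪ star (base ∪ u '' S)).Countable := h1.union (by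
    rw [← Set.image_star]; exact h1.image _)
  have h3 : (Submonoid.closure (base ∪ u '' S ∪ star (base ∪ u '' S)) : Set A).Countable := by
    have := h2.to_subtype
    rw [Submonoid.closure_eq_image_prod]
    refine Countable.image ?_ _
    refine (countable_range (List.map (Subtype.val :
      ↥(base ∪ u '' S ∪ star (base ∪ u '' S)) → A))).mono fun l hl => ?_
    exact ⟨l.pmap Subtype.mk hl, by simp [List.map_pmap]⟩
  refine (h3.isSeparable.span (R := ℂ)).closure.mono (closure_mono fun x hx => ?_)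
  rw [← Algebra.adjoin_eq_span]
  exact hx

variable [LinearOrder I]

theorem AL_lim {S : Set I} {Q : Set A} (hQ : IsClosed Q) (h0 : (AL base u ∅ : Set A) ⊆ Q)
    (h : ∀ δ ∈ S, (AL base u (S ∩ Iic δ) : Set A) ⊆ Q) : (AL base u S : Set A) ⊆ Q := by
  refine AL_finite hQ fun F h1 h2 => ?_
  rcases F.eq_empty_or_nonempty with rfl | h3
  · exact h0
  · obtain ⟨δ, d1, d2⟩ := F.exists_max_image id h2 h3
    exact fun x hx => h δ (h1 d1) (AL_mono (fun y hy => mem_inter (h1 hy) (d2 y hy)) hx)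

theorem AL_Iic_le (S : Set I) (δ : I) (E : Bool → ℕ → A) :
    AL base u (S ∩ Iic δ) ≤ (AL base u (S ∩ Iio δ) ⊔ NN E (u δ)).topologicalClosure := by
  refine AL_le (StarSubalgebra.isClosed_topologicalClosure _) (fun x hx => ?_) fun β hβ => ?_
  · exact StarSubalgebra.le_topologicalClosure _ ((le_sup_left : AL base u _ ≤ _) (base_mem_AL _ hx))
  · refine StarSubalgebra.le_topologicalClosure _ ?_
    rcases (mem_Iic.mp hβ.2).eq_or_lt with rfl | h
    · exact (le_sup_right : NN E _ ≤ _) (u_mem_NN _ _)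
    · exact (le_sup_left : AL base u _ ≤ _) (u_mem_AL ⟨hβ.1, h⟩)

theorem AL_Iic_le' (δ : I) (E : Bool → ℕ → A) :
    AL base u (Iic δ) ≤ (AL base u (Iio δ) ⊔ NN E (u δ)).topologicalClosure := by
  simpa using AL_Iic_le (base := base) (u := u) univ δ E

theorem AL_Iic_le_of_mem {S : Set I} {δ : I} (hδ : δ ∈ S) :
    AL base u (Iic δ) ≤ (AL base u (Iio δ) ⊔ AL base u (S ∩ Iic δ)).topologicalClosure := by
  refine AL_le (StarSubalgebra.isClosed_topologicalClosure _) (fun x hx => ?_) fun β hβ => ?_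
  · exact StarSubalgebra.le_topologicalClosure _ ((le_sup_left : AL base u _ ≤ _) (base_mem_AL _ hx))
  · refine StarSubalgebra.le_topologicalClosure _ ?_
    rcases (mem_Iic.mp hβ).eq_or_lt with rfl | h
    · exact (le_sup_right : AL base u _ ≤ _) (u_mem_AL ⟨hδ, hβ⟩)
    · exact (le_sup_left : AL base u _ ≤ _) (u_mem_AL h)

theorem inter_Iic_eq {S : Set I} {δ : I} (hδ : δ ∉ S) : S ∩ Iic δ = S ∩ Iio δ := by
  ext x
  exact ⟨fun h => ⟨h.1, lt_of_le_of_ne h.2 (by rintro rfl; exact hδ h.1)⟩,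
    fun h => ⟨h.1, le_of_lt h.2⟩⟩

theorem lower_ind [WellFoundedLT I] {P : Set I → Prop}
    (h : ∀ L, IsLowerSet L → (∀ δ ∈ L, P (Iio δ)) → P L) (L : Set I) (hL : IsLowerSet L) : P L := by
  have h1 : ∀ δ, P (Iio δ) := fun δ => by
    induction δ using WellFoundedLT.induction with
    | ind δ ih => exact h _ (isLowerSet_Iio δ) ih
  exact h L hL fun δ _ => h1 δ

end AL

variable [LinearOrder I]

structure Tower (T : Tr A) (I : Type) [LinearOrder I] where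
  base : Set A
  u : I → A
  E : I → Bool → ℕ → A
  r : A
  base_count : base.Countable
  r_mem : r ∈ base
  r_proj : IsStarProjection r
  task : ∀ β, T.Task (AL base u (Iio β)) (E β)
  step : ∀ β, T.Step (AL base u (Iio β)) (E β) (u β)

namespace Tower
variable {T : Tr A} (W : Tower T I)

abbrev L (S : Set I) : StarSubalgebra ℂ A := AL W.base W.u S

def Closed (S : Set I) : Prop := ∀ β ∈ S, ∀ b n, W.E β b n ∈ W.L (S ∩ Iio β)

variable {W}
theorem step_free {S : Set I} (hS : W.Closed S) {δ : I} (hδ : δ ∈ S)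
    (h : T.HasExp (W.L (Iio δ)) (W.L (S ∩ Iio δ))) :
    T.FreeSys (two (W.L (Iio δ)) (W.L (S ∩ Iic δ))) (W.L (S ∩ Iio δ)) :=
  ((W.step δ).freeSys (isClosed_AL _) (W.task δ)).absorb (DD_le (isClosed_AL _) (hS δ hδ))
    (AL_mono inter_subset_right) (isClosed_AL _) h
    (AL_mono (inter_subset_inter_right _ Iio_subset_Iic_self)) (AL_Iic_le S δ _)

variable [WellFoundedLT I]

theorem free_of {S : Set I} (hS : W.Closed S) {L₀ : Set I} (h₀ : IsLowerSet L₀)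
    (hE : T.HasExp (W.L L₀) (W.L (S ∩ L₀))) (L : Set I) (hL : IsLowerSet L) :
    (∀ δ ∈ L, T.HasExp (W.L (Iio δ)) (W.L (S ∩ Iio δ))) → L₀ ⊆ L →
      T.FreeSys (two (W.L L₀) (W.L (S ∩ L))) (W.L (S ∩ L₀)) := by
  refine lower_ind (P := fun L => (∀ δ ∈ L, T.HasExp (W.L (Iio δ)) (W.L (S ∩ Iio δ))) → L₀ ⊆ L →
      T.FreeSys (two (W.L L₀) (W.L (S ∩ L))) (W.L (S ∩ L₀))) (fun L hL ih h1 h2 => ?_) L hL
  by_cases h3 : L ⊆ L₀
  · obtain rfl : L = L₀ := h3.antisymm h2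
    exact Tr.FreeSys.triv (isClosed_AL _) (AL_mono inter_subset_right) hE
  obtain ⟨δ₀, d1, d2⟩ := not_subset.mp h3
  have : Nonempty {δ // δ ∈ L ∧ δ₀ ≤ δ} := ⟨⟨δ₀, d1, le_rfl⟩⟩
  refine Tr.FreeSys.lim (ι := {δ // δ ∈ L ∧ δ₀ ≤ δ}) (C := fun δ => W.L (S ∩ Iic δ.1)) ?_ ?_
    (AL_mono (inter_subset_inter_right _ h2)) ?_
  · rintro ⟨δ, h4, h5⟩
    have h6 : L₀ ⊆ Iio δ := fun x hx => lt_of_not_ge fun h => d2 (h₀ (h5.trans h) hx)
    have F := ih δ h4 (fun γ hγ => h1 γ (hL (le_of_lt hγ) h4)) h6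
    by_cases hδ : δ ∈ S
    · exact F.trans (AL_mono h6) (step_free hS hδ (h1 δ h4))
    · simp only [inter_Iic_eq hδ]; exact F
  · intro i j
    rcases le_total i.1 j.1 with h | h
    · exact ⟨j, AL_mono (inter_subset_inter_right _ (Iic_subset_Iic.mpr h)), le_rfl⟩
    · exact ⟨i, le_rfl, AL_mono (inter_subset_inter_right _ (Iic_subset_Iic.mpr h))⟩
  · refine AL_lim isClosed_closure (fun x hx => subset_closure
      (mem_iUnion.mpr ⟨⟨δ₀, d1, le_rfl⟩, AL_mono (empty_subset _) hx⟩)) fun δ hδ x hx => ?_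
    refine subset_closure (mem_iUnion.mpr ⟨⟨max δ δ₀, ?_, le_max_right _ _⟩,
      AL_mono (fun y hy => mem_inter hy.1.1 (le_max_of_le_left hy.2)) hx⟩)
    rcases max_choice δ δ₀ with h | h <;> rw [h]
    exacts [hδ.2, d1]

omit [WellFoundedLT I] in
theorem hasExp_Iic {S : Set I} (hS : W.Closed S) {δ : I}
    (h : T.HasExp (W.L (Iio δ)) (W.L (S ∩ Iio δ))) : T.HasExp (W.L (Iic δ)) (W.L (S ∩ Iic δ)) := by
  by_cases hδ : δ ∈ S
  · exact ((step_free hS hδ h).hasExp_closure false (isClosed_AL _)).mono (AL_Iic_le_of_mem hδ)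
  · rw [inter_Iic_eq hδ]
    exact ((((W.step δ).freeSys (isClosed_AL _) (W.task δ)).hasExp_closure true
      (isClosed_AL _)).mono (AL_Iic_le' δ _)).trans h (AL_mono inter_subset_right)

theorem hasExp {S : Set I} (hS : W.Closed S) (L : Set I) (hL : IsLowerSet L) :
    T.HasExp (W.L L) (W.L (S ∩ L)) := by
  refine lower_ind (P := fun L => T.HasExp (W.L L) (W.L (S ∩ L))) (fun L hL ih => ?_) L hL
  refine Tr.hasExp_iff.mpr (AL_lim (Tr.isClosed_GG (isClosed_AL _) (by simp))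
    (fun x hx => Submodule.mem_sup_left (AL_mono (empty_subset _) hx)) fun δ hδ x hx => ?_)
  have F := free_of hS (isLowerSet_Iic δ) (hasExp_Iic hS (ih δ hδ)) L hL ih (hL.Iic_subset hδ)
  exact Tr.hasExp_iff.mp (F.hasExp_closure false (isClosed_AL _)) x
    (StarSubalgebra.le_topologicalClosure _
      ((le_sup_left : W.L (Iic δ) ≤ _) (AL_mono inter_subset_right hx)))

theorem free {S : Set I} (hS : W.Closed S) {L₀ L : Set I} (h₀ : IsLowerSet L₀) (hL : IsLowerSet L)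
    (h : L₀ ⊆ L) : T.FreeSys (two (W.L L₀) (W.L (S ∩ L))) (W.L (S ∩ L₀)) :=
  free_of hS h₀ (hasExp hS L₀ h₀) L hL (fun δ _ => hasExp hS _ (isLowerSet_Iio δ)) h

variable {H : Type} [NormedAddCommGroup H] [InnerProductSpace ℂ H] [CompleteSpace H]

/-- an excising sequence of `C` with a fixed vector in `K` -/
def Atom (W : Tower T I) (ρ : A →⋆ₐ[ℂ] (H →L[ℂ] H)) (C : StarSubalgebra ℂ A) (K : Submodule ℂ H) :
    Prop := ∃ f, T.Peak C f ∧ (f 0 = W.r ∨ f 0 = 1 - W.r) ∧ ∃ η ∈ K, η ≠ 0 ∧ η ∈ Fix ρ f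

variable {ρ : A →⋆ₐ[ℂ] (H →L[ℂ] H)}

omit [WellFoundedLT I] in
theorem van_not_mem {S : Set I} (hc : S.Countable) {δ : I} {K : Submodule ℂ H}
    (hK : IsClosed (K : Set H)) (hi : Inv ρ (W.L (S ∩ Iio δ)) K)
    (hn : ¬ W.Atom ρ (W.L (S ∩ Iio δ)) K)
    (ih : ∀ a ∈ W.L (Iio δ), a ∈ T.GG (W.L (S ∩ Iio δ)) (T.VQ ρ (W.L (S ∩ Iio δ)) K)) :
    ∀ a ∈ W.L (Iic δ), a ∈ T.GG (W.L (S ∩ Iio δ)) (T.VQ ρ (W.L (S ∩ Iio δ)) K) := by
  set C := W.L (S ∩ Iio δ)
  set X := W.L (Iio δ)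
  have CX : C ≤ X := AL_mono inter_subset_right
  set K₁ := K ⊓ T.Sing ρ C
  have c1 : IsClosed (K₁ : Set H) := hK.inter (Tr.isClosed_Sing C)
  have i1 : Inv ρ C K₁ := hi.inf (Tr.inv_Sing C)
  set K' := (Submodule.span ℂ {y | ∃ a ∈ X, ∃ ζ ∈ K₁, y = ρ a ζ}).topologicalClosure
  have c' : IsClosed (K' : Set H) := Submodule.isClosed_topologicalClosure _
  have l1 : K₁ ≤ K' := fun ζ hζ => subset_clspan _ ⟨1, one_mem _, ζ, hζ, by simp⟩
  have i' : Inv ρ X K' := fun a ha y hy =>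
    clspan_le (Q := K'.comap (ρ a).toLinearMap) (by
      rintro _ ⟨b, hb, ζ, hζ, rfl⟩
      exact subset_clspan _ ⟨a * b, mul_mem ha hb, ζ, hζ, by simp⟩)
      (c'.preimage (ρ a).continuous) hy
  have orth : ∀ y ∈ K', (∀ a ∈ X, ∀ ζ ∈ K₁, ⟪y, ρ a ζ⟫_ℂ = 0) → y = 0 := fun y hy h =>
    inner_self_eq_zero.mp (clspan_le (Q := LinearMap.ker (innerSL ℂ y).toLinearMap) (by
      rintro _ ⟨b, hb, ζ, hζ, rfl⟩; exact h b hb ζ hζ) (innerSL ℂ y).isClosed_ker hy)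
  have l2 : ∀ ζ ∈ K', ζ ∈ T.Sing ρ C → ζ ∈ K₁ := by
    intro ζ h1 h2
    have := c1.completeSpace_coe
    obtain ⟨k, hk, k', hk', rfl⟩ := K₁.exists_add_mem_mem_orthogonal ζ
    have h3 : k' ∈ K' := by simpa using sub_mem h1 (l1 hk)
    have h4 : k' ∈ T.Sing ρ C := by simpa using sub_mem h2 hk.2
    have : k' = 0 := orth k' h3 fun a ha ζ hζ => by
      obtain ⟨c, hc, -, h5⟩ := Tr.mem_GG.mp (ih a ha)
      have h6 := h5 ζ hζ.1 hζ.2 k' h4
      have h7 : ⟪k', ρ c ζ⟫_ℂ = 0 := inner_eq_zero_symm.mp (hk' _ (i1 c hc ζ hζ))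
      simpa [inner_sub_right, h7] using h6
    simpa [this] using hk
  have h0 : ∀ η ∈ K', ∀ b, Tendsto (fun n => ρ (W.E δ b n) η) atTop (𝓝 0) := by
    intro η hη b
    have P := (W.task δ).peak b
    obtain ⟨η', f1, lim⟩ := P.chain.exists_lim (ρ := ρ) ((W.task δ).idem b) η
    by_contra h1
    have n1 : η' ≠ 0 := by rintro rfl; exact h1 lim
    have m1 : η' ∈ K' := c'.mem_of_tendsto lim (.of_forall fun n => i' _ (P.mem n) _ hη)
    have l3 : cyc ρ X η' ≤ K' := cyc_le c' i' m1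
    set K₀ := cyc ρ X η' ⊓ T.Sing ρ C
    have c0 : IsClosed (K₀ : Set H) := (isClosed_cyc X η').inter (Tr.isClosed_Sing C)
    have i0 : Inv ρ C K₀ := ((inv_cyc X η').mono CX).inf (Tr.inv_Sing C)
    have l4 : K₀ ≤ K₁ := fun ζ hζ => l2 ζ (l3 hζ.1) hζ.2
    obtain ⟨ξ, m2, n2⟩ : ∃ ξ ∈ K₀, ξ ≠ 0 := by
      by_contra h2
      push Not at h2
      refine n1 (orth η' m1 fun a ha ζ hζ => ?_)
      have m3 := mem_cyc (ρ := ρ) (star_mem ha) η'
      obtain ⟨s, s1, s2, s3⟩ := T.decomp_mem ρ C (ρ (star a) η')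
      rw [h2 s ⟨s3 _ (isClosed_cyc X η') ((inv_cyc X η').mono CX) m3, s1⟩, sub_zero] at s2
      rw [rep_inner_right]
      exact hζ.2 _ s2
    have kp : KP ρ C K₀ := by
      intro α hα β hβ ho ε hε
      obtain ⟨y, hy, y1, y2⟩ := P.chain.KP_cyc P.mem P.exc f1 α hα.1 β hβ.1 ho ε hε
      obtain ⟨c, hc, e1, e2⟩ := Tr.mem_GG.mp (ih y hy)
      have e3 : star y - star c ∈ T.VQ ρ C K := Tr.GG_perp
        (ih _ (sub_mem (star_mem hy) (star_mem (CX hc)))) (by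
          rw [← star_sub]; exact Tr.perp_star e1)
      have pyth : ∀ v w : H, ⟪v, w⟫_ℂ = 0 → ‖v‖ ≤ ‖v + w‖ := fun v w h => by
        have := norm_add_sq_eq_norm_sq_add_norm_sq_of_inner_eq_zero _ _ h
        nlinarith [norm_nonneg v, norm_nonneg w, norm_nonneg (v + w)]
      refine ⟨c, hc, lt_of_le_of_lt ?_ y1, lt_of_le_of_lt ?_ y2⟩
      · simpa using pyth _ _ (e3 α (l4 hα).1 hα.2 _
          (sub_mem (Tr.inv_Sing C _ (star_mem hc) _ hα.2) hα.2))
      · simpa using pyth _ _ (e2 β (l4 hβ).1 hβ.2 _ (Tr.inv_Sing C _ hc _ hβ.2))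
    obtain ⟨f, p1, p2, η'', p3, p4⟩ := Tr.exists_atom (T := T) (isClosed_AL _)
      (separable_AL W.base_count (hc.mono inter_subset_left)) n2 (fun x hx a ha =>
        Tr.AE_of_KP (isClosed_AL _) kp i0 (i0 x hx ξ m2) (i0 x hx ξ m2).2 ha) W.r_proj
      (base_mem_AL _ W.r_mem)
    exact hn ⟨f, p1, p2, η'', (l4 (cyc_le c0 i0 m2 p3)).1, p4⟩
  intro a ha
  obtain ⟨x, hx, e1, e2⟩ := Tr.mem_GG.mp
    ((W.step δ).van (isClosed_AL _) (W.task δ) c' i' h0 (AL_Iic_le' δ _ ha))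
  have : a = x + (a - x) := by abel
  rw [this]
  exact add_mem (ih x hx) (Submodule.mem_sup_right ⟨Tr.perp_mono CX e1, fun ζ k1 s1 ζ' s2 =>
    e2 ζ (l1 ⟨k1, s1⟩) (Tr.Sing_mono CX s1) ζ' (Tr.Sing_mono CX s2)⟩)

theorem van {S : Set I} (hS : W.Closed S) (hc : S.Countable) {M : Set I} (hM : IsLowerSet M)
    {K : Submodule ℂ H} (hK : IsClosed (K : Set H)) (hi : Inv ρ (W.L (S ∩ M)) K)
    (hn : ∀ δ ∈ M, ¬ W.Atom ρ (W.L (S ∩ Iio δ)) K) (L : Set I) (hL : IsLowerSet L) :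
    L ⊆ M → ∀ a ∈ W.L L, a ∈ T.GG (W.L (S ∩ L)) (T.VQ ρ (W.L (S ∩ L)) K) := by
  refine lower_ind (P := fun L => L ⊆ M →
    ∀ a ∈ W.L L, a ∈ T.GG (W.L (S ∩ L)) (T.VQ ρ (W.L (S ∩ L)) K)) (fun L hL ih h1 => ?_) L hL
  refine AL_lim (Tr.isClosed_GG (isClosed_AL _) (Tr.isClosed_VQ _ _))
    (fun x hx => Submodule.mem_sup_left (AL_mono (empty_subset _) hx)) fun δ hδ x hx => ?_
  have ih' := ih δ hδ ((hL.Iio_subset hδ).trans h1)
  have st : ∀ a ∈ W.L (Iic δ), a ∈ T.GG (W.L (S ∩ Iic δ)) (T.VQ ρ (W.L (S ∩ Iic δ)) K) := by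
    by_cases hδS : δ ∈ S
    · intro a ha
      exact (step_free hS hδS (hasExp hS _ (isLowerSet_Iio δ))).lemB false (isClosed_AL _) hK
        (hi.mono (AL_mono (inter_subset_inter_right _ (hM.Iic_subset (h1 hδ)))))
        (fun a ha => Tr.GG_perp (ih' a ha.1) ha.2) (AL_Iic_le_of_mem hδS ha)
    · rw [inter_Iic_eq hδS]
      exact van_not_mem hc hK
        (hi.mono (AL_mono (inter_subset_inter_right _ (hM.Iio_subset (h1 hδ))))) (hn δ (h1 hδ)) ih'
  exact (free hS (isLowerSet_Iic δ) hL (hL.Iic_subset hδ)).lemB false (isClosed_AL _) hK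
    (hi.mono (AL_mono (inter_subset_inter_right _ h1))) (fun a ha => Tr.GG_perp (st a ha.1) ha.2)
    (StarSubalgebra.le_topologicalClosure _
      ((le_sup_left : W.L (Iic δ) ≤ _) (AL_mono inter_subset_right hx)))

theorem peak_extend {L : Set I} (hL : IsLowerSet L) {f : ℕ → A} (hf : T.Peak (W.L L) f) :
    T.Peak (W.L univ) f := by
  refine ⟨fun n => AL_mono (subset_univ _) (hf.mem n), hf.chain, hf.null, ?_⟩
  refine lower_ind (P := fun M => ∀ a ∈ W.L M, Exc f a) (fun M hM ih => ?_) univ isLowerSet_univ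
  refine AL_lim hf.chain.isClosed_exc (fun x hx => hf.exc x (AL_mono (empty_subset _) hx))
    fun δ hδ x hx => ?_
  by_cases h : δ ∈ L
  · exact hf.exc x (AL_mono (inter_subset_right.trans (hL.Iic_subset h)) hx)
  · have h1 : L ⊆ Iio δ := fun y hy => lt_of_not_ge fun h2 => h (hL h2 hy)
    exact (W.step δ).exc (isClosed_AL _) (W.task δ)
      ⟨fun n => AL_mono h1 (hf.mem n), hf.chain, hf.null, ih δ hδ⟩
      (AL_Iic_le' δ _ (AL_mono inter_subset_right hx))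

omit [LinearOrder I] [WellFoundedLT I] in
theorem transfer_fix {H' : Type} [NormedAddCommGroup H'] [InnerProductSpace ℂ H'] [CompleteSpace H']
    {ρ' : A →⋆ₐ[ℂ] (H' →L[ℂ] H')} {C : StarSubalgebra ℂ A} {f g : ℕ → A} (hf : T.Peak C f)
    {η : H} (h1 : η ∈ Fix ρ f) (h0 : η ≠ 0) {ζ : H'} (h2 : ζ ∈ Fix ρ' f) (hg : ∀ n, g n ∈ C)
    {α : H'} (a1 : α ∈ cyc ρ' C ζ) (a2 : α ≠ 0) (a3 : α ∈ Fix ρ' g) :
    ∃ β : H, β ≠ 0 ∧ β ∈ Fix ρ g := by
  have z0 : ζ ≠ 0 := by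
    rintro rfl
    exact a2 (cyc_induction (Q := {0}) isClosed_singleton (by simp) a1)
  have z1 : 0 < ‖ζ‖ := norm_pos_iff.mpr z0
  have nc : ∀ c ∈ C, ‖ρ c η‖ = ‖ρ' c ζ‖ * (‖η‖ / ‖ζ‖) := fun c hc => by
    have := norm_cross hf.chain (hf.exc _ (mul_mem (star_mem hc) hc)) h1 h2
    field_simp
    exact this
  obtain ⟨s, hs, hl⟩ := mem_closure_iff_seq_limit.mp a1
  choose c hc e using hs
  obtain rfl : s = fun n => ρ' (c n) ζ := funext fun n => (e n).symm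
  have hcau : CauchySeq fun n => ρ (c n) η := by
    refine Metric.cauchySeq_iff.mpr fun ε hε => ?_
    have hp : 0 < ‖η‖ / ‖ζ‖ := div_pos (norm_pos_iff.mpr h0) z1
    obtain ⟨N, hN⟩ := Metric.cauchySeq_iff.mp hl.cauchySeq (ε / (‖η‖ / ‖ζ‖)) (by positivity)
    refine ⟨N, fun m hm n hn => ?_⟩
    have := hN m hm n hn
    have h3 := nc _ (sub_mem (hc m) (hc n))
    simp only [map_sub, ContinuousLinearMap.sub_apply] at h3
    rw [dist_eq_norm] at this ⊢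
    rw [h3]
    exact (lt_div_iff₀ hp).mp this
  obtain ⟨β, hβ⟩ := cauchySeq_tendsto_of_complete hcau
  have key : ∀ y ∈ C, ‖ρ y β‖ = ‖ρ' y α‖ * (‖η‖ / ‖ζ‖) := fun y hy => by
    refine tendsto_nhds_unique (((ρ y).continuous.tendsto β).comp hβ).norm
      (((((ρ' y).continuous.tendsto α).comp hl).norm.mul_const (‖η‖ / ‖ζ‖)).congr fun n => ?_)
    simp only [Function.comp, ← rep_mul]
    exact (nc _ (mul_mem hy (hc n))).symm
  refine ⟨β, ?_, fun n => ?_⟩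
  · rintro rfl
    have := key 1 (one_mem _)
    simp [a2, h0, z0] at this
  · have := key (g n - 1) (sub_mem (hg n) (one_mem _))
    simpa [a3 n, sub_eq_zero] using this

theorem atom_top {S : Set I} (hS : W.Closed S) (hc : S.Countable) (h : W.Atom ρ (W.L S) ⊤) :
    W.Atom ρ (W.L univ) ⊤ := by
  obtain ⟨L, hL, h1, h2⟩ : ∃ L, IsLowerSet L ∧ W.Atom ρ (W.L (S ∩ L)) ⊤ ∧
      ∀ δ ∈ L, ¬ W.Atom ρ (W.L (S ∩ Iio δ)) ⊤ := by
    by_cases h3 : ∃ δ, W.Atom ρ (W.L (S ∩ Iio δ)) ⊤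
    · obtain ⟨δ, d1, d2⟩ := WellFounded.has_min wellFounded_lt
        {δ | W.Atom ρ (W.L (S ∩ Iio δ)) ⊤} h3
      exact ⟨Iio δ, isLowerSet_Iio δ, d1, fun γ hγ h4 => d2 γ h4 hγ⟩
    · exact ⟨univ, isLowerSet_univ, by simpa using h, fun δ _ h4 => h3 ⟨δ, h4⟩⟩
  obtain ⟨f, p1, p2, η, -, p3, p4⟩ := h1
  refine ⟨f, peak_extend hL ⟨fun n => AL_mono inter_subset_right (p1.mem n), p1.chain, p1.null,
    fun a ha => ?_⟩, p2, η, trivial, p3, p4⟩
  obtain ⟨c, hc', e1⟩ := hasExp hS L hL a ha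
  have : a = c + (a - c) := by abel
  rw [this]
  refine (p1.exc c hc').add ⟨0, p1.chain.EC T fun H' _ _ _ ρ' ζ hζ => ?_⟩
  have hv := van (ρ := ρ') hS hc hL (isClosed_cyc _ ζ) (inv_cyc _ ζ) (fun δ hδ => by
    rintro ⟨g, q1, q2, α, q3, q4, q5⟩
    obtain ⟨β, b1, b2⟩ := transfer_fix p1 p4 p3 hζ
      (fun n => AL_mono (inter_subset_inter_right _ (hL.Iio_subset hδ)) (q1.mem n)) q3 q4 q5
    exact h2 δ hδ ⟨g, q1, q2, β, trivial, b1, b2⟩) L hL subset_rfl (a - c)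
    (sub_mem ha (AL_mono inter_subset_right hc'))
  exact Tr.GG_perp hv e1 ζ (self_mem_cyc _ ζ) (p1.nullSeq.fix_mem_Sing hζ) ζ
    (p1.nullSeq.fix_mem_Sing hζ)

omit [LinearOrder I] [WellFoundedLT I] in
theorem isClosed_AE (C : StarSubalgebra ℂ A) (ξ : H) :
    IsClosed {p : A × A | T.AE ρ C (ρ p.1 ξ) p.2} := by
  refine isClosed_of_closure_subset fun p hp ε hε => ?_
  set Φ : A × A → A := fun p => ⟪ρ p.1 ξ, ρ p.1 ξ⟫_ℂ • p.2 - ⟪ρ p.1 ξ, ρ p.2 (ρ p.1 ξ)⟫_ℂ • 1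
  have c1 : Continuous fun p : A × A => ρ p.1 ξ := (rep_cont ρ ξ).comp continuous_fst
  have c2 : Continuous fun p : A × A => ρ p.2 (ρ p.1 ξ) := by
    simp only [← rep_mul]; exact (rep_cont ρ ξ).comp (by fun_prop)
  have c3 : Continuous Φ := ((c1.inner c1).smul continuous_snd).sub
    ((c1.inner c2).smul continuous_const)
  have hU : {q : A × A | ‖ρ p.1 ξ - ρ q.1 ξ‖ < ε / 4} ∩ {q | ‖Φ p - Φ q‖ < ε / 2} ∈ 𝓝 p :=
    inter_mem ((isOpen_lt (continuous_const.sub c1).norm continuous_const).mem_nhds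
      (by simpa using hε))
      ((isOpen_lt (continuous_const.sub c3).norm continuous_const).mem_nhds (by
        show ‖Φ p - Φ p‖ < ε / 2
        rw [sub_self, norm_zero]; positivity))
  obtain ⟨q, ⟨h1, h2⟩, hq⟩ := mem_closure_iff_nhds.mp hp _ hU
  obtain ⟨e, e1, e2, e3, e4, e5, e6⟩ := hq (ε / 2) (by positivity)
  simp only [mem_setOf_eq] at h1 h2
  refine ⟨e, e1, e2, e3, ?_, by linarith, ?_⟩
  · have : ρ e (ρ p.1 ξ) - ρ p.1 ξ = ρ e (ρ p.1 ξ - ρ q.1 ξ) + (ρ e (ρ q.1 ξ) - ρ q.1 ξ)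
        - (ρ p.1 ξ - ρ q.1 ξ) := by simp
    rw [this]
    have a1 : ‖ρ e (ρ p.1 ξ - ρ q.1 ξ)‖ ≤ ‖ρ p.1 ξ - ρ q.1 ξ‖ :=
      (rep_norm_le _ _ _).trans (mul_le_of_le_one_left (norm_nonneg _) e3)
    refine (norm_sub_le _ _).trans_lt ?_
    linarith [norm_add_le (ρ e (ρ p.1 ξ - ρ q.1 ξ)) (ρ e (ρ q.1 ξ) - ρ q.1 ξ)]
  · show ‖e * Φ p * e‖ < ε
    have : e * Φ p * e = e * (Φ p - Φ q) * e + e * Φ q * e := by noncomm_ring
    rw [this]
    have a1 : ‖e * (Φ p - Φ q) * e‖ ≤ 1 * ‖Φ p - Φ q‖ * 1 :=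
      (norm_mul_le _ _).trans (by gcongr; exact (norm_mul_le _ _).trans (by gcongr))
    have a2 : ‖e * Φ q * e‖ < ε / 2 := e6
    linarith [norm_add_le (e * (Φ p - Φ q) * e) (e * Φ q * e)]

omit [WellFoundedLT I] in
theorem reflect {ξ : H} (h : ∀ x a, T.AE ρ (W.L univ) (ρ x ξ) a) :
    ∃ S : Set I, S.Countable ∧ W.Closed S ∧ ∀ x ∈ W.L S, ∀ a ∈ W.L S, T.AE ρ (W.L S) (ρ x ξ) a := by
  have next : ∀ S : {S : Set I // S.Countable}, ∃ S' : {S : Set I // S.Countable}, S.1 ⊆ S'.1 ∧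
      (∀ β ∈ S.1, ∀ b n, W.E β b n ∈ W.L (S'.1 ∩ Iio β)) ∧
      ∀ x ∈ W.L S.1, ∀ a ∈ W.L S.1, T.AE ρ (W.L S'.1) (ρ x ξ) a := by
    rintro ⟨S, hS⟩
    obtain ⟨D, -, D2, D3⟩ := ((separable_AL (u := W.u) W.base_count hS).prod
      (separable_AL (u := W.u) W.base_count hS)).exists_countable_dense_subset
    choose e e1 e2 using fun (p : A × A) (k : ℕ) => h p.1 p.2 (1 / ((k : ℝ) + 1))
      Nat.one_div_pos_of_nat
    choose U U1 U2 U3 using fun p k => AL_countable_support (e1 p k)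
    choose V V1 V2 V3 using fun β b n => AL_countable_support ((W.task β).mem b n)
    refine ⟨⟨S ∪ (⋃ p ∈ D, ⋃ k, U p k) ∪ ⋃ β ∈ S, ⋃ b, ⋃ n, V β b n, (hS.union
      (D2.biUnion fun p _ => countable_iUnion (U2 p))).union (hS.biUnion fun β _ =>
        countable_iUnion fun b => countable_iUnion (V2 β b))⟩,
      subset_union_left.trans subset_union_left, fun β hβ b n => AL_mono (fun y hy =>
        mem_inter (Or.inr (by simp only [mem_iUnion]; exact ⟨β, hβ, b, n, hy⟩)) (V1 β b n hy))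
        (V3 β b n),
      fun x hx a ha => ?_⟩
    refine closure_minimal (fun p hp ε hε => ?_) (isClosed_AE _ ξ) (D3 (mk_mem_prod hx ha))
    obtain ⟨k, hk⟩ := exists_nat_one_div_lt hε
    obtain ⟨a1, a2, a3, a4, a5⟩ := e2 p k
    exact ⟨e p k, AL_mono (fun y hy => Or.inl (Or.inr (by
      simp only [mem_iUnion]; exact ⟨p, hp, k, hy⟩))) (U3 p k), a1, a2, a3.trans hk, a4.trans hk,
      a5.trans hk⟩
  choose nx n1 n2 n3 using next
  let s : ℕ → {S : Set I // S.Countable} := fun n => nx^[n] ⟨∅, countable_empty⟩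
  have hs : ∀ n, s (n + 1) = nx (s n) := fun n => Function.iterate_succ_apply' _ _ _
  have hm : Monotone fun n => (s n).1 := monotone_nat_of_le_succ fun n => by
    simp only [hs]; exact n1 _
  have hu : ∀ n, (s n).1 ⊆ ⋃ n, (s n).1 := subset_iUnion fun n => (s n).1
  refine ⟨⋃ n, (s n).1, countable_iUnion fun n => (s n).2, fun β hβ b n => ?_, fun x hx a ha => ?_⟩
  · obtain ⟨m, hβ⟩ := mem_iUnion.mp hβ
    exact AL_mono (inter_subset_inter_left _ (hs m ▸ hu (m + 1))) (n2 _ β hβ b n)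
  have h1 : (W.L (⋃ n, (s n).1) : Set A) ⊆ closure (⋃ n, (W.L (s n).1 : Set A)) := by
    refine AL_finite isClosed_closure fun F f1 f2 x hx => subset_closure ?_
    obtain ⟨m, hm⟩ : ∃ m, F ⊆ (s m).1 := by
      clear hx
      induction F, f2 using Set.Finite.induction_on with
      | empty => exact ⟨0, empty_subset _⟩
      | @insert y F _ _ ih =>
        obtain ⟨m, h2⟩ := ih ((subset_insert _ _).trans f1)
        obtain ⟨k, h3⟩ := mem_iUnion.mp (f1 (mem_insert _ _))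
        exact ⟨max m k, insert_subset (hm (le_max_right _ _) h3) (h2.trans (hm (le_max_left _ _)))⟩
    exact mem_iUnion.mpr ⟨m, AL_mono hm hx⟩
  have h2 := mk_mem_prod (h1 hx) (h1 ha)
  rw [← closure_prod_eq] at h2
  refine closure_minimal (fun p hp ε hε => ?_) (isClosed_AE _ ξ) h2
  obtain ⟨m, p1⟩ := mem_iUnion.mp hp.1
  obtain ⟨k, p2⟩ := mem_iUnion.mp hp.2
  obtain ⟨e, e1, e2⟩ := n3 (s (max m k)) p.1 (AL_mono (hm (le_max_left _ _)) p1) p.2
    (AL_mono (hm (le_max_right _ _)) p2) ε hε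
  exact ⟨e, AL_mono (hs _ ▸ hu (max m k + 1)) e1, e2⟩

theorem exists_peak (htop : W.L univ = ⊤) (h : Irr ρ)
    (hq : ∀ γ > 0, ∃ q, IsStarProjection q ∧ ρ q ≠ 0 ∧ ‖T.v q‖ ≤ γ) : W.Atom ρ ⊤ ⊤ := by
  obtain ⟨q₀, -, h0, -⟩ := hq 1 one_pos
  have : Nontrivial H := by
    by_contra h2
    rw [not_nontrivial_iff_subsingleton] at h2
    exact h0 (Subsingleton.elim _ _)
  obtain ⟨ξ, hξ⟩ := exists_ne (0 : H)
  obtain ⟨S, s1, s2, s3⟩ := reflect (W := W) (ξ := ξ) fun x a => by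
    rw [htop]
    exact Tr.AE_of_KP (by simp) h.KP (fun _ _ _ _ => trivial) trivial (h.sing_top T hq _) trivial
  obtain ⟨f, p1, p2, η, -, p3⟩ := Tr.exists_atom (T := T) (isClosed_AL _)
    (separable_AL W.base_count s1) hξ s3 W.r_proj (base_mem_AL _ W.r_mem)
  rw [← htop]
  exact atom_top s2 s1 ⟨f, p1, p2, η, trivial, p3⟩

end Tower
end Crest.Agent.H3N
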